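import Vale.Agent.P183.Defs

/-!
# P183: adding a new top or a new bottom to a congruence lattice
-/

namespace P183

/-- the order with a new top -/
def leTop {P : Type} (le : P → P → Prop) : Option P → Option P → Prop
  | _, none => True
  | none, some _ => False
  | some p, some q => le p q

/-- the order with a new bottom -/
def leBot {P : Type} (le : P → P → Prop) : Option P → Option P → Prop
  | none, _ => True
  | some _, none => False
  | some p, some q => le p q

/-- extend an equivalence relation by an isolated point -/
def extTop {A : Type} (r : Setoid A) : Setoid (Option A) where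
  r x y := match x, y with
    | none, none => True
    | some a, some b => r a b
    | none, some _ => False
    | some _, none => False
  iseqv := by
    refine ⟨?_, ?_, ?_⟩
    · intro x
      match x with
      | none => trivial
      | some a => exact r.refl a
    · intro x y h
      match x, y, h with
      | none, none, _ => trivial
      | some a, some b, h => exact r.symm h
    · intro x y z h h'
      match x, y, z, h, h' with
      | none, none, none, _, _ => trivial
      | some a, some b, some c, h, h' => exact r.trans h h'

/-- the operations for a new top -/
def opTop {A ι : Type} (f : ι → A → A) : ι ⊕ A → Option A → Option A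
  | Sum.inl i, o => o.map (f i)
  | Sum.inr x, none => some x
  | Sum.inr _, some _ => none

/-- the congruence attached to a point -/
def conTop {P A ι : Type} (f : ι → A → A) (c : P → UCon f) : Option P → UCon (opTop f)
  | none => ⟨⊤, fun _ _ _ _ => trivial⟩
  | some p => ⟨extTop (c p).1, by
      intro i x y h
      match i, x, y, h with
      | Sum.inl i, none, none, _ => trivial
      | Sum.inl i, some a, some b, h => exact (c p).2 i a b h
      | Sum.inr i, none, none, _ => exact (c p).1.refl i
      | Sum.inr i, some a, some b, h => trivial⟩

theorem URep.optTop {P : Type} {le : P → P → Prop} (h : URep P le) :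
    URep (Option P) (leTop le) := by
  obtain ⟨A, hA, ⟨a0⟩, ι, hι, f, c, hc, hle⟩ := h
  refine ⟨Option A, inferInstance, ⟨none⟩, ι ⊕ A, inferInstance, opTop f, conTop f c, ?_, ?_⟩
  · rintro ⟨r, hr⟩
    by_cases hx : ∃ a, r none (some a)
    · refine ⟨none, ?_⟩
      apply Subtype.ext
      show (⊤ : Setoid (Option A)) = r
      symm
      rw [eq_top_iff]
      obtain ⟨a, ha⟩ := hx
      have key : ∀ x : A, r (some x) none := fun x => hr (Sum.inr x) _ _ ha
      have key2 : ∀ x : Option A, r x none := by
        intro x
        match x with
        | none => exact r.refl _
        | some x => exact key x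
      intro x y _
      exact r.trans (key2 x) (r.symm (key2 y))
    · let s : Setoid A := Setoid.comap some r
      have hs : ∀ (i : ι) (x y : A), s x y → s (f i x) (f i y) := by
        intro i x y h
        exact hr (Sum.inl i) (some x) (some y) h
      obtain ⟨p, hp⟩ := hc ⟨s, hs⟩
      refine ⟨some p, ?_⟩
      apply Subtype.ext
      show extTop (c p).1 = r
      rw [hp]
      apply Setoid.ext
      intro x y
      match x, y with
      | none, none => exact iff_of_true trivial (r.refl _)
      | some a, some b => exact Iff.rfl
      | none, some b => exact iff_of_false (fun h => h) (fun h => hx ⟨b, h⟩)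
      | some a, none => exact iff_of_false (fun h => h) (fun h => hx ⟨a, r.symm h⟩)
  · intro p q
    match p, q with
    | p, none => exact iff_of_true (fun x y _ => trivial) trivial
    | none, some q =>
      refine iff_of_false (fun h => ?_) (fun h => h)
      exact h (show (⊤ : Setoid (Option A)) none (some a0) from trivial)
    | some p, some q =>
      rw [leTop, ← hle]
      constructor
      · intro h x y hxy
        exact h (show extTop (c p).1 (some x) (some y) from hxy)
      · intro h x y hxy
        match x, y, hxy with
        | none, none, _ => trivial
        | some a, some b, hxy => exact h hxy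

/-- pull back an equivalence relation to `A × Bool` -/
def opBot {A ι : Type} [DecidableEq A] (f : ι → A → A) : ι ⊕ ((A × Bool) × A) → A × Bool → A × Bool
  | Sum.inl i, o => (f i o.1, o.2)
  | Sum.inr (u, c), o => (c, decide (o = u))

/-- the congruence attached to a point -/
def conBot {P A ι : Type} [DecidableEq A] (f : ι → A → A) (c : P → UCon f) :
    Option P → UCon (opBot f)
  | none => ⟨⊥, by
      intro i x y h
      have h' : x = y := h
      subst h'
      exact rfl⟩
  | some p => ⟨Setoid.comap Prod.fst (c p).1, by
      intro i x y h
      match i with
      | Sum.inl i => exact (c p).2 i x.1 y.1 h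
      | Sum.inr (u, d) => exact (c p).1.refl d⟩

theorem URep.optBot {P : Type} {le : P → P → Prop} (h : URep P le) :
    URep (Option P) (leBot le) := by
  classical
  obtain ⟨A, hA, ⟨a0⟩, ι, hι, f, c, hc, hle⟩ := h
  refine ⟨A × Bool, inferInstance, ⟨(a0, true)⟩, ι ⊕ ((A × Bool) × A), inferInstance, opBot f,
    conBot f c, ?_, ?_⟩
  · rintro ⟨r, hr⟩
    by_cases hx : ∃ x y, x ≠ y ∧ r x y
    · obtain ⟨x, y, hxy, h⟩ := hx
      have key : ∀ a : A, r (a, true) (a, false) := by
        intro a
        have := hr (Sum.inr (x, a)) _ _ h
        simpa [opBot, hxy.symm] using this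
      have key2 : ∀ (a : A) (b b' : Bool), r (a, b) (a, b') := by
        intro a b b'
        match b, b' with
        | true, true => exact r.refl _
        | false, false => exact r.refl _
        | true, false => exact key a
        | false, true => exact r.symm (key a)
      let s : Setoid A := Setoid.comap (fun a => (a, true)) r
      have hs : ∀ (i : ι) (x y : A), s x y → s (f i x) (f i y) := by
        intro i x y h
        exact hr (Sum.inl i) (x, true) (y, true) h
      obtain ⟨p, hp⟩ := hc ⟨s, hs⟩
      refine ⟨some p, ?_⟩
      apply Subtype.ext
      show Setoid.comap Prod.fst (c p).1 = r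
      rw [hp]
      apply Setoid.ext
      rintro ⟨a, b⟩ ⟨a', b'⟩
      constructor
      · intro h1
        have h1' : r (a, true) (a', true) := h1
        exact r.trans (key2 a b true) (r.trans h1' (key2 a' true b'))
      · intro h1
        exact r.trans (key2 a true b) (r.trans h1 (key2 a' b' true))
    · refine ⟨none, ?_⟩
      apply Subtype.ext
      show (⊥ : Setoid (A × Bool)) = r
      symm
      rw [eq_bot_iff]
      intro x y h
      by_contra hne
      exact hx ⟨x, y, hne, h⟩
  · intro p q
    match p, q with
    | none, q =>
      refine iff_of_true ?_ trivial
      intro x y h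
      have h' : x = y := h
      subst h'
      exact (conBot f c q).1.refl _
    | some p, none =>
      refine iff_of_false (fun h => ?_) (fun h => h)
      have h1 : Setoid.comap Prod.fst (c p).1 (a0, true) (a0, false) := (c p).1.refl a0
      have h2 : (a0, true) = (a0, false) := h h1
      simp at h2
    | some p, some q =>
      rw [leBot, ← hle]
      constructor
      · intro h x y hxy
        exact h (show Setoid.comap Prod.fst (c p).1 (x, true) (y, true) from hxy)
      · intro h x y hxy
        exact h (show (c p).1 x.1 y.1 from hxy)

/-- transport along a bijection -/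
theorem URep.congr' {P Q : Type} {le : P → P → Prop} {le' : Q → Q → Prop} (h : URep P le)
    (e : P ≃ Q) (he : ∀ p q, le' (e p) (e q) ↔ le p q) : URep Q le' := by
  obtain ⟨A, hA, hne, ι, hι, f, c, hc, hle⟩ := h
  refine ⟨A, hA, hne, ι, hι, f, c ∘ e.symm, hc.comp e.symm.surjective, ?_⟩
  intro p q
  rw [Function.comp_apply, Function.comp_apply, hle, ← he, e.apply_symm_apply, e.apply_symm_apply]

/-- add a new top: `rel'` on the old elements is `rel` together with all pairs `(i, n-1)`,
`1 ≤ i < n-1` (hypothesis `hr`), and the new top `n` is not below an old element (`ht`). -/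
theorem RepCode.addTop {n : ℕ} {rel rel' : List (ℕ × ℕ)} (h : RepCode n rel)
    (hr : ∀ i j : Fin n, leOf (n + 1) rel' i.castSucc j.castSucc ↔ leOf n rel i j)
    (ht : ∀ j : Fin n, ¬ leOf (n + 1) rel' (Fin.last n) j.castSucc) :
    RepCode (n + 1) rel' := by
  refine URep.congr' (URep.optTop h) finSuccEquivLast.symm ?_
  intro p q
  match p, q with
  | p, none =>
    refine iff_of_true ?_ trivial
    simp [leOf]
  | none, some q =>
    refine iff_of_false ?_ (fun h => h)
    simpa using ht q
  | some p, some q =>
    rw [leTop]
    simpa using hr p q

/-- add a new bottom: the old elements are shifted by one (hypothesis `hr`), and the new bottom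
is not above an old element (`hb`). -/
theorem RepCode.addBot {n : ℕ} {rel rel' : List (ℕ × ℕ)} (h : RepCode n rel)
    (hr : ∀ i j : Fin n, leOf (n + 1) rel' i.succ j.succ ↔ leOf n rel i j)
    (hb : ∀ i : Fin n, ¬ leOf (n + 1) rel' i.succ 0) :
    RepCode (n + 1) rel' := by
  refine URep.congr' (URep.optBot h) (finSuccEquiv n).symm ?_
  intro p q
  match p, q with
  | none, q =>
    refine iff_of_true ?_ trivial
    simp [leOf]
  | some p, none =>
    refine iff_of_false ?_ (fun h => h)
    simpa using hb p
  | some p, some q =>
    rw [leBot]
    simpa using hr p q

end P183
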