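import Vale.Agent.P183.Defs

/-!
# P183: from unary algebras to finite algebras; transport
-/

namespace P183

theorem URep.representable {P : Type} {le : P → P → Prop} (h : URep P le) (L : Type) [Lattice L]
    (e : P ≃ L) (he : ∀ p q, e p ≤ e q ↔ le p q) : Representable L := by
  obtain ⟨A, hA, hA0, ι, hι, f, c, hc, hle⟩ := h
  obtain ⟨k, ⟨ε⟩⟩ := Finite.exists_equiv_fin ι
  refine ⟨A, hA, hA0, k, fun _ => 1, fun i x => f (ε.symm i) (x 0), ⟨?_⟩⟩
  -- the two sets of congruences agree
  have hiff : ∀ r : Setoid A, IsCong (fun _ : Fin k => 1) (fun i x => f (ε.symm i) (x 0)) r ↔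
      ∀ (i : ι) (x y : A), r x y → r (f i x) (f i y) := by
    intro r
    constructor
    · intro hr i x y hxy
      have := hr (ε i) (fun _ => x) (fun _ => y) (fun _ => hxy)
      simpa using this
    · intro hr i x y hxy
      exact hr (ε.symm i) (x 0) (y 0) (hxy 0)
  have hinj : Function.Injective c := by
    intro p q hpq
    apply e.injective
    apply le_antisymm
    · rw [he, ← hle, hpq]
    · rw [he, ← hle, hpq]
  let E : P ≃ UCon f := Equiv.ofBijective c ⟨hinj, hc⟩
  let F : {r : Setoid A // IsCong (fun _ : Fin k => 1) (fun i x => f (ε.symm i) (x 0)) r} ≃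
      UCon f := Equiv.subtypeEquivRight hiff
  refine ⟨F.trans (E.symm.trans e), ?_⟩
  intro r s
  show e (E.symm (F r)) ≤ e (E.symm (F s)) ↔ r ≤ s
  rw [he, ← hle]
  have h1 : ∀ x, c (E.symm x) = x := fun x => E.apply_symm_apply x
  rw [h1, h1]
  exact Iff.rfl

theorem URep.congr {P Q : Type} {le : P → P → Prop} {le' : Q → Q → Prop} (h : URep P le)
    (e : P ≃ Q) (he : ∀ p q, le' (e p) (e q) ↔ le p q) : URep Q le' := by
  obtain ⟨A, hA, hA0, ι, hι, f, c, hc, hle⟩ := h
  refine ⟨A, hA, hA0, ι, hι, f, fun q => c (e.symm q), hc.comp e.symm.surjective, ?_⟩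
  intro p q
  rw [hle, ← he, e.apply_symm_apply, e.apply_symm_apply]

theorem RepCode.perm {n : ℕ} {rel rel' : List (ℕ × ℕ)} (h : RepCode n rel) (σ : Equiv.Perm (Fin n))
    (hσ : ∀ i j, leOf n rel' (σ i) (σ j) ↔ leOf n rel i j) : RepCode n rel' :=
  URep.congr h σ hσ

end P183
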