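import Vale.Agent.P183.Defs

/-!
# P183: generic kernel checkers for congruence lattices of small unary algebras

Tables are packed in base `128`: the table of `f : {0, ..., m-1} → {0, ..., 127}` is
`∑ z, f z * 128 ^ z`.
-/

namespace P183

namespace Chk

/-- entry `z` of a packed table -/
def look (F z : ℕ) : ℕ := Nat.mod (Nat.shiftRight F (Nat.mul 7 z)) 128

def allN : ℕ → (ℕ → Bool) → Bool
  | 0, _ => true
  | k + 1, p => p k && allN k p

theorem allN_iff (m : ℕ) (p : ℕ → Bool) : allN m p = true ↔ ∀ k < m, p k = true := by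
  induction m with
  | zero => simp [allN]
  | succ k ih =>
    rw [allN, Bool.and_eq_true, ih]
    constructor
    · rintro ⟨h1, h2⟩ j hj
      rcases Nat.lt_succ_iff_lt_or_eq.1 hj with h | h
      · exact h2 j h
      · rw [h]; exact h1
    · intro h
      exact ⟨h k (Nat.lt_succ_self k), fun j hj => h j (Nat.lt_succ_of_lt hj)⟩

/-- existence of an index below `n` -/
def anyN : ℕ → (ℕ → Bool) → Bool
  | 0, _ => false
  | k + 1, p => p k || anyN k p

theorem anyN_iff (m : ℕ) (p : ℕ → Bool) : anyN m p = true ↔ ∃ k < m, p k = true := by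
  induction m with
  | zero => simp [anyN]
  | succ k ih =>
    rw [anyN, Bool.or_eq_true, ih]
    constructor
    · rintro (h1 | ⟨j, hj, h2⟩)
      · exact ⟨k, Nat.lt_succ_self k, h1⟩
      · exact ⟨j, Nat.lt_succ_of_lt hj, h2⟩
    · rintro ⟨j, hj, h2⟩
      rcases Nat.lt_succ_iff_lt_or_eq.1 hj with h | h
      · exact Or.inr ⟨j, h, h2⟩
      · left; rw [← h]; exact h2

/-- evaluate a natural number before going on -/
def force {α : Type} (n : ℕ) (k : ℕ → α) : α :=
  Nat.casesOn n (k 0) (fun j => k (Nat.succ j))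

@[simp] theorem force_eq {α : Type} (n : ℕ) (k : ℕ → α) : force n k = k n := by
  cases n <;> rfl

/-- the coded order as a Boolean -/
def leB (n : ℕ) (rel : List (ℕ × ℕ)) (i j : ℕ) : Bool :=
  Nat.beq i j || (Nat.beq i 0 || (Nat.beq (j + 1) n ||
    rel.any (fun p => Nat.beq p.1 i && Nat.beq p.2 j)))

theorem leB_iff (n : ℕ) (rel : List (ℕ × ℕ)) (i j : Fin n) :
    leB n rel i j = true ↔ leOf n rel i j := by
  unfold leB leOf
  rw [Bool.or_eq_true, Bool.or_eq_true, Bool.or_eq_true, List.any_eq_true]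
  simp only [Nat.beq_eq, Bool.and_eq_true, Fin.ext_iff]
  constructor
  · rintro (h | h | h | ⟨⟨a, b⟩, h1, h2, h3⟩)
    · exact Or.inl h
    · exact Or.inr (Or.inl h)
    · exact Or.inr (Or.inr (Or.inl h))
    · refine Or.inr (Or.inr (Or.inr ?_))
      simp only at h2 h3
      rw [← h2, ← h3]; exact h1
  · rintro (h | h | h | h)
    · exact Or.inl h
    · exact Or.inr (Or.inl h)
    · exact Or.inr (Or.inr (Or.inl h))
    · exact Or.inr (Or.inr (Or.inr ⟨_, h, rfl, rfl⟩))

/-- class map `C` refines class map `C'` -/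
def refines (m C C' : ℕ) : Bool := allN m (fun a => Nat.beq (look C' a) (look C' (look C a)))

/-- the checks common to both modes -/
def checkBase (m n : ℕ) (ops cs : List ℕ) (rel : List (ℕ × ℕ)) : Bool :=
  Nat.ble 1 m && (Nat.beq cs.length n &&
  (ops.all (fun F => allN m (fun z => Nat.blt (look F z) m)) &&
  (cs.all (fun C => allN m (fun z => Nat.blt (look C z) m)) &&
  (cs.all (fun C => allN m (fun z => Nat.beq (look C (look C z)) (look C z))) &&
  (cs.all (fun C => ops.all (fun F => allN m (fun z =>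
    Nat.beq (look C (look F z)) (look C (look F (look C z)))))) &&
  (allN n (fun i => allN n (fun j =>
    Bool.xor (leB n rel i j) (!(refines m (cs.getD i 0) (cs.getD j 0))))) &&
  cs.any (fun C => allN m (fun z => Nat.beq (look C z) z))))))))

section Sound

variable {m n : ℕ} {ops cs : List ℕ} {rel : List (ℕ × ℕ)}

/-- the operation with packed table `F` -/
def opF (m : ℕ) (F : ℕ) (z : Fin m) : Fin m :=
  if h : look F z < m then ⟨look F z, h⟩ else z

/-- the relation on numbers induced by a setoid on `Fin m` -/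
def T (θ : Setoid (Fin m)) (a b : ℕ) : Prop := ∃ (ha : a < m) (hb : b < m), θ ⟨a, ha⟩ ⟨b, hb⟩

theorem T.symm {θ : Setoid (Fin m)} {a b : ℕ} (h : T θ a b) : T θ b a := by
  obtain ⟨ha, hb, h⟩ := h
  exact ⟨hb, ha, θ.symm h⟩

theorem T.trans {θ : Setoid (Fin m)} {a b c : ℕ} (h : T θ a b) (h' : T θ b c) : T θ a c := by
  obtain ⟨ha, hb, h⟩ := h
  obtain ⟨_, hc, h'⟩ := h'
  exact ⟨ha, hc, θ.trans h h'⟩

theorem T.refl (θ : Setoid (Fin m)) {a : ℕ} (h : a < m) : T θ a a := ⟨h, h, θ.refl _⟩

/-- compatible with the packed operations -/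
def Comp (ops : List ℕ) (θ : Setoid (Fin m)) : Prop :=
  ∀ F ∈ ops, ∀ a b, T θ a b → T θ (look F a) (look F b)

/-- class map relation is contained in `θ` -/
def CLe (m : ℕ) (C : ℕ) (θ : Setoid (Fin m)) : Prop :=
  ∀ a b, a < m → b < m → look C a = look C b → T θ a b

theorem checkBase_sound (h : checkBase m n ops cs rel = true)
    (hmain : ∀ θ : Setoid (Fin m), Comp ops θ →
      (∀ x y, T θ x y → ∃ i < n, look (cs.getD i 0) x = look (cs.getD i 0) y ∧
        CLe m (cs.getD i 0) θ) ∧
      (∀ i k, i < n → k < n → CLe m (cs.getD i 0) θ → CLe m (cs.getD k 0) θ →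
        ∃ l < n, refines m (cs.getD i 0) (cs.getD l 0) = true ∧
          refines m (cs.getD k 0) (cs.getD l 0) = true ∧ CLe m (cs.getD l 0) θ)) :
    RepCode n rel := by
  unfold checkBase at h
  rw [Bool.and_eq_true, Bool.and_eq_true, Bool.and_eq_true, Bool.and_eq_true, Bool.and_eq_true,
    Bool.and_eq_true, Bool.and_eq_true] at h
  obtain ⟨h0, h1, h2, h3, h4, h5, h6, h7⟩ := h
  have hm : 1 ≤ m := by simpa using h0
  have hn : cs.length = n := by simpa using h1
  have hops : ∀ F ∈ ops, ∀ z < m, look F z < m := by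
    intro F hF z hz
    have := (allN_iff _ _).1 (List.all_eq_true.1 h2 F hF) z hz
    simpa [Nat.blt_eq] using this
  have hcsm : ∀ C ∈ cs, ∀ z < m, look C z < m := by
    intro F hF z hz
    have := (allN_iff _ _).1 (List.all_eq_true.1 h3 F hF) z hz
    simpa [Nat.blt_eq] using this
  have hidem : ∀ C ∈ cs, ∀ z < m, look C (look C z) = look C z := by
    intro F hF z hz
    have := (allN_iff _ _).1 (List.all_eq_true.1 h4 F hF) z hz
    simpa using this
  have hinv : ∀ C ∈ cs, ∀ F ∈ ops, ∀ z < m, look C (look F z) = look C (look F (look C z)) := by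
    intro C hC F hF z hz
    have := (allN_iff _ _).1 (List.all_eq_true.1 (List.all_eq_true.1 h5 C hC) F hF) z hz
    simpa using this
  have hmem : ∀ i < n, cs.getD i 0 ∈ cs := by
    intro i hi
    rw [← hn] at hi
    rw [List.getD_eq_getElem _ _ hi]
    exact List.getElem_mem hi
  have href : ∀ i < n, ∀ j < n, (refines m (cs.getD i 0) (cs.getD j 0) = true ↔
      ∀ a b, a < m → b < m → look (cs.getD i 0) a = look (cs.getD i 0) b →
        look (cs.getD j 0) a = look (cs.getD j 0) b) := by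
    intro i hi j hj
    unfold refines
    rw [allN_iff]
    constructor
    · intro h a b ha hb hab
      have e1 := h a ha
      have e2 := h b hb
      simp only [Nat.beq_eq] at e1 e2
      rw [e1, e2, hab]
    · intro h a ha
      simp only [Nat.beq_eq]
      exact h a _ ha (hcsm _ (hmem i hi) a ha) (hidem _ (hmem i hi) a ha).symm
  have hord : ∀ i j : Fin n, leOf n rel i j ↔
      refines m (cs.getD i 0) (cs.getD j 0) = true := by
    intro i j
    have := (allN_iff _ _).1 ((allN_iff _ _).1 h6 i i.2) j j.2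
    rw [← leB_iff]
    revert this
    cases leB n rel i j <;> cases refines m (cs.getD i 0) (cs.getD j 0) <;> simp
  -- the congruences
  let f : Fin ops.length → Fin m → Fin m := fun k => opF m (ops.get k)
  have hf : ∀ k (x : Fin m), ((f k x : Fin m) : ℕ) = look (ops.get k) x := by
    intro k x
    have : look (ops.get k) x < m := hops _ (List.get_mem _ _) x x.2
    change ((opF m (ops.get k) x : Fin m) : ℕ) = _
    unfold opF
    rw [dif_pos this]
  let c : Fin n → UCon f := fun i => ⟨Setoid.ker (fun z : Fin m => look (cs.getD i 0) z), by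
    intro k x y hxy
    rw [Setoid.ker_def] at hxy ⊢
    rw [hf, hf, hinv _ (hmem i i.2) _ (List.get_mem _ _) x x.2,
      hinv _ (hmem i i.2) _ (List.get_mem _ _) y y.2, hxy]⟩
  have hc : ∀ (i : Fin n) (x y : Fin m), (c i).1 x y ↔ look (cs.getD i 0) x = look (cs.getD i 0) y := by
    intro i x y
    exact Setoid.ker_def
  have hcle : ∀ i j : Fin n, c i ≤ c j ↔ refines m (cs.getD i 0) (cs.getD j 0) = true := by
    intro i j
    rw [href i i.2 j j.2]
    constructor
    · intro h a b ha hb hab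
      have h' : (c i).1 ≤ (c j).1 := h
      have := h' ((hc i ⟨a, ha⟩ ⟨b, hb⟩).2 hab)
      exact (hc j ⟨a, ha⟩ ⟨b, hb⟩).1 this
    · intro h
      change (c i).1 ≤ (c j).1
      intro x y hxy
      exact (hc j x y).2 (h x y x.2 y.2 ((hc i x y).1 hxy))
  refine ⟨Fin m, inferInstance, ⟨⟨0, hm⟩⟩, Fin ops.length, inferInstance, f, c, ?_, ?_⟩
  · rintro ⟨θ, hθ⟩
    have hcomp : Comp ops θ := by
      rintro F hF a b ⟨ha, hb, hab⟩
      obtain ⟨k, rfl⟩ := List.get_of_mem hF
      refine ⟨hops _ hF a ha, hops _ hF b hb, ?_⟩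
      have := hθ k _ _ hab
      have e1 : f k ⟨a, ha⟩ = ⟨look (ops.get k) a, hops _ hF a ha⟩ := Fin.ext (hf k ⟨a, ha⟩)
      have e2 : f k ⟨b, hb⟩ = ⟨look (ops.get k) b, hops _ hF b hb⟩ := Fin.ext (hf k ⟨b, hb⟩)
      rwa [e1, e2] at this
    obtain ⟨hpair, hjoin⟩ := hmain θ hcomp
    have hCle : ∀ i : Fin n, c i ≤ ⟨θ, hθ⟩ ↔ CLe m (cs.getD i 0) θ := by
      intro i
      constructor
      · intro h a b ha hb hab
        have h' : (c i).1 ≤ θ := h
        exact ⟨ha, hb, h' ((hc i ⟨a, ha⟩ ⟨b, hb⟩).2 hab)⟩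
      · intro h
        change (c i).1 ≤ θ
        intro x y hxy
        obtain ⟨_, _, h'⟩ := h x y x.2 y.2 ((hc i x y).1 hxy)
        exact h'
    -- maximal index
    classical
    let P : Finset (Fin n) := Finset.univ.filter (fun i => c i ≤ (⟨θ, hθ⟩ : UCon f))
    have hP : P.Nonempty := by
      obtain ⟨C, hC, hC2⟩ := List.any_eq_true.1 h7
      obtain ⟨i, hi⟩ := List.get_of_mem hC
      have hin : (i : ℕ) < n := by rw [← hn]; exact i.2
      refine ⟨⟨i, hin⟩, ?_⟩
      rw [Finset.mem_filter]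
      refine ⟨Finset.mem_univ _, ?_⟩
      rw [hCle]
      intro a b ha hb hab
      have hgd : cs.getD ((⟨i, hin⟩ : Fin n) : ℕ) 0 = C := by
        rw [← hi]
        exact List.getD_eq_getElem _ _ i.2
      rw [hgd] at hab
      have e1 := (allN_iff _ _).1 hC2 a ha
      have e2 := (allN_iff _ _).1 hC2 b hb
      simp only [Nat.beq_eq] at e1 e2
      rw [e1, e2] at hab
      rw [hab]
      exact T.refl θ hb
    obtain ⟨i, hiP, hmax⟩ := P.exists_max_image
      (fun i => (Finset.univ.filter (fun p : Fin m × Fin m => (c i).1 p.1 p.2)).card) hP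
    rw [Finset.mem_filter] at hiP
    refine ⟨i, le_antisymm hiP.2 ?_⟩
    change θ ≤ (c i).1
    intro x y hxy
    obtain ⟨j, hj, hj1, hj2⟩ := hpair x y ⟨x.2, y.2, hxy⟩
    obtain ⟨l, hl, hl1, hl2, hl3⟩ := hjoin i j i.2 hj ((hCle i).1 hiP.2) hj2
    have q1 : c i ≤ c ⟨l, hl⟩ := (hcle i ⟨l, hl⟩).2 hl1
    have q2 : c ⟨j, hj⟩ ≤ c ⟨l, hl⟩ := (hcle ⟨j, hj⟩ ⟨l, hl⟩).2 hl2
    have q3 : c ⟨l, hl⟩ ≤ ⟨θ, hθ⟩ := (hCle ⟨l, hl⟩).2 hl3
    have hlP : (⟨l, hl⟩ : Fin n) ∈ P := by
      rw [Finset.mem_filter]; exact ⟨Finset.mem_univ _, q3⟩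
    have hcard := hmax _ hlP
    have hsub : (Finset.univ.filter (fun p : Fin m × Fin m => (c i).1 p.1 p.2)) ⊆
        Finset.univ.filter (fun p : Fin m × Fin m => (c ⟨l, hl⟩).1 p.1 p.2) := by
      intro p hp
      rw [Finset.mem_filter] at hp ⊢
      have q1' : (c i).1 ≤ (c ⟨l, hl⟩).1 := q1
      exact ⟨hp.1, q1' hp.2⟩
    have heq := Finset.eq_of_subset_of_card_le hsub hcard
    have hxyl : (c ⟨l, hl⟩).1 x y := by
      have q2' : (c ⟨j, hj⟩).1 ≤ (c ⟨l, hl⟩).1 := q2
      exact q2' ((hc ⟨j, hj⟩ x y).2 hj1)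
    have : ((x, y) : Fin m × Fin m) ∈
        Finset.univ.filter (fun p : Fin m × Fin m => (c ⟨l, hl⟩).1 p.1 p.2) := by
      rw [Finset.mem_filter]; exact ⟨Finset.mem_univ _, hxyl⟩
    rw [← heq, Finset.mem_filter] at this
    exact this.2
  · intro p q
    rw [hcle, hord]


theorem checkBase_len (h : checkBase m n ops cs rel = true) : cs.length = n := by
  unfold checkBase at h
  rw [Bool.and_eq_true, Bool.and_eq_true] at h
  simpa using h.2.1

theorem checkBase_mem (h : checkBase m n ops cs rel = true) (i : ℕ) (hi : i < n) :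
    cs.getD i 0 ∈ cs := by
  rw [← checkBase_len h] at hi
  rw [List.getD_eq_getElem _ _ hi]
  exact List.getElem_mem hi

theorem checkBase_ops (h : checkBase m n ops cs rel = true) :
    ∀ F ∈ ops, ∀ z < m, look F z < m := by
  unfold checkBase at h
  rw [Bool.and_eq_true, Bool.and_eq_true, Bool.and_eq_true] at h
  intro F hF z hz
  have := (allN_iff _ _).1 (List.all_eq_true.1 h.2.2.1 F hF) z hz
  simpa [Nat.blt_eq] using this

theorem checkBase_cs (h : checkBase m n ops cs rel = true) :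
    (∀ C ∈ cs, ∀ z < m, look C z < m) ∧ (∀ C ∈ cs, ∀ z < m, look C (look C z) = look C z) := by
  unfold checkBase at h
  rw [Bool.and_eq_true, Bool.and_eq_true, Bool.and_eq_true, Bool.and_eq_true, Bool.and_eq_true] at h
  obtain ⟨_, _, _, h3, h4, _⟩ := h
  constructor
  · intro F hF z hz
    have := (allN_iff _ _).1 (List.all_eq_true.1 h3 F hF) z hz
    simpa [Nat.blt_eq] using this
  · intro F hF z hz
    have := (allN_iff _ _).1 (List.all_eq_true.1 h4 F hF) z hz
    simpa using this

theorem checkBase_inv (h : checkBase m n ops cs rel = true) :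
    ∀ C ∈ cs, ∀ F ∈ ops, ∀ z < m, look C (look F z) = look C (look F (look C z)) := by
  unfold checkBase at h
  rw [Bool.and_eq_true, Bool.and_eq_true, Bool.and_eq_true, Bool.and_eq_true, Bool.and_eq_true,
    Bool.and_eq_true] at h
  obtain ⟨_, _, _, _, _, h5, _⟩ := h
  intro C hC F hF z hz
  have := (allN_iff _ _).1 (List.all_eq_true.1 (List.all_eq_true.1 h5 C hC) F hF) z hz
  simpa using this

theorem checkBase_refl (h : checkBase m n ops cs rel = true) (i : ℕ) (hi : i < n) :
    refines m (cs.getD i 0) (cs.getD i 0) = true := by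
  unfold refines
  rw [allN_iff]
  intro a ha
  rw [Nat.beq_eq]
  exact ((checkBase_cs h).2 _ (checkBase_mem h i hi) a ha).symm

theorem checkBase_bot (h : checkBase m n ops cs rel = true) (θ : Setoid (Fin m)) :
    ∃ i < n, CLe m (cs.getD i 0) θ := by
  have hn := checkBase_len h
  unfold checkBase at h
  rw [Bool.and_eq_true, Bool.and_eq_true, Bool.and_eq_true, Bool.and_eq_true, Bool.and_eq_true,
    Bool.and_eq_true, Bool.and_eq_true] at h
  obtain ⟨h0, h1, h2, h3, h4, h5, h6, h7⟩ := h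
  obtain ⟨C, hC, hC2⟩ := List.any_eq_true.1 h7
  obtain ⟨i, hi⟩ := List.get_of_mem hC
  refine ⟨i, by rw [← hn]; exact i.2, ?_⟩
  intro a b ha hb hab
  have hgd : cs.getD (i : ℕ) 0 = C := by
    rw [← hi]
    exact List.getD_eq_getElem _ _ i.2
  rw [hgd] at hab
  have e1 := (allN_iff _ _).1 hC2 a ha
  have e2 := (allN_iff _ _).1 hC2 b hb
  simp only [Nat.beq_eq] at e1 e2
  rw [e1, e2] at hab
  rw [hab]
  exact T.refl θ hb

end Sound

end Chk

end P183
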