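import Vale.Agent.P183.Checker

/-! # P183: generic kernel checker, mode 1 (arbitrary unary algebras) -/

namespace P183

namespace Chk

/-- bit `z` of `x` -/
def bt (x z : ℕ) : Bool := Nat.beq (Nat.land 1 (Nat.shiftRight x z)) 1

/-- the first mask containing `a`, or `0` -/
def findB (a : ℕ) : List ℕ → ℕ
  | [] => 0
  | B :: r => cond (bt B a) B (findB a r)

/-- remove the masks `A`, `B` and add their union -/
def mergeB {α : Type} (A B : ℕ) (k : List ℕ → α) : List ℕ → List ℕ → α
  | [], acc => force (Nat.lor A B) fun X => k (X :: acc)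
  | X :: r, acc => force X fun X => cond (Nat.beq X A) (mergeB A B k r acc)
      (cond (Nat.beq X B) (mergeB A B k r acc) (mergeB A B k r (X :: acc)))

/-- closure of the pairs in `todo` under the operations and transitivity -/
def close {α : Type} (ops : List ℕ) (fin : List ℕ → α) : ℕ → List ℕ → List (ℕ × ℕ) → α
  | 0, bl, _ => fin bl
  | k + 1, bl, todo =>
    match todo with
    | [] => fin bl
    | (a, b) :: rest =>
      force a fun a => force b fun b => force (findB a bl) fun A =>
        cond (bt A b) (close ops fin k bl rest)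
          (force (findB b bl) fun B =>
            mergeB A B (fun bl => close ops fin k bl (ops.map (fun F => (look F a, look F b)) ++ rest))
              bl [])

section Sound1

variable {m n : ℕ} {ops cs : List ℕ} {rel : List (ℕ × ℕ)}

theorem bt_iff (x z : ℕ) : bt x z = true ↔ x.testBit z = true := by
  unfold bt
  rw [Nat.beq_eq]
  unfold Nat.testBit
  change 1 &&& (x >>> z) = 1 ↔ _
  rw [Nat.one_and_eq_mod_two]
  rcases Nat.mod_two_eq_zero_or_one (x >>> z) with h | h <;> rw [h] <;> simp

theorem bt_zero (z : ℕ) : ¬ bt 0 z = true := by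
  rw [bt_iff]; simp

theorem bt_lor {x y z : ℕ} : bt (Nat.lor x y) z = true ↔ bt x z = true ∨ bt y z = true := by
  rw [bt_iff, bt_iff, bt_iff]
  change (x ||| y).testBit z = true ↔ _
  rw [Nat.testBit_or, Bool.or_eq_true]

theorem findB_spec (a : ℕ) (bl : List ℕ) :
    findB a bl = 0 ∨ (findB a bl ∈ bl ∧ bt (findB a bl) a = true) := by
  induction bl with
  | nil => exact Or.inl rfl
  | cons B r ih =>
    unfold findB
    by_cases h : bt B a = true
    · rw [h]
      exact Or.inr ⟨List.mem_cons_self .., h⟩
    · rw [Bool.not_eq_true] at h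
      rw [h]
      rcases ih with h1 | ⟨h1, h2⟩
      · exact Or.inl h1
      · exact Or.inr ⟨List.mem_cons_of_mem _ h1, h2⟩

/-- invariant: every mask is contained in a class of `θ` -/
def Inv (bl : List ℕ) (θ : Setoid (Fin m)) : Prop :=
  ∀ X ∈ bl, ∀ a b, bt X a = true → bt X b = true → T θ a b

theorem mergeB_spec {α : Type} (P : α → Prop) (θ : Setoid (Fin m)) (A B : ℕ) (k : List ℕ → α)
    (hk : ∀ bl : List ℕ, Inv bl θ → P (k bl))
    (hAB : ∀ a b, bt (Nat.lor A B) a = true → bt (Nat.lor A B) b = true → T θ a b) :
    ∀ (bl acc : List ℕ), Inv bl θ → Inv acc θ → P (mergeB A B k bl acc) := by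
  intro bl
  induction bl with
  | nil =>
    intro acc _ hacc
    simp only [mergeB, force_eq]
    apply hk
    intro X hX
    rw [List.mem_cons] at hX
    rcases hX with rfl | hX
    · exact hAB
    · exact hacc X hX
  | cons X r ih =>
    intro acc hbl hacc
    have hr : Inv r θ := fun Y hY => hbl Y (List.mem_cons_of_mem _ hY)
    have hX : Inv (X :: acc) θ := by
      intro Y hY
      rw [List.mem_cons] at hY
      rcases hY with rfl | hY
      · exact hbl _ (List.mem_cons_self ..)
      · exact hacc Y hY
    simp only [mergeB, force_eq]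
    cases Nat.beq X A <;> cases Nat.beq X B
    · exact ih _ hr hX
    · exact ih _ hr hacc
    · exact ih _ hr hacc
    · exact ih _ hr hacc

theorem close_sound {α : Type} (P : α → Prop) (fin : List ℕ → α) {θ : Setoid (Fin m)}
    (hfin : ∀ bl : List ℕ, Inv bl θ → P (fin bl)) (hθ : Comp ops θ) (k : ℕ) :
    ∀ (bl : List ℕ) (todo : List (ℕ × ℕ)), Inv bl θ → (∀ p ∈ todo, T θ p.1 p.2) →
      P (close ops fin k bl todo) := by
  induction k with
  | zero => intro bl todo h _; exact hfin bl h
  | succ k ih =>
    intro bl todo h ht
    match todo with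
    | [] => exact hfin bl h
    | (a, b) :: rest =>
      simp only [close, force_eq]
      have hab : T θ a b := ht _ (List.mem_cons_self ..)
      have hrest : ∀ p ∈ rest, T θ p.1 p.2 := fun p hp => ht p (List.mem_cons_of_mem _ hp)
      cases hc : bt (findB a bl) b
      · have hA : ∀ x, bt (findB a bl) x = true → T θ x a := by
          intro x hx
          rcases findB_spec a bl with h1 | ⟨h1, h2⟩
          · rw [h1] at hx; exact absurd hx (bt_zero x)
          · exact h _ h1 _ _ hx h2
        have hB : ∀ x, bt (findB b bl) x = true → T θ x b := by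
          intro x hx
          rcases findB_spec b bl with h1 | ⟨h1, h2⟩
          · rw [h1] at hx; exact absurd hx (bt_zero x)
          · exact h _ h1 _ _ hx h2
        apply mergeB_spec P θ
        · intro bl' hbl'
          apply ih _ _ hbl'
          intro p hp
          rw [List.mem_append] at hp
          rcases hp with hp | hp
          · rw [List.mem_map] at hp
            obtain ⟨F, hF, rfl⟩ := hp
            exact hθ F hF a b hab
          · exact hrest p hp
        · have key : ∀ x, bt (Nat.lor (findB a bl) (findB b bl)) x = true → T θ x a := by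
            intro x hx
            rw [bt_lor] at hx
            rcases hx with hx | hx
            · exact hA x hx
            · exact (hB x hx).trans hab.symm
          intro x y hx hy
          exact (key x hx).trans (key y hy).symm
        · exact h
        · intro X hX; exact absurd hX List.not_mem_nil
      · exact ih _ _ h hrest

/-- `C` is contained in the relation of the masks -/
def inBl (m C : ℕ) (bl : List ℕ) : Bool :=
  allN m (fun a => cond (Nat.beq (look C a) a) true (bt (findB a bl) (look C a)))

theorem cle_of_inBl {θ : Setoid (Fin m)} {C : ℕ} {bl : List ℕ} (h : Inv bl θ)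
    (h1 : inBl m C bl = true) : CLe m C θ := by
  unfold inBl at h1
  rw [allN_iff] at h1
  have key : ∀ a < m, T θ a (look C a) := by
    intro a ha
    have e1 := h1 a ha
    by_cases hc : look C a = a
    · rw [hc]; exact T.refl θ ha
    · have : Nat.beq (look C a) a = false := by
        rw [← Bool.not_eq_true, Nat.beq_eq]; exact hc
      rw [this, cond_false] at e1
      rcases findB_spec a bl with h2 | ⟨h2, h3⟩
      · rw [h2] at e1; exact absurd e1 (bt_zero _)
      · exact h _ h2 _ _ h3 e1
  intro a b ha hb hab
  have e1 := key a ha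
  rw [hab] at e1
  exact e1.trans (key b hb).symm

/-- the pairs `(a, C a)` -/
def pairsOf (m C : ℕ) : List (ℕ × ℕ) := (List.range m).map (fun a => (a, look C a))

/-- the singletons -/
def sing : ℕ → List ℕ
  | 0 => []
  | k + 1 => Nat.shiftLeft 1 k :: sing k

theorem inv_sing (θ : Setoid (Fin m)) : Inv (sing m) θ := by
  have key : ∀ k ≤ m, Inv (sing k) θ := by
    intro k
    induction k with
    | zero => intro _ X hX; exact absurd hX List.not_mem_nil
    | succ k ih =>
      intro hk X hX
      unfold sing at hX
      rw [List.mem_cons] at hX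
      rcases hX with rfl | hX
      · intro a b ha hb
        have e : ∀ x, bt (Nat.shiftLeft 1 k) x = true → x = k := by
          intro x hx
          rw [bt_iff] at hx
          change (1 <<< k).testBit x = true at hx
          rw [Nat.one_shiftLeft, Nat.testBit_two_pow] at hx
          simpa [eq_comm] using hx
        rw [e a ha, e b hb]
        exact T.refl θ hk
      · exact ih (Nat.le_of_succ_le hk) X hX
  exact key m le_rfl

/-- generic checker, mode 1 -/
def check1 (m n : ℕ) (ops cs : List ℕ) (rel : List (ℕ × ℕ)) : Bool :=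
  checkBase m n ops cs rel &&
  (allN m (fun y => allN y (fun x =>
    close ops (fun bl => anyN n (fun j => Nat.beq (look (cs.getD j 0) x) (look (cs.getD j 0) y) &&
      inBl m (cs.getD j 0) bl)) (m * (ops.length + 1) + 1) (sing m) [(x, y)])) &&
  allN n (fun k => allN k (fun i =>
    close ops (fun bl => anyN n (fun l => refines m (cs.getD i 0) (cs.getD l 0) &&
      (refines m (cs.getD k 0) (cs.getD l 0) && inBl m (cs.getD l 0) bl)))
      (m * (ops.length + 1) + 2 * m + 1) (sing m)
        (pairsOf m (cs.getD i 0) ++ pairsOf m (cs.getD k 0)))))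

theorem check1_sound (m n : ℕ) (ops cs : List ℕ) (rel : List (ℕ × ℕ))
    (h : check1 m n ops cs rel = true) : RepCode n rel := by
  unfold check1 at h
  rw [Bool.and_eq_true, Bool.and_eq_true] at h
  obtain ⟨hb, hp, hj⟩ := h
  apply checkBase_sound hb
  have hcsm := checkBase_cs hb
  intro θ hθ
  constructor
  · have key : ∀ x y, x < y → T θ x y → ∃ i < n, look (cs.getD i 0) x = look (cs.getD i 0) y ∧
        CLe m (cs.getD i 0) θ := by
      intro x y hxy hT
      obtain ⟨hx, hy, _⟩ := id hT
      have h1 := (allN_iff _ _).1 ((allN_iff _ _).1 hp y hy) x hxy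
      revert h1
      apply close_sound (fun (v : Bool) => v = true → ∃ i < n,
        look (cs.getD i 0) x = look (cs.getD i 0) y ∧ CLe m (cs.getD i 0) θ) _ _ hθ _ _ _
        (inv_sing θ)
      · intro p hp
        rw [List.mem_singleton] at hp
        rw [hp]; exact hT
      · intro bl hbl h1
        obtain ⟨j, hj, h2⟩ := (anyN_iff _ _).1 h1
        rw [Bool.and_eq_true, Nat.beq_eq] at h2
        exact ⟨j, hj, h2.1, cle_of_inBl hbl h2.2⟩
    intro x y hT
    obtain ⟨hx, hy, _⟩ := id hT
    rcases lt_trichotomy x y with hxy | hxy | hxy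
    · exact key x y hxy hT
    · obtain ⟨i, hi, hle⟩ := checkBase_bot hb θ
      exact ⟨i, hi, by rw [hxy], hle⟩
    · obtain ⟨i, hi, h1, h2⟩ := key y x hxy hT.symm
      exact ⟨i, hi, h1.symm, h2⟩
  · have key : ∀ i k, i < k → k < n → CLe m (cs.getD i 0) θ → CLe m (cs.getD k 0) θ →
        ∃ l < n, refines m (cs.getD i 0) (cs.getD l 0) = true ∧
          refines m (cs.getD k 0) (cs.getD l 0) = true ∧ CLe m (cs.getD l 0) θ := by
      intro i k hik hk hi' hk'
      have h1 := (allN_iff _ _).1 ((allN_iff _ _).1 hj k hk) i hik
      revert h1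
      apply close_sound (fun (v : Bool) => v = true → ∃ l < n,
        refines m (cs.getD i 0) (cs.getD l 0) = true ∧
          refines m (cs.getD k 0) (cs.getD l 0) = true ∧ CLe m (cs.getD l 0) θ) _ _ hθ _ _ _
        (inv_sing θ)
      · have hpo : ∀ C ∈ cs, CLe m C θ → ∀ p ∈ pairsOf m C, T θ p.1 p.2 := by
          intro C hC hCle p hp
          unfold pairsOf at hp
          rw [List.mem_map] at hp
          obtain ⟨a, ha, rfl⟩ := hp
          rw [List.mem_range] at ha
          exact hCle a _ ha (hcsm.1 C hC a ha) (hcsm.2 C hC a ha).symm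
        intro p hp
        rw [List.mem_append] at hp
        rcases hp with hp | hp
        · exact hpo _ (checkBase_mem hb i (hik.trans hk)) hi' p hp
        · exact hpo _ (checkBase_mem hb k hk) hk' p hp
      · intro bl hbl h1
        obtain ⟨l, hl, h2⟩ := (anyN_iff _ _).1 h1
        rw [Bool.and_eq_true, Bool.and_eq_true] at h2
        exact ⟨l, hl, h2.1, h2.2.1, cle_of_inBl hbl h2.2.2⟩
    intro i k hi hk hi' hk'
    rcases lt_trichotomy i k with hik | hik | hik
    · exact key i k hik hk hi' hk'
    · subst hik
      exact ⟨i, hi, checkBase_refl hb i hi, checkBase_refl hb i hi, hi'⟩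
    · obtain ⟨l, hl, h1, h2, h3⟩ := key k i hik hi hk' hi'
      exact ⟨l, hl, h2, h1, h3⟩

end Sound1

end Chk

end P183
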