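import Vale.Agent.P183.Checker

/-! # P183: generic kernel checker, mode 2 (transitive permutation groups) -/

namespace P183

namespace Chk

/-- bit `z` of `x` -/
def tb (x z : ℕ) : ℕ := Nat.land 1 (Nat.shiftRight x z)

/-- apply a list of tables, left to right -/
def appT (w : List ℕ) (z : ℕ) : ℕ := w.foldl (fun z F => look F z) z

/-- tables of a word of indices -/
def wt (ops : List ℕ) (w : List ℕ) : List ℕ := w.map (fun i => ops.getD i 0)

/-- orbit, as a bit mask -/
def orb (maps : List (List ℕ)) : ℕ → ℕ → List ℕ → ℕ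
  | 0, vis, _ => vis
  | k + 1, vis, todo =>
    match todo with
    | [] => vis
    | z :: rest =>
      force z fun z =>
        cond (Nat.beq (tb vis z) 1) (orb maps k vis rest)
          (force (Nat.lor vis (Nat.shiftLeft 1 z)) fun vis =>
            orb maps k vis (maps.map (fun w => appT w z) ++ rest))

/-- the ops that fix `0`, as maps -/
def fix0 (ops : List ℕ) : List (List ℕ) :=
  (ops.filter (fun F => Nat.beq (look F 0) 0)).map (fun F => [F])

/-- the block of `0` of `C` is contained in the mask -/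
def inVis (m C vis : ℕ) : Bool :=
  allN m (fun a => cond (Nat.beq (look C a) (look C 0)) (Nat.beq (tb vis a) 1) true)

/-- generic checker, mode 2 -/
def check2 (m n : ℕ) (ops cs : List ℕ) (ws gens : List (List ℕ)) (rel : List (ℕ × ℕ)) : Bool :=
  checkBase m n ops cs rel &&
  (ops.all (fun F => allN m (fun b => allN b (fun a => !(Nat.beq (look F a) (look F b))))) &&
  (allN m (fun x => (ws.getD x []).all (fun i => Nat.blt i ops.length) &&
    Nat.beq (appT (wt ops (ws.getD x [])) 0) x) &&
  (allN n (fun i => (gens.getD i []).all (fun y => Nat.blt y m &&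
    Nat.beq (look (cs.getD i 0) 0) (look (cs.getD i 0) y))) &&
  (allN m (fun y =>
    force (orb (wt ops (ws.getD y []) :: fix0 ops) (m * (ops.length + 1) + 2) 0 [0])
      fun vis => anyN n (fun j =>
      Nat.beq (look (cs.getD j 0) 0) (look (cs.getD j 0) y) && inVis m (cs.getD j 0) vis)) &&
  allN n (fun k => allN k (fun i =>
    force (orb ((gens.getD i [] ++ gens.getD k []).map (fun y => wt ops (ws.getD y [])) ++ fix0 ops)
        (m * (ops.length + (gens.getD i []).length + (gens.getD k []).length) + 2) 0 [0])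
      fun vis => anyN n (fun l => refines m (cs.getD i 0) (cs.getD l 0) &&
      (refines m (cs.getD k 0) (cs.getD l 0) && inVis m (cs.getD l 0) vis))))))))

section Sound2

variable {m n : ℕ} {ops cs : List ℕ} {rel : List (ℕ × ℕ)}

theorem tb_zero (z : ℕ) : tb 0 z ≠ 1 := by
  unfold tb
  change ¬ (1 &&& (0 >>> z) = 1)
  simp

theorem tb_iff (x z : ℕ) : tb x z = 1 ↔ x.testBit z = true := by
  unfold tb Nat.testBit
  change 1 &&& (x >>> z) = 1 ↔ _
  rw [Nat.one_and_eq_mod_two]
  rcases Nat.mod_two_eq_zero_or_one (x >>> z) with h | h <;> rw [h] <;> simp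

theorem tb_set {x z a : ℕ} (h : tb (Nat.lor x (Nat.shiftLeft 1 z)) a = 1) : a = z ∨ tb x a = 1 := by
  rw [tb_iff] at h ⊢
  change (x ||| (1 <<< z)).testBit a = true at h
  rw [Nat.testBit_or, Bool.or_eq_true] at h
  rcases h with h | h
  · exact Or.inr h
  · left
    rw [Nat.one_shiftLeft, Nat.testBit_two_pow] at h
    simpa [eq_comm] using h

theorem orb_sound (S : ℕ → Prop) (maps : List (List ℕ)) (hmaps : ∀ w ∈ maps, ∀ z, S z → S (appT w z))
    (k : ℕ) : ∀ (vis : ℕ) (todo : List ℕ), (∀ a, tb vis a = 1 → S a) → (∀ z ∈ todo, S z) →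
      ∀ a, tb (orb maps k vis todo) a = 1 → S a := by
  induction k with
  | zero => intro vis todo h _; exact h
  | succ k ih =>
    intro vis todo h ht
    match todo with
    | [] => exact h
    | z :: rest =>
      simp only [orb, force_eq]
      have hz : S z := ht z (List.mem_cons_self ..)
      have hrest : ∀ z ∈ rest, S z := fun z hz => ht z (List.mem_cons_of_mem _ hz)
      by_cases hb : Nat.beq (tb vis z) 1 = true
      · rw [hb]
        exact ih _ _ h hrest
      · rw [Bool.not_eq_true] at hb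
        rw [hb]
        apply ih
        · intro a ha
          rcases tb_set ha with h1 | h1
          · rw [h1]; exact hz
          · exact h a h1
        · intro x hx
          rw [List.mem_append] at hx
          rcases hx with hx | hx
          · rw [List.mem_map] at hx
            obtain ⟨w, hw, rfl⟩ := hx
            exact hmaps w hw z hz
          · exact hrest x hx

theorem T.appT {θ : Setoid (Fin m)} (hθ : Comp ops θ) {w : List ℕ} (hw : ∀ F ∈ w, F ∈ ops)
    {a b : ℕ} (h : T θ a b) : T θ (appT w a) (appT w b) := by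
  induction w generalizing a b with
  | nil => exact h
  | cons F w ih =>
    exact ih (fun G hG => hw G (List.mem_cons_of_mem _ hG)) (hθ F (hw F (List.mem_cons_self ..)) a b h)

theorem inj_appT (hops : ∀ F ∈ ops, ∀ z < m, look F z < m)
    (hinj : ∀ F ∈ ops, ∀ a < m, ∀ b < m, look F a = look F b → a = b)
    {w : List ℕ} (hw : ∀ F ∈ w, F ∈ ops) : (∀ a < m, appT w a < m) ∧
      ∀ a < m, ∀ b < m, appT w a = appT w b → a = b := by
  induction w with
  | nil => exact ⟨fun a ha => ha, fun a _ b _ h => h⟩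
  | cons F w ih =>
    obtain ⟨i1, i2⟩ := ih (fun G hG => hw G (List.mem_cons_of_mem _ hG))
    have hF := hw F (List.mem_cons_self ..)
    refine ⟨fun a ha => i1 _ (hops F hF a ha), fun a ha b hb h => ?_⟩
    exact hinj F hF a ha b hb (i2 _ (hops F hF a ha) _ (hops F hF b hb) h)

/-- a permutation compatible with an equivalence relation on a finite set reflects it -/
theorem T.reflect (hops : ∀ F ∈ ops, ∀ z < m, look F z < m)
    (hinj : ∀ F ∈ ops, ∀ a < m, ∀ b < m, look F a = look F b → a = b)
    {θ : Setoid (Fin m)} (hθ : Comp ops θ) {w : List ℕ} (hw : ∀ F ∈ w, F ∈ ops)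
    {a b : ℕ} (ha : a < m) (hb : b < m) (h : T θ (Chk.appT w a) (Chk.appT w b)) : T θ a b := by
  obtain ⟨i1, i2⟩ := inj_appT hops hinj hw
  let g : {p : Fin m × Fin m // θ p.1 p.2} → {p : Fin m × Fin m // θ p.1 p.2} := fun p =>
    ⟨(⟨Chk.appT w p.1.1, i1 _ p.1.1.2⟩, ⟨Chk.appT w p.1.2, i1 _ p.1.2.2⟩), by
      obtain ⟨_, _, h⟩ := T.appT hθ hw ⟨p.1.1.2, p.1.2.2, p.2⟩
      exact h⟩
  have hg : Function.Injective g := by
    intro p q hpq
    have h1 := congrArg (fun p : {p : Fin m × Fin m // θ p.1 p.2} => (p.1.1 : ℕ)) hpq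
    have h2 := congrArg (fun p : {p : Fin m × Fin m // θ p.1 p.2} => (p.1.2 : ℕ)) hpq
    apply Subtype.ext
    apply Prod.ext
    · exact Fin.ext (i2 _ p.1.1.2 _ q.1.1.2 h1)
    · exact Fin.ext (i2 _ p.1.2.2 _ q.1.2.2 h2)
  have hs : Function.Surjective g := Finite.injective_iff_surjective.1 hg
  obtain ⟨_, _, h'⟩ := h
  obtain ⟨p, hp⟩ := hs ⟨(⟨Chk.appT w a, i1 a ha⟩, ⟨Chk.appT w b, i1 b hb⟩), h'⟩
  have h1 := congrArg (fun p : {p : Fin m × Fin m // θ p.1 p.2} => (p.1.1 : ℕ)) hp
  have h2 := congrArg (fun p : {p : Fin m × Fin m // θ p.1 p.2} => (p.1.2 : ℕ)) hp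
  have e1 : (p.1.1 : ℕ) = a := i2 _ p.1.1.2 _ ha h1
  have e2 : (p.1.2 : ℕ) = b := i2 _ p.1.2.2 _ hb h2
  refine ⟨ha, hb, ?_⟩
  have := p.2
  have e1' : p.1.1 = ⟨a, ha⟩ := Fin.ext e1
  have e2' : p.1.2 = ⟨b, hb⟩ := Fin.ext e2
  rwa [e1', e2'] at this

theorem surj_appT (hops : ∀ F ∈ ops, ∀ z < m, look F z < m)
    (hinj : ∀ F ∈ ops, ∀ a < m, ∀ b < m, look F a = look F b → a = b)
    {w : List ℕ} (hw : ∀ F ∈ w, F ∈ ops) (b : ℕ) (hb : b < m) : ∃ a < m, appT w a = b := by
  obtain ⟨i1, i2⟩ := inj_appT hops hinj hw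
  have hg : Function.Injective (fun p : Fin m => (⟨appT w p, i1 _ p.2⟩ : Fin m)) := by
    intro p q hpq
    exact Fin.ext (i2 _ p.2 _ q.2 (congrArg Fin.val hpq))
  obtain ⟨a, ha⟩ := (Finite.injective_iff_surjective.1 hg) ⟨b, hb⟩
  exact ⟨a, a.2, congrArg Fin.val ha⟩

/-- the setoid of a class map -/
def kerC (m C : ℕ) : Setoid (Fin m) := Setoid.ker (fun z : Fin m => look C z)

theorem T_kerC {C a b : ℕ} (ha : a < m) (hb : b < m) : T (kerC m C) a b ↔ look C a = look C b := by
  constructor
  · rintro ⟨_, _, h⟩; exact h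
  · intro h; exact ⟨ha, hb, h⟩

theorem check2_sound (m n : ℕ) (ops cs : List ℕ) (ws gens : List (List ℕ)) (rel : List (ℕ × ℕ))
    (h : check2 m n ops cs ws gens rel = true) : RepCode n rel := by
  unfold check2 at h
  rw [Bool.and_eq_true, Bool.and_eq_true, Bool.and_eq_true, Bool.and_eq_true, Bool.and_eq_true] at h
  obtain ⟨hb, hperm, hws, hgens, hp, hj⟩ := h
  have hops := checkBase_ops hb
  have hcs := checkBase_cs hb
  have hinv := checkBase_inv hb
  have hinj : ∀ F ∈ ops, ∀ a < m, ∀ b < m, look F a = look F b → a = b := by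
    have key : ∀ F ∈ ops, ∀ b < m, ∀ a < b, look F a ≠ look F b := by
      intro F hF b hb a hab he
      have := (allN_iff _ _).1 ((allN_iff _ _).1 (List.all_eq_true.1 hperm F hF) b hb) a hab
      rw [he] at this
      simp at this
    intro F hF a ha b hb he
    rcases lt_trichotomy a b with h | h | h
    · exact absurd he (key F hF b hb a h)
    · exact h
    · exact absurd he.symm (key F hF a ha b h)
  have hwmem : ∀ x < m, ∀ F ∈ wt ops (ws.getD x []), F ∈ ops := by
    intro x hx F hF
    have h1 := (allN_iff _ _).1 hws x hx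
    rw [Bool.and_eq_true] at h1
    unfold wt at hF
    rw [List.mem_map] at hF
    obtain ⟨i, hi, rfl⟩ := hF
    have h2 := List.all_eq_true.1 h1.1 i hi
    have h3 : i < ops.length := by simpa [Nat.blt_eq] using h2
    rw [List.getD_eq_getElem _ _ h3]
    exact List.getElem_mem h3
  have hw0 : ∀ x < m, appT (wt ops (ws.getD x [])) 0 = x := by
    intro x hx
    have h1 := (allN_iff _ _).1 hws x hx
    rw [Bool.and_eq_true, Nat.beq_eq] at h1
    exact h1.2
  -- comparison of two compatible relations by their blocks of zero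
  have hmain2 : ∀ θ θ' : Setoid (Fin m), Comp ops θ → Comp ops θ' →
      (∀ z, T θ' 0 z → T θ 0 z) → ∀ a b, T θ' a b → T θ a b := by
    intro θ θ' hθ hθ' h0 a b hab
    obtain ⟨ha, hb, _⟩ := id hab
    obtain ⟨b', hb', hbb⟩ := surj_appT hops hinj (hwmem a ha) b hb
    have h0m : 0 < m := lt_of_le_of_lt (Nat.zero_le a) ha
    rw [← hw0 a ha, ← hbb] at hab
    have h1 := T.reflect hops hinj hθ' (hwmem a ha) h0m hb' hab
    have h2 := T.appT hθ (hwmem a ha) (h0 b' h1)
    rwa [hw0 a ha, hbb] at h2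
  have hkerC : ∀ C ∈ cs, Comp ops (kerC m C) := by
    rintro C hC F hF a b hab
    obtain ⟨ha, hb, _⟩ := id hab
    rw [T_kerC ha hb] at hab
    rw [T_kerC (hops F hF a ha) (hops F hF b hb), hinv C hC F hF a ha, hinv C hC F hF b hb, hab]
  apply checkBase_sound hb
  intro θ hθ
  have hcle : ∀ j < n, (∀ z < m, look (cs.getD j 0) 0 = look (cs.getD j 0) z → T θ 0 z) →
      CLe m (cs.getD j 0) θ := by
    intro j hj h0 a b ha hb' hab
    refine hmain2 θ (kerC m (cs.getD j 0)) hθ (hkerC _ (checkBase_mem hb j hj)) ?_ a b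
      ((T_kerC ha hb').2 hab)
    intro z hz
    obtain ⟨h0m, hzm, _⟩ := id hz
    exact h0 z hzm ((T_kerC h0m hzm).1 hz)
  -- invariance of the block of zero
  have hfix : ∀ w ∈ fix0 ops, ∀ z, T θ 0 z → T θ 0 (appT w z) := by
    intro w hw z hz
    unfold fix0 at hw
    rw [List.mem_map] at hw
    obtain ⟨F, hF, rfl⟩ := hw
    rw [List.mem_filter, Nat.beq_eq] at hF
    have := hθ F hF.1 0 z hz
    rw [hF.2] at this
    exact this
  have hword : ∀ y, T θ 0 y → ∀ z, T θ 0 z → T θ 0 (appT (wt ops (ws.getD y [])) z) := by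
    intro y hy z hz
    obtain ⟨h0m, hym, _⟩ := id hy
    have := T.appT hθ (hwmem y hym) hz
    rw [hw0 y hym] at this
    exact hy.trans this
  have hvis : ∀ (maps : List (List ℕ)) (k : ℕ), 0 < m → (∀ w ∈ maps, ∀ z, T θ 0 z → T θ 0 (appT w z)) →
      ∀ a, tb (orb maps k 0 [0]) a = 1 → T θ 0 a := by
    intro maps k h0m hmaps
    apply orb_sound (fun z => T θ 0 z) maps hmaps k
    · intro a ha; exact absurd ha (tb_zero a)
    · intro z hz
      rw [List.mem_singleton] at hz
      rw [hz]; exact T.refl θ h0m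
  have hinVis : ∀ C vis, inVis m C vis = true → ∀ z < m, look C 0 = look C z → tb vis z = 1 := by
    intro C vis h z hz he
    unfold inVis at h
    rw [allN_iff] at h
    have h1 := h z hz
    rw [he, (by rw [Nat.beq_eq] : Nat.beq (look C z) (look C z) = true), cond_true, Nat.beq_eq] at h1
    exact h1
  constructor
  · intro x y hT
    obtain ⟨hx, hy, _⟩ := id hT
    have h0m : 0 < m := lt_of_le_of_lt (Nat.zero_le x) hx
    obtain ⟨y', hy', hyy⟩ := surj_appT hops hinj (hwmem x hx) y hy
    rw [← hw0 x hx, ← hyy] at hT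
    have h1 := T.reflect hops hinj hθ (hwmem x hx) h0m hy' hT
    have h2 := (allN_iff _ _).1 hp y' hy'
    rw [force_eq] at h2
    obtain ⟨j, hj, h3⟩ := (anyN_iff _ _).1 h2
    rw [Bool.and_eq_true, Nat.beq_eq] at h3
    refine ⟨j, hj, ?_, ?_⟩
    · have h4 := T.appT (hkerC _ (checkBase_mem hb j hj)) (hwmem x hx)
        ((T_kerC h0m hy').2 h3.1)
      rw [hw0 x hx, hyy] at h4
      exact (T_kerC hx hy).1 h4
    · apply hcle j hj
      intro z hz he
      refine hvis _ _ h0m ?_ z (hinVis _ _ h3.2 z hz he)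
      intro w hw z hz
      rw [List.mem_cons] at hw
      rcases hw with rfl | hw
      · exact hword y' h1 z hz
      · exact hfix w hw z hz
  · have key : ∀ i k, i < k → k < n → CLe m (cs.getD i 0) θ → CLe m (cs.getD k 0) θ →
        ∃ l < n, refines m (cs.getD i 0) (cs.getD l 0) = true ∧
          refines m (cs.getD k 0) (cs.getD l 0) = true ∧ CLe m (cs.getD l 0) θ := by
      intro i k hik hk hi' hk'
      have h0m : 0 < m := by
        unfold checkBase at hb
        rw [Bool.and_eq_true] at hb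
        have : 1 ≤ m := by simpa using hb.1
        exact this
      have h1 := (allN_iff _ _).1 ((allN_iff _ _).1 hj k hk) i hik
      rw [force_eq] at h1
      obtain ⟨l, hl, h2⟩ := (anyN_iff _ _).1 h1
      rw [Bool.and_eq_true, Bool.and_eq_true] at h2
      have hgen : ∀ i < n, CLe m (cs.getD i 0) θ → ∀ y ∈ gens.getD i [], T θ 0 y := by
        intro i hi hle y hy
        have h3 := (allN_iff _ _).1 hgens i hi
        have h4 := List.all_eq_true.1 h3 y hy
        rw [Bool.and_eq_true, Nat.beq_eq] at h4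
        have h5 : y < m := by simpa [Nat.blt_eq] using h4.1
        exact hle 0 y h0m h5 h4.2
      refine ⟨l, hl, h2.1, h2.2.1, ?_⟩
      apply hcle l hl
      intro z hz he
      refine hvis _ _ h0m ?_ z (hinVis _ _ h2.2.2 z hz he)
      intro w hw z hz
      rw [List.mem_append] at hw
      rcases hw with hw | hw
      · rw [List.mem_map] at hw
        obtain ⟨y, hy, rfl⟩ := hw
        rw [List.mem_append] at hy
        rcases hy with hy | hy
        · exact hword y (hgen i (hik.trans hk) hi' y hy) z hz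
        · exact hword y (hgen k hk hk' y hy) z hz
      · exact hfix w hw z hz
    intro i k hi hk hi' hk'
    rcases lt_trichotomy i k with hik | hik | hik
    · exact key i k hik hk hi' hk'
    · subst hik
      exact ⟨i, hi, checkBase_refl hb i hi, checkBase_refl hb i hi, hi'⟩
    · obtain ⟨l, hl, h1, h2, h3⟩ := key k i hik hi hk' hi'
      exact ⟨l, hl, h2, h1, h3⟩

end Sound2

end Chk

end P183
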