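import Vale.Agent.P183.ClsTable

/-! # P183: lattices with at most seven elements are coded by `codes` -/

namespace P183

namespace Cls

/-- the pairs in the order of `ix` -/
def prs : List (ℕ × ℕ) :=
  [(1,2), (1,3), (2,3), (1,4), (2,4), (3,4), (1,5), (2,5), (3,5), (4,5)]

theorem prs_aux : ∀ (n i j : Fin 8), (1 ≤ i.val ∧ i.val < j.val ∧ j.val + 2 ≤ n.val) →
    (ix i.val j.val < bits n.val ∧ prs.getD (ix i.val j.val) (0, 0) = (i.val, j.val)) := by
  decide +kernel

theorem prs_ix (n : ℕ) (hn : n < 8) (i : ℕ) (hi : i < 8) (j : ℕ) (hj : j < 8) (h1 : 1 ≤ i)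
    (h2 : i < j) (h3 : j + 2 ≤ n) :
    ix i j < bits n ∧ prs.getD (ix i j) (0, 0) = (i, j) :=
  prs_aux ⟨n, hn⟩ ⟨i, hi⟩ ⟨j, hj⟩ ⟨h1, h2, h3⟩

theorem leM_iff (n m i j : ℕ) : leM n m i j = true ↔
    i = j ∨ i = 0 ∨ j + 1 = n ∨ (i < j ∧ m.testBit (ix i j) = true) := by
  simp [leM, Nat.blt_eq]

theorem leL_iff (n : ℕ) (rel : List (ℕ × ℕ)) (i j : ℕ) : leL n rel i j = true ↔
    i = j ∨ i = 0 ∨ j + 1 = n ∨ (i, j) ∈ rel := by
  simp only [leL, Bool.or_eq_true, Nat.beq_eq, List.any_eq_true, Bool.and_eq_true]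
  constructor
  · rintro (h | h | h | ⟨q, hq, h1, h2⟩)
    · exact Or.inl h
    · exact Or.inr (Or.inl h)
    · exact Or.inr (Or.inr (Or.inl h))
    · exact Or.inr (Or.inr (Or.inr (by rw [← h1, ← h2]; exact hq)))
  · rintro (h | h | h | h)
    · exact Or.inl h
    · exact Or.inr (Or.inl h)
    · exact Or.inr (Or.inr (Or.inl h))
    · exact Or.inr (Or.inr (Or.inr ⟨(i, j), h, rfl, rfl⟩))

theorem exists_ext (L : Type) [Lattice L] [Fintype L] :
    ∃ e : Fin (Fintype.card L) ≃ L, ∀ i j, e i ≤ e j → i ≤ j := by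
  classical
  let _inst : Fintype (LinearExtension L) := inferInstanceAs (Fintype L)
  have hc : Fintype.card (LinearExtension L) = Fintype.card L := rfl
  let o := Fintype.orderIsoFinOfCardEq (LinearExtension L) hc
  have hm : ∀ x y : L, x ≤ y → toLinearExtension (α := L) x ≤ toLinearExtension (α := L) y :=
    fun x y h => (toLinearExtension (α := L)).monotone h
  refine ⟨o.toEquiv, ?_⟩
  intro i j h
  exact o.le_iff_le.mp (hm _ _ h)

theorem mask_exists (L : Type) [Lattice L] [Fintype L] [Nonempty L] (hn : Fintype.card L ≤ 7) :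
    ∃ (e : Fin (Fintype.card L) ≃ L) (m : ℕ), m < 2 ^ bits (Fintype.card L) ∧
      ∀ i j : Fin (Fintype.card L), e i ≤ e j ↔ leM (Fintype.card L) m i j = true := by
  classical
  obtain ⟨e, he⟩ := exists_ext L
  have hpos : 0 < Fintype.card L := Fintype.card_pos
  generalize hN : Fintype.card L = n at e he hn hpos ⊢
  let g : ℕ × ℕ → Bool := fun q =>
    if h : q.1 < n ∧ q.2 < n then decide (e ⟨q.1, h.1⟩ ≤ e ⟨q.2, h.2⟩) else false
  refine ⟨e, Nat.ofBits (n := bits n) (fun k => g (prs.getD k (0, 0))), Nat.ofBits_lt_two_pow _, ?_⟩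
  intro i j
  rw [leM_iff]
  have hbot : ∀ x : L, e ⟨0, hpos⟩ ≤ x := by
    intro x
    have h1 : e ⟨0, hpos⟩ ⊓ x ≤ e ⟨0, hpos⟩ := inf_le_left
    have h2 : e (e.symm (e ⟨0, hpos⟩ ⊓ x)) ≤ e ⟨0, hpos⟩ := by rw [e.apply_symm_apply]; exact h1
    have h3 : e.symm (e ⟨0, hpos⟩ ⊓ x) = ⟨0, hpos⟩ := by
      have := he _ _ h2
      exact Fin.ext (Nat.le_zero.mp this)
    have h4 : e ⟨0, hpos⟩ ⊓ x = e ⟨0, hpos⟩ := by
      have := congrArg e h3
      rwa [e.apply_symm_apply] at this
    exact inf_eq_left.mp h4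
  have hlast : n - 1 < n := by omega
  have htop : ∀ x : L, x ≤ e ⟨n - 1, hlast⟩ := by
    intro x
    have h2 : e ⟨n - 1, hlast⟩ ≤ e (e.symm (e ⟨n - 1, hlast⟩ ⊔ x)) := by
      rw [e.apply_symm_apply]; exact le_sup_left
    have h3 : e.symm (e ⟨n - 1, hlast⟩ ⊔ x) = ⟨n - 1, hlast⟩ := by
      have h4 := he _ _ h2
      have h5 := (e.symm (e ⟨n - 1, hlast⟩ ⊔ x)).isLt
      have h6 : n - 1 ≤ (e.symm (e ⟨n - 1, hlast⟩ ⊔ x)).val := h4
      exact Fin.ext (by simp only; omega)
    have h4 : e ⟨n - 1, hlast⟩ ⊔ x = e ⟨n - 1, hlast⟩ := by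
      have := congrArg e h3
      rwa [e.apply_symm_apply] at this
    exact sup_eq_left.mp h4
  constructor
  · intro hij
    by_cases h0 : i.val = 0
    · exact Or.inr (Or.inl h0)
    by_cases h1 : j.val + 1 = n
    · exact Or.inr (Or.inr (Or.inl h1))
    by_cases h2 : i.val = j.val
    · exact Or.inl h2
    · have h3 : i.val ≤ j.val := he _ _ hij
      have h4 : i.val < j.val := by omega
      have hj := j.isLt
      obtain ⟨hb, hp⟩ := prs_ix n (by omega) i.val (by omega) j.val (by omega) (by omega) h4 (by omega)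
      refine Or.inr (Or.inr (Or.inr ⟨h4, ?_⟩))
      rw [Nat.testBit_ofBits_lt _ _ hb]
      simp only [hp, g]
      rw [dif_pos ⟨i.isLt, j.isLt⟩]
      exact decide_eq_true hij
  · rintro (h | h | h | ⟨h, hb⟩)
    · have : i = j := Fin.ext h
      rw [this]
    · have : i = ⟨0, hpos⟩ := Fin.ext h
      rw [this]; exact hbot _
    · have : j = ⟨n - 1, hlast⟩ := Fin.ext (by simp only; omega)
      rw [this]; exact htop _
    · by_cases h0 : i.val = 0
      · have : i = ⟨0, hpos⟩ := Fin.ext h0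
        rw [this]; exact hbot _
      by_cases h1 : j.val + 1 = n
      · have : j = ⟨n - 1, hlast⟩ := Fin.ext (by simp only; omega)
        rw [this]; exact htop _
      have hj := j.isLt
      obtain ⟨hb', hp⟩ := prs_ix n (by omega) i.val (by omega) j.val (by omega) (by omega) h (by omega)
      rw [Nat.testBit_ofBits_lt _ _ hb'] at hb
      simp only [hp, g] at hb
      rw [dif_pos ⟨i.isLt, j.isLt⟩] at hb
      exact of_decide_eq_true hb

theorem isLat_of (L : Type) [Lattice L] (n m : ℕ) (e : Fin n ≃ L)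
    (he : ∀ i j : Fin n, e i ≤ e j ↔ leM n m i j = true) : isLat n m = true := by
  have he' : ∀ i j, ∀ (hi : i < n) (hj : j < n), (leM n m i j = true ↔ e ⟨i, hi⟩ ≤ e ⟨j, hj⟩) :=
    fun i j hi hj => (he ⟨i, hi⟩ ⟨j, hj⟩).symm
  simp only [isLat, Bool.and_eq_true]
  constructor
  · simp only [isTrans, List.all_eq_true, List.mem_range]
    intro i hi j hj k hk
    by_cases h1 : leM n m i j = true
    · by_cases h2 : leM n m j k = true
      · have h3 : leM n m i k = true :=
          (he' i k hi hk).mpr (le_trans ((he' i j hi hj).mp h1) ((he' j k hj hk).mp h2))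
        rw [h3]; simp
      · simp [h2]
    · simp [h1]
  · simp only [hasJoins, List.all_eq_true, List.any_eq_true, List.mem_range, Bool.and_eq_true]
    intro i hi j hj
    set k : Fin n := e.symm (e ⟨i, hi⟩ ⊔ e ⟨j, hj⟩) with hk
    have hek : e k = e ⟨i, hi⟩ ⊔ e ⟨j, hj⟩ := by rw [hk, e.apply_symm_apply]
    refine ⟨k.val, k.isLt, ⟨(he' i k hi k.isLt).mpr ?_, (he' j k hj k.isLt).mpr ?_⟩, ?_⟩
    · change e ⟨i, hi⟩ ≤ e k
      rw [hek]; exact le_sup_left
    · change e ⟨j, hj⟩ ≤ e k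
      rw [hek]; exact le_sup_right
    · intro l hl
      by_cases h1 : leM n m i l = true
      · by_cases h2 : leM n m j l = true
        · have h3 : leM n m k l = true := by
            refine (he' k l k.isLt hl).mpr ?_
            change e k ≤ _
            rw [hek]
            exact sup_le ((he' i l hi hl).mp h1) ((he' j l hj hl).mp h2)
          rw [h3]; simp
        · simp [h2]
      · simp [h1]

end Cls

open Cls in
theorem classify (L : Type) [Lattice L] [Fintype L] [Nonempty L] (h : Fintype.card L ≤ 7) :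
    ∃ rel ∈ codes (Fintype.card L), ∃ e : Fin (Fintype.card L) ≃ L,
      ∀ i j, e i ≤ e j ↔ leOf (Fintype.card L) rel i j := by
  obtain ⟨e, m, hm, he⟩ := mask_exists L h
  have hlat := isLat_of L _ m e he
  have hpos : 0 < Fintype.card L := Fintype.card_pos
  generalize hN : Fintype.card L = n at *
  have hall := okAll_true n hpos h
  have hone : okOne n m = true := by
    have := hall
    simp only [okAll, List.all_eq_true, List.mem_range] at this
    exact this m hm
  have hany : (table n).any (okEntry n m) = true := by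
    simp only [okOne, hlat] at hone
    simpa using hone
  obtain ⟨t, -, ht⟩ := List.any_eq_true.mp hany
  simp only [okEntry, Bool.and_eq_true, Nat.beq_eq, Nat.blt_eq] at ht
  obtain ⟨⟨-, hp⟩, hlen⟩ := ht
  set rel := (codes n).getD t.2.1 [] with hrel
  have hmem : rel ∈ codes n := by
    rw [hrel, List.getD_eq_getElem _ _ hlen]
    exact List.getElem_mem _
  have hp' : ∀ i < n, pl t.2.2 i < n ∧ ∀ j < n, (i = j ∨ pl t.2.2 i ≠ pl t.2.2 j) ∧
      (leM n m i j = true ↔ leL n rel (pl t.2.2 i) (pl t.2.2 j) = true) := by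
    intro i hi
    simp only [okPerm, List.all_eq_true, List.mem_range, Bool.and_eq_true, Nat.blt_eq] at hp
    obtain ⟨h1, h2⟩ := hp i hi
    refine ⟨h1, fun j hj => ?_⟩
    obtain ⟨h3, h4⟩ := h2 j hj
    refine ⟨?_, ?_⟩
    · by_cases hij : i = j
      · exact Or.inl hij
      · right
        intro heq
        simp [hij, heq] at h3
    · cases hc : leM n m i j <;> rw [hc] at h4 <;> simp at h4 <;> simp [h4]
  let s : Fin n → Fin n := fun i => ⟨pl t.2.2 i, (hp' i i.isLt).1⟩
  have hs : Function.Injective s := by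
    intro i j hij
    have h1 : pl t.2.2 i = pl t.2.2 j := congrArg Fin.val hij
    rcases ((hp' i i.isLt).2 j j.isLt).1 with h2 | h2
    · exact Fin.ext h2
    · exact absurd h1 h2
  let σ : Fin n ≃ Fin n := Equiv.ofBijective s (Finite.injective_iff_bijective.mp hs)
  refine ⟨rel, hmem, σ.symm.trans e, ?_⟩
  intro i j
  have h1 := he (σ.symm i) (σ.symm j)
  rw [Equiv.trans_apply, Equiv.trans_apply, h1]
  have h2 := ((hp' (σ.symm i) (σ.symm i).isLt).2 (σ.symm j) (σ.symm j).isLt).2
  rw [h2, leL_iff]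
  have h3 : ∀ x : Fin n, pl t.2.2 (σ.symm x) = x.val := fun x =>
    congrArg Fin.val (σ.apply_symm_apply x)
  rw [h3, h3]
  unfold leOf
  rw [Fin.ext_iff]

end P183
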