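import Mathlib

/-!
# P183: finite algebras, congruences, representable lattices
-/

namespace P183

/-- An equivalence relation on the carrier `A` compatible with every operation of the
finite algebra `(A; op 0, ..., op (k-1))`, where `op i` has arity `ar i`. -/
def IsCong {A : Type} {k : ℕ} (ar : Fin k → ℕ) (op : ∀ i : Fin k, (Fin (ar i) → A) → A)
    (r : Setoid A) : Prop :=
  ∀ (i : Fin k) (x y : Fin (ar i) → A), (∀ j, r (x j) (y j)) → r (op i x) (op i y)

/-- `L` is (isomorphic to) the lattice of all congruences of a finite algebra, that is, of a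
nonempty finite set `A` with a finite list of finitary operations; congruences are ordered by
inclusion. -/
def Representable (L : Type) [Lattice L] : Prop :=
  ∃ (A : Type) (_ : Finite A) (_ : Nonempty A) (k : ℕ) (ar : Fin k → ℕ)
    (op : ∀ i : Fin k, (Fin (ar i) → A) → A),
    Nonempty ({r : Setoid A // IsCong ar op r} ≃o L)

/-- Setoids compatible with a family of unary maps. -/
abbrev UCon {A ι : Type} (f : ι → A → A) : Type :=
  {r : Setoid A // ∀ (i : ι) (x y : A), r x y → r (f i x) (f i y)}

/-- The poset `(P, le)` is the poset of congruences of a finite unary algebra. -/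
def URep (P : Type) (le : P → P → Prop) : Prop :=
  ∃ (A : Type) (_ : Finite A) (_ : Nonempty A) (ι : Type) (_ : Finite ι) (f : ι → A → A)
    (c : P → UCon f), Function.Surjective c ∧ ∀ p q, c p ≤ c q ↔ le p q

/-- The order on `{0, ..., n-1}` with bottom `0`, top `n-1` and the pairs of `rel` in between. -/
def leOf (n : ℕ) (rel : List (ℕ × ℕ)) (i j : Fin n) : Prop :=
  i = j ∨ i.val = 0 ∨ j.val + 1 = n ∨ (i.val, j.val) ∈ rel

instance (n : ℕ) (rel : List (ℕ × ℕ)) (i j : Fin n) : Decidable (leOf n rel i j) := by
  unfold leOf; infer_instance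

/-- The poset coded by `rel` on `n` elements is a congruence lattice of a finite unary algebra. -/
def RepCode (n : ℕ) (rel : List (ℕ × ℕ)) : Prop := URep (Fin n) (leOf n rel)

end P183
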