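import Vale.Agent.P183.Interval
import Vale.Agent.P183.AddTop

/-!
# P183: intervals of subgroups closed under endomorphisms, and duality (Kurzweil, Netter)
-/

namespace P183

section intervalEnd

variable {G J : Type} [Group G]

/-- operations on `G ⧸ H`: left multiplications and the maps induced by endomorphisms -/
def opEnd (H : Subgroup G) (φ : J → G →* G) (hφ : ∀ j, ∀ g ∈ H, φ j g ∈ H) :
    G ⊕ J → G ⧸ H → G ⧸ H
  | Sum.inl g, x => g • x
  | Sum.inr j, x => Quotient.liftOn' x (fun a => (φ j a : G ⧸ H)) (by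
      intro a b h
      rw [QuotientGroup.leftRel_apply] at h
      show ((φ j a : G) : G ⧸ H) = ((φ j b : G) : G ⧸ H)
      rw [QuotientGroup.eq, ← map_inv, ← map_mul]
      exact hφ j _ h)

theorem opEnd_inr (H : Subgroup G) (φ : J → G →* G) (hφ : ∀ j, ∀ g ∈ H, φ j g ∈ H) (j : J)
    (a : G) : opEnd H φ hφ (Sum.inr j) (a : G ⧸ H) = ((φ j a : G) : G ⧸ H) := rfl

/-- The subgroups above `H` closed under the given endomorphisms form a congruence lattice. -/
theorem URep.intervalEnd {P : Type} {le : P → P → Prop} [Finite G] [Finite J]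
    (H : Subgroup G) (φ : J → G →* G) (hφ : ∀ j, ∀ g ∈ H, φ j g ∈ H) (c : P → Subgroup G)
    (hc : ∀ K, (H ≤ K ∧ ∀ j, ∀ g ∈ K, φ j g ∈ K) ↔ ∃ p, c p = K)
    (hle : ∀ p q, c p ≤ c q ↔ le p q) : URep P le := by
  have hH : ∀ p, H ≤ c p := fun p => ((hc _).2 ⟨p, rfl⟩).1
  have hcl : ∀ p, ∀ j, ∀ g ∈ c p, φ j g ∈ c p := fun p => ((hc _).2 ⟨p, rfl⟩).2
  refine ⟨G ⧸ H, inferInstance, ⟨((1 : G) : G ⧸ H)⟩, G ⊕ J, inferInstance, opEnd H φ hφ,
    fun p => ⟨(icon H (c p) (hH p)).1, ?_⟩, ?_, ?_⟩
  · intro i x y hxy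
    match i with
    | Sum.inl g => exact (icon H (c p) (hH p)).2 g x y hxy
    | Sum.inr j =>
      induction x using QuotientGroup.induction_on with
      | H a =>
      induction y using QuotientGroup.induction_on with
      | H b =>
      rw [icon_iff] at hxy
      rw [opEnd_inr, opEnd_inr, icon_iff, ← map_inv, ← map_mul]
      exact hcl p j _ hxy
  · rintro ⟨r, hr⟩
    let r' : UCon (fun (g : G) (x : G ⧸ H) => g • x) := ⟨r, fun g x y h => hr (Sum.inl g) x y h⟩
    have hK : ∀ j, ∀ g ∈ isub H r', φ j g ∈ isub H r' := by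
      intro j g hg
      have h1 : r ((1 : G) : G ⧸ H) (g : G ⧸ H) := hg
      have h2 := hr (Sum.inr j) _ _ h1
      rw [opEnd_inr, opEnd_inr, map_one] at h2
      exact h2
    obtain ⟨p, hp⟩ := (hc _).1 ⟨le_isub H r', hK⟩
    refine ⟨p, ?_⟩
    apply Subtype.ext
    show (icon H (c p) _).1 = r
    rw [(icon_congr H hp _ (le_isub H r')).trans (icon_isub H r')]
  · intro p q
    rw [← hle]
    constructor
    · intro h g hg
      have h1 : (icon H (c p) (hH p)).1 ((1 : G) : G ⧸ H) (g : G ⧸ H) := by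
        rw [icon_iff]; simpa using hg
      have h2 : (icon H (c q) (hH q)).1 ((1 : G) : G ⧸ H) (g : G ⧸ H) := h h1
      rw [icon_iff] at h2
      simpa using h2
    · intro h
      show (icon H (c p) (hH p)).1 ≤ (icon H (c q) (hH q)).1
      intro x y
      induction x using QuotientGroup.induction_on with
      | H a =>
      induction y using QuotientGroup.induction_on with
      | H b =>
      rw [icon_iff, icon_iff]
      exact fun hab => h hab

end intervalEnd

section power

variable {A S : Type} [Group S]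

/-- the functions constant on the classes of `θ` -/
def Yt (S : Type) [Group S] (θ : Setoid A) : Subgroup (A → S) where
  carrier := {g | ∀ a b, θ a b → g a = g b}
  one_mem' := fun _ _ _ => rfl
  mul_mem' := by
    intro g h hg hh a b hab
    simp only [Pi.mul_apply, hg a b hab, hh a b hab]
  inv_mem' := by
    intro g hg a b hab
    simp only [Pi.inv_apply, hg a b hab]

theorem mem_Yt {θ : Setoid A} {g : A → S} : g ∈ Yt S θ ↔ ∀ a b, θ a b → g a = g b := Iff.rfl

theorem Yt_anti {θ θ' : Setoid A} (h : θ' ≤ θ) : Yt S θ ≤ Yt S θ' :=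
  fun _ hg a b hab => hg a b (h hab)

theorem Yt_le_iff [Nontrivial S] {θ θ' : Setoid A} : Yt S θ ≤ Yt S θ' ↔ θ' ≤ θ := by
  classical
  refine ⟨fun h a b hab => ?_, Yt_anti⟩
  obtain ⟨s, hs⟩ := exists_ne (1 : S)
  by_contra hcon
  have hg : (fun x => if θ a x then s else 1) ∈ Yt S θ := by
    intro x y hxy
    have : θ a x ↔ θ a y := ⟨fun h1 => θ.trans h1 hxy, fun h1 => θ.trans h1 (θ.symm hxy)⟩
    simp only [this]
  have h1 := h hg a b hab
  simp only [if_pos (θ.refl a), if_neg hcon] at h1
  exact hs h1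

/-- the equivalence attached to a subgroup of functions -/
def tY (Y : Subgroup (A → S)) : Setoid A where
  r a b := ∀ g ∈ Y, g a = g b
  iseqv := ⟨fun _ _ _ => rfl, fun h g hg => (h g hg).symm, fun h h' g hg => (h g hg).trans (h' g hg)⟩

theorem tY_apply {Y : Subgroup (A → S)} {a b : A} : tY Y a b ↔ ∀ g ∈ Y, g a = g b := Iff.rfl

/-- values at `a` of the elements of `Y` trivial on `B` -/
def nval (Y : Subgroup (A → S)) (a : A) (B : Set A) : Subgroup S where
  carrier := {s | ∃ g ∈ Y, (∀ b ∈ B, g b = 1) ∧ g a = s}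
  one_mem' := ⟨1, Y.one_mem, fun _ _ => rfl, rfl⟩
  mul_mem' := by
    rintro s t ⟨g, hg, hg1, rfl⟩ ⟨h, hh, hh1, rfl⟩
    exact ⟨g * h, Y.mul_mem hg hh, fun b hb => by simp [hg1 b hb, hh1 b hb], rfl⟩
  inv_mem' := by
    rintro s ⟨g, hg, hg1, rfl⟩
    exact ⟨g⁻¹, Y.inv_mem hg, fun b hb => by simp [hg1 b hb], rfl⟩

theorem nval_normal {Y : Subgroup (A → S)} (hY : Yt S ⊤ ≤ Y) (a : A) (B : Set A) :
    (nval Y a B).Normal := by
  constructor
  rintro s ⟨g, hg, hg1, rfl⟩ t
  have ht : (fun _ => t) ∈ Y := hY fun _ _ _ => rfl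
  exact ⟨(fun _ => t) * g * (fun _ => t)⁻¹, Y.mul_mem (Y.mul_mem ht hg) (Y.inv_mem ht),
    fun b hb => by simp [hg1 b hb], rfl⟩

theorem nval_top [IsSimpleGroup S] (hS : ∃ x y : S, x * y * x⁻¹ * y⁻¹ ≠ 1)
    {Y : Subgroup (A → S)} (hY : Yt S ⊤ ≤ Y) (a : A) (B : Finset A) (hB : ∀ b ∈ B, ¬ tY Y a b) :
    nval Y a B = ⊤ := by
  classical
  induction B using Finset.induction_on with
  | empty =>
    rw [eq_top_iff]
    intro s _
    exact ⟨fun _ => s, hY fun _ _ _ => rfl, by simp, rfl⟩
  | insert b B hb ih =>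
    have ih' := ih fun x hx => hB x (Finset.mem_insert_of_mem hx)
    have h1 : nval Y a {b} = ⊤ := by
      rcases (nval_normal hY a {b}).eq_bot_or_eq_top with h | h
      · exfalso
        apply hB b (Finset.mem_insert_self _ _)
        intro g hg
        have h2 : g a * (g b)⁻¹ ∈ nval Y a {b} := by
          refine ⟨g * (fun _ => (g b)⁻¹), Y.mul_mem hg (hY fun _ _ _ => rfl), ?_, rfl⟩
          intro x hx
          rw [Set.mem_singleton_iff] at hx
          subst hx
          simp
        rw [h, Subgroup.mem_bot] at h2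
        exact mul_inv_eq_one.mp h2
      · exact h
    rcases (nval_normal hY a ((insert b B : Finset A) : Set A)).eq_bot_or_eq_top with h | h
    · exfalso
      obtain ⟨x, y, hxy⟩ := hS
      apply hxy
      have hx : x ∈ nval Y a B := by rw [ih']; trivial
      have hy : y ∈ nval Y a {b} := by rw [h1]; trivial
      obtain ⟨g, hg, hg1, rfl⟩ := hx
      obtain ⟨k, hk, hk1, rfl⟩ := hy
      have h2 : g a * k a * (g a)⁻¹ * (k a)⁻¹ ∈ nval Y a ((insert b B : Finset A) : Set A) := by
        refine ⟨g * k * g⁻¹ * k⁻¹, Y.mul_mem (Y.mul_mem (Y.mul_mem hg hk) (Y.inv_mem hg))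
          (Y.inv_mem hk), ?_, rfl⟩
        intro z hz
        rw [Finset.coe_insert, Set.mem_insert_iff] at hz
        rcases hz with rfl | hz
        · have := hk1 z rfl
          simp [this]
        · have := hg1 z hz
          simp [this]
      rw [h, Subgroup.mem_bot] at h2
      exact h2
    · exact h

theorem exists_block [Finite A] [IsSimpleGroup S] (hS : ∃ x y : S, x * y * x⁻¹ * y⁻¹ ≠ 1)
    {Y : Subgroup (A → S)} (hY : Yt S ⊤ ≤ Y) (a : A) (s : S) :
    ∃ g ∈ Y, g a = s ∧ ∀ b, ¬ tY Y a b → g b = 1 := by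
  classical
  have := Fintype.ofFinite A
  have h := nval_top hS hY a (Finset.univ.filter fun b => ¬ tY Y a b) (by simp)
  have hs : s ∈ nval Y a ((Finset.univ.filter fun b => ¬ tY Y a b : Finset A) : Set A) := by
    rw [h]; trivial
  obtain ⟨g, hg, hg1, rfl⟩ := hs
  exact ⟨g, hg, rfl, fun b hb => hg1 b (by simpa using hb)⟩

/-- Every group of functions `A → S` (`A` finite, `S` simple and not abelian) that contains the
constants consists of all functions constant on the classes of an equivalence relation. -/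
theorem Yt_tY [Finite A] [IsSimpleGroup S] (hS : ∃ x y : S, x * y * x⁻¹ * y⁻¹ ≠ 1)
    {Y : Subgroup (A → S)} (hY : Yt S ⊤ ≤ Y) : Yt S (tY Y) = Y := by
  classical
  have := Fintype.ofFinite A
  apply le_antisymm
  · have key : ∀ (T : Finset A) (w : A → S), w ∈ Yt S (tY Y) → (∀ a, a ∉ T → w a = 1) → w ∈ Y := by
      intro T
      induction T using Finset.induction_on with
      | empty =>
        intro w _ hw1
        have : w = 1 := funext fun a => hw1 a (by simp)
        rw [this]; exact Y.one_mem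
      | insert a T ha ih =>
        intro w hw hw1
        obtain ⟨g, hg, hga, hg1⟩ := exists_block hS hY a (w a)
        have h2 : g⁻¹ * w ∈ Y := by
          apply ih
          · exact (Yt S (tY Y)).mul_mem ((Yt S (tY Y)).inv_mem fun x y hxy => hxy g hg) hw
          · intro b hb
            by_cases hab : tY Y a b
            · have e1 : w a = w b := hw a b hab
              have e2 : g a = g b := hab g hg
              rw [Pi.mul_apply, Pi.inv_apply, ← e1, ← e2, hga]
              simp
            · have hba : b ≠ a := by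
                rintro rfl
                exact hab ((tY Y).refl b)
              have e1 : w b = 1 := hw1 b (by simp [hba, hb])
              rw [Pi.mul_apply, Pi.inv_apply, e1, hg1 b hab]
              simp
        have h3 : w = g * (g⁻¹ * w) := by simp
        rw [h3]
        exact Y.mul_mem hg h2
    intro w hw
    exact key Finset.univ w hw (by simp)
  · intro g hg a b hab
    exact hab g hg

/-- precomposition -/
def pre (S : Type) [Group S] (f : A → A) : (A → S) →* (A → S) where
  toFun g := g ∘ f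
  map_one' := rfl
  map_mul' _ _ := rfl

end power

theorem a5_comm : ∃ x y : alternatingGroup (Fin 5), x * y * x⁻¹ * y⁻¹ ≠ 1 := by
  refine ⟨⟨Equiv.swap 0 1 * Equiv.swap 1 2, ?_⟩, ⟨Equiv.swap 2 3 * Equiv.swap 3 4, ?_⟩, ?_⟩
  · rw [Equiv.Perm.mem_alternatingGroup]; decide
  · rw [Equiv.Perm.mem_alternatingGroup]; decide
  · intro h
    have := congrArg (fun t : alternatingGroup (Fin 5) => (t : Equiv.Perm (Fin 5)) 0) h
    revert this
    decide

/-- The dual of a congruence lattice of a finite algebra is again one. -/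
theorem URep.dual {P : Type} {le : P → P → Prop} (h : URep P le) :
    URep P (fun p q => le q p) := by
  obtain ⟨A, hA, _, ι, hι, f, c, hc, hle⟩ := h
  have := alternatingGroup.isSimpleGroup_five
  refine URep.intervalEnd (G := A → alternatingGroup (Fin 5)) (J := ι) (Yt _ ⊤)
    (fun i => pre _ (f i)) ?_ (fun p => Yt _ (c p).1) ?_ ?_
  · intro i g hg a b _
    exact hg _ _ trivial
  · intro K
    constructor
    · rintro ⟨hK, hcl⟩
      have hθ : ∀ (i : ι) (x y : A), tY K x y → tY K (f i x) (f i y) := by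
        intro i x y hxy g hg
        exact hxy _ (hcl i g hg)
      obtain ⟨p, hp⟩ := hc ⟨tY K, hθ⟩
      refine ⟨p, ?_⟩
      rw [hp]
      exact Yt_tY a5_comm hK
    · rintro ⟨p, rfl⟩
      refine ⟨Yt_anti le_top, ?_⟩
      intro i g hg a b hab
      exact hg _ _ ((c p).2 i a b hab)
  · intro p q
    rw [Yt_le_iff, ← hle]
    exact Iff.rfl

theorem RepCode.dual {n : ℕ} {rel rel' : List (ℕ × ℕ)} (h : RepCode n rel)
    (hr : ∀ i j : Fin n, leOf n rel' i.rev j.rev ↔ leOf n rel j i) : RepCode n rel' :=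
  URep.congr' (URep.dual h) Fin.revPerm fun p q => hr p q

end P183
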