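import Vale.Agent.P183.Snow

/-!
# P183: the lattice `1 < 2 < 3`, `1 < 4`, `5 < 3` (with bottom and top)

The algebra `(Fin 4; σ, ρ)`, `σ = (0 1)(2 3)`, `ρ : 0, 2 ↦ 0; 1, 3 ↦ 1`, has the pentagon as
congruence lattice. In `A₅ ^ 4` take the subgroups closed under `σ`, `ρ` that contain the
constants or lie in the subgroup generated by `(1, 1, s, s⁻¹)`, `s` of order three.
-/

namespace P183

theorem le_zpowers_prime {G : Type} [Group G] [Finite G] {g : G} {p : ℕ} (hp : p.Prime)
    (hg : orderOf g = p) {S : Subgroup G} (hS : S ≤ Subgroup.zpowers g) :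
    S = ⊥ ∨ S = Subgroup.zpowers g := by
  have h1 : Nat.card S ∣ Nat.card (Subgroup.zpowers g) := Subgroup.card_dvd_of_le hS
  rw [Nat.card_zpowers, hg] at h1
  rcases (Nat.dvd_prime hp).1 h1 with h | h
  · left
    exact Subgroup.card_eq_one.mp h
  · right
    apply Subgroup.eq_of_le_of_card_ge hS
    rw [Nat.card_zpowers, hg, h]

theorem setoid4_ext (r : Setoid (Fin 4)) (k : Fin 4 → Fin 4) (h01 : r 0 1 ↔ k 0 = k 1)
    (h02 : r 0 2 ↔ k 0 = k 2) (h03 : r 0 3 ↔ k 0 = k 3) (h12 : r 1 2 ↔ k 1 = k 2)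
    (h13 : r 1 3 ↔ k 1 = k 3) (h23 : r 2 3 ↔ k 2 = k 3) : Setoid.ker k = r := by
  have hs : ∀ x y, r x y ↔ r y x := fun x y => ⟨r.symm, r.symm⟩
  apply Setoid.ext
  intro x y
  rw [Setoid.ker_def]
  match x, y with
  | 0, 0 => exact iff_of_true rfl (r.refl _)
  | 1, 1 => exact iff_of_true rfl (r.refl _)
  | 2, 2 => exact iff_of_true rfl (r.refl _)
  | 3, 3 => exact iff_of_true rfl (r.refl _)
  | 0, 1 => exact h01.symm
  | 0, 2 => exact h02.symm
  | 0, 3 => exact h03.symm
  | 1, 2 => exact h12.symm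
  | 1, 3 => exact h13.symm
  | 2, 3 => exact h23.symm
  | 1, 0 => rw [hs, h01]; exact eq_comm
  | 2, 0 => rw [hs, h02]; exact eq_comm
  | 3, 0 => rw [hs, h03]; exact eq_comm
  | 2, 1 => rw [hs, h12]; exact eq_comm
  | 3, 1 => rw [hs, h13]; exact eq_comm
  | 3, 2 => rw [hs, h23]; exact eq_comm

/-- the two operations -/
def f22 : Fin 2 → Fin 4 → Fin 4 := ![![1, 0, 3, 2], ![0, 1, 0, 1]]

/-- the five congruences as kernels: top, `β`, `α`, `γ`, bottom -/
def kk22 : Fin 5 → Fin 4 → Fin 4 :=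
  ![![0, 0, 0, 0], ![0, 0, 2, 2], ![0, 0, 2, 3], ![0, 1, 0, 1], ![0, 1, 2, 3]]

theorem con22 (r : Setoid (Fin 4)) (hr : ∀ (i : Fin 2) (x y : Fin 4), r x y → r (f22 i x) (f22 i y)) :
    ∃ p, Setoid.ker (kk22 p) = r := by
  have s02 : r 0 2 → r 1 3 := fun h => hr 0 0 2 h
  have s13 : r 1 3 → r 0 2 := fun h => hr 0 1 3 h
  have s03 : r 0 3 → r 1 2 := fun h => hr 0 0 3 h
  have s12 : r 1 2 → r 0 3 := fun h => hr 0 1 2 h
  have t03 : r 0 3 → r 0 1 := fun h => hr 1 0 3 h
  have t23 : r 2 3 → r 0 1 := fun h => hr 1 2 3 h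
  have tr : ∀ {a b c : Fin 4}, r a b → r b c → r a c := fun h h' => r.trans h h'
  have sy : ∀ {a b : Fin 4}, r a b → r b a := fun h => r.symm h
  by_cases h03 : r 0 3
  · have h01 := t03 h03
    have h12 := s03 h03
    have h02 := tr h01 h12
    have h13 := s02 h02
    have h23 := tr (sy h02) h03
    exact ⟨0, setoid4_ext r _ (iff_of_true h01 (by decide)) (iff_of_true h02 (by decide))
      (iff_of_true h03 (by decide)) (iff_of_true h12 (by decide)) (iff_of_true h13 (by decide))
      (iff_of_true h23 (by decide))⟩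
  have h12 : ¬ r 1 2 := fun h => h03 (s12 h)
  by_cases h01 : r 0 1
  · have h02 : ¬ r 0 2 := fun h => h12 (tr (sy h01) h)
    have h13 : ¬ r 1 3 := fun h => h02 (s13 h)
    by_cases h23 : r 2 3
    · exact ⟨1, setoid4_ext r _ (iff_of_true h01 (by decide)) (iff_of_false h02 (by decide))
        (iff_of_false h03 (by decide)) (iff_of_false h12 (by decide))
        (iff_of_false h13 (by decide)) (iff_of_true h23 (by decide))⟩
    · exact ⟨2, setoid4_ext r _ (iff_of_true h01 (by decide)) (iff_of_false h02 (by decide))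
        (iff_of_false h03 (by decide)) (iff_of_false h12 (by decide))
        (iff_of_false h13 (by decide)) (iff_of_false h23 (by decide))⟩
  · have h23 : ¬ r 2 3 := fun h => h01 (t23 h)
    by_cases h02 : r 0 2
    · exact ⟨3, setoid4_ext r _ (iff_of_false h01 (by decide)) (iff_of_true h02 (by decide))
        (iff_of_false h03 (by decide)) (iff_of_false h12 (by decide))
        (iff_of_true (s02 h02) (by decide)) (iff_of_false h23 (by decide))⟩
    · have h13 : ¬ r 1 3 := fun h => h02 (s13 h)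
      exact ⟨4, setoid4_ext r _ (iff_of_false h01 (by decide)) (iff_of_false h02 (by decide))
        (iff_of_false h03 (by decide)) (iff_of_false h12 (by decide))
        (iff_of_false h13 (by decide)) (iff_of_false h23 (by decide))⟩

theorem cl22 (p : Fin 5) (i : Fin 2) (x y : Fin 4) (h : Setoid.ker (kk22 p) x y) :
    Setoid.ker (kk22 p) (f22 i x) (f22 i y) := by
  rw [Setoid.ker_def] at h ⊢
  revert p i x y
  decide

/-- an element of order three of `A₅` -/
def s3 : alternatingGroup (Fin 5) :=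
  ⟨Equiv.swap 0 1 * Equiv.swap 1 2, by rw [Equiv.Perm.mem_alternatingGroup]; decide⟩

theorem s3_ne : s3 ≠ 1 := by
  intro h
  have := congrArg (fun t : alternatingGroup (Fin 5) => (t : Equiv.Perm (Fin 5)) 0) h
  revert this
  decide

theorem s3_pow : s3 ^ 3 = 1 := by
  apply Subtype.ext
  show (Equiv.swap (0 : Fin 5) 1 * Equiv.swap 1 2) ^ 3 = 1
  decide

/-- the generator of the ear -/
def w22 : Fin 4 → alternatingGroup (Fin 5) := ![1, 1, s3, s3⁻¹]

theorem w22_pow : w22 ^ 3 = 1 := by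
  funext x
  rw [Pi.pow_apply, Pi.one_apply]
  match x with
  | 0 => exact one_pow 3
  | 1 => exact one_pow 3
  | 2 => exact s3_pow
  | 3 =>
    show s3⁻¹ ^ 3 = 1
    rw [inv_pow, s3_pow, inv_one]

theorem w22_ne : w22 ≠ 1 := fun h => s3_ne (congrFun h 2)

theorem w22_order : orderOf w22 = 3 :=
  have : Fact (Nat.Prime 3) := ⟨Nat.prime_three⟩
  orderOf_eq_prime w22_pow w22_ne

theorem w22_eq (x y : Fin 4) : w22 x = w22 y ↔ kk22 2 x = kk22 2 y := by
  have h1 := s3_ne
  have h2 : s3⁻¹ ≠ 1 := inv_ne_one.mpr h1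
  have h3 : s3 ≠ s3⁻¹ := by
    intro h
    have h4 : s3 * s3 = 1 := by
      nth_rw 2 [h]
      exact mul_inv_cancel s3
    have h5 := s3_pow
    rw [pow_succ, pow_two, h4, one_mul] at h5
    exact h1 h5
  match x, y with
  | 0, 0 => exact iff_of_true rfl rfl
  | 1, 1 => exact iff_of_true rfl rfl
  | 2, 2 => exact iff_of_true rfl rfl
  | 3, 3 => exact iff_of_true rfl rfl
  | 0, 1 => exact iff_of_true rfl rfl
  | 1, 0 => exact iff_of_true rfl rfl
  | 0, 2 => exact iff_of_false (fun h => h1 h.symm) (by decide)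
  | 0, 3 => exact iff_of_false (fun h => h2 h.symm) (by decide)
  | 1, 2 => exact iff_of_false (fun h => h1 h.symm) (by decide)
  | 1, 3 => exact iff_of_false (fun h => h2 h.symm) (by decide)
  | 2, 3 => exact iff_of_false (fun h => h3 h) (by decide)
  | 2, 0 => exact iff_of_false (fun h => h1 h) (by decide)
  | 3, 0 => exact iff_of_false (fun h => h2 h) (by decide)
  | 2, 1 => exact iff_of_false (fun h => h1 h) (by decide)
  | 3, 1 => exact iff_of_false (fun h => h2 h) (by decide)
  | 3, 2 => exact iff_of_false (fun h => h3 h.symm) (by decide)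

/-- the dual pentagon -/
def Y22 (p : Fin 5) : Subgroup (Fin 4 → alternatingGroup (Fin 5)) :=
  Yt _ (Setoid.ker (kk22 p))

theorem Y22_le (p q : Fin 5) :
    Y22 p ≤ Y22 q ↔ ∀ x y, kk22 q x = kk22 q y → kk22 p x = kk22 p y := by
  have := alternatingGroup.isSimpleGroup_five
  unfold Y22
  rw [Yt_le_iff]
  constructor
  · intro h x y hxy
    exact h hxy
  · intro h x y hxy
    exact h x y hxy

theorem E22_le (p : Fin 5) :
    Subgroup.zpowers w22 ≤ Y22 p ↔ ∀ x y, kk22 p x = kk22 p y → kk22 2 x = kk22 2 y := by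
  rw [Subgroup.zpowers_le]
  constructor
  · intro h x y hxy
    exact (w22_eq x y).mp (h x y hxy)
  · intro h x y hxy
    exact (w22_eq x y).mpr (h x y hxy)

/-- the seven subgroups -/
def c22 : Fin 7 → Subgroup (Fin 4 → alternatingGroup (Fin 5))
  | 0 => ⊥
  | 1 => Y22 0
  | 2 => Y22 1
  | 3 => Y22 2
  | 4 => Y22 3
  | 5 => Subgroup.zpowers w22
  | 6 => Y22 4

theorem const_mem (p : Fin 5) (s : alternatingGroup (Fin 5)) : (fun _ => s) ∈ Y22 p :=
  fun _ _ _ => rfl

theorem hYE22 (p : Fin 5) : ¬ Y22 p ≤ Subgroup.zpowers w22 := by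
  intro h
  have h1 := h (const_mem p s3)
  rw [Subgroup.mem_zpowers_iff] at h1
  obtain ⟨k, hk⟩ := h1
  have h2 := congrFun hk 0
  rw [Pi.pow_apply] at h2
  have h3 : w22 0 = 1 := rfl
  rw [h3, one_zpow] at h2
  exact s3_ne h2.symm

theorem hEb22 : ¬ Subgroup.zpowers w22 ≤ ⊥ := by
  rw [Subgroup.zpowers_le, Subgroup.mem_bot]
  exact w22_ne

theorem c22_le (p q : Fin 7) :
    c22 p ≤ c22 q ↔ leOf 7 [(1, 2), (1, 3), (1, 4), (2, 3), (5, 3)] p q := by
  have hEb := hEb22
  have hYE := hYE22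
  have hYb : ∀ p, ¬ Y22 p ≤ ⊥ := fun p h => hYE p (h.trans bot_le)
  match p, q with
  | 0, 0 => exact iff_of_true bot_le (by decide)
  | 0, 1 => exact iff_of_true bot_le (by decide)
  | 0, 2 => exact iff_of_true bot_le (by decide)
  | 0, 3 => exact iff_of_true bot_le (by decide)
  | 0, 4 => exact iff_of_true bot_le (by decide)
  | 0, 5 => exact iff_of_true bot_le (by decide)
  | 0, 6 => exact iff_of_true bot_le (by decide)
  | 1, 0 => exact iff_of_false (hYb 0) (by decide)
  | 1, 1 => exact (Y22_le 0 0).trans (by decide)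
  | 1, 2 => exact (Y22_le 0 1).trans (by decide)
  | 1, 3 => exact (Y22_le 0 2).trans (by decide)
  | 1, 4 => exact (Y22_le 0 3).trans (by decide)
  | 1, 5 => exact iff_of_false (hYE 0) (by decide)
  | 1, 6 => exact (Y22_le 0 4).trans (by decide)
  | 2, 0 => exact iff_of_false (hYb 1) (by decide)
  | 2, 1 => exact (Y22_le 1 0).trans (by decide)
  | 2, 2 => exact (Y22_le 1 1).trans (by decide)
  | 2, 3 => exact (Y22_le 1 2).trans (by decide)
  | 2, 4 => exact (Y22_le 1 3).trans (by decide)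
  | 2, 5 => exact iff_of_false (hYE 1) (by decide)
  | 2, 6 => exact (Y22_le 1 4).trans (by decide)
  | 3, 0 => exact iff_of_false (hYb 2) (by decide)
  | 3, 1 => exact (Y22_le 2 0).trans (by decide)
  | 3, 2 => exact (Y22_le 2 1).trans (by decide)
  | 3, 3 => exact (Y22_le 2 2).trans (by decide)
  | 3, 4 => exact (Y22_le 2 3).trans (by decide)
  | 3, 5 => exact iff_of_false (hYE 2) (by decide)
  | 3, 6 => exact (Y22_le 2 4).trans (by decide)
  | 4, 0 => exact iff_of_false (hYb 3) (by decide)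
  | 4, 1 => exact (Y22_le 3 0).trans (by decide)
  | 4, 2 => exact (Y22_le 3 1).trans (by decide)
  | 4, 3 => exact (Y22_le 3 2).trans (by decide)
  | 4, 4 => exact (Y22_le 3 3).trans (by decide)
  | 4, 5 => exact iff_of_false (hYE 3) (by decide)
  | 4, 6 => exact (Y22_le 3 4).trans (by decide)
  | 5, 0 => exact iff_of_false hEb (by decide)
  | 5, 1 => exact (E22_le 0).trans (by decide)
  | 5, 2 => exact (E22_le 1).trans (by decide)
  | 5, 3 => exact (E22_le 2).trans (by decide)
  | 5, 4 => exact (E22_le 3).trans (by decide)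
  | 5, 5 => exact iff_of_true le_rfl (by decide)
  | 5, 6 => exact (E22_le 4).trans (by decide)
  | 6, 0 => exact iff_of_false (hYb 4) (by decide)
  | 6, 1 => exact (Y22_le 4 0).trans (by decide)
  | 6, 2 => exact (Y22_le 4 1).trans (by decide)
  | 6, 3 => exact (Y22_le 4 2).trans (by decide)
  | 6, 4 => exact (Y22_le 4 3).trans (by decide)
  | 6, 5 => exact iff_of_false (hYE 4) (by decide)
  | 6, 6 => exact (Y22_le 4 4).trans (by decide)

theorem c22_surj (Y : Subgroup (Fin 4 → alternatingGroup (Fin 5))) :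
    (⊥ ≤ Y ∧ (∀ j, ∀ g ∈ Y, pre _ (f22 j) g ∈ Y) ∧ (Yt _ ⊤ ≤ Y ∨ Y ≤ Subgroup.zpowers w22)) ↔
      ∃ p, c22 p = Y := by
  have := alternatingGroup.isSimpleGroup_five
  constructor
  · rintro ⟨_, hcl, h | h⟩
    · have hθ : ∀ (i : Fin 2) (x y : Fin 4), tY Y x y → tY Y (f22 i x) (f22 i y) := by
        intro i x y hxy g hg
        exact hxy _ (hcl i g hg)
      obtain ⟨p, hp⟩ := con22 (tY Y) hθ
      have h1 : Y22 p = Y := by
        unfold Y22
        rw [hp]
        exact Yt_tY a5_comm h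
      match p, h1 with
      | 0, h1 => exact ⟨1, h1⟩
      | 1, h1 => exact ⟨2, h1⟩
      | 2, h1 => exact ⟨3, h1⟩
      | 3, h1 => exact ⟨4, h1⟩
      | 4, h1 => exact ⟨6, h1⟩
    · rcases le_zpowers_prime Nat.prime_three w22_order h with h | h
      · exact ⟨0, h.symm⟩
      · exact ⟨5, h.symm⟩
  · rintro ⟨p, rfl⟩
    refine ⟨bot_le, ?_⟩
    have hY : ∀ p, (∀ j, ∀ g ∈ Y22 p, pre _ (f22 j) g ∈ Y22 p) ∧
        (Yt _ ⊤ ≤ Y22 p ∨ Y22 p ≤ Subgroup.zpowers w22) := by
      intro p
      refine ⟨?_, Or.inl (Yt_anti le_top)⟩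
      intro j g hg a b hab
      exact hg _ _ (cl22 p j a b hab)
    match p with
    | 0 =>
      refine ⟨?_, Or.inr bot_le⟩
      intro j g hg
      have hg' : g = 1 := hg
      rw [hg', map_one]
      exact Subgroup.one_mem _
    | 1 => exact hY 0
    | 2 => exact hY 1
    | 3 => exact hY 2
    | 4 => exact hY 3
    | 6 => exact hY 4
    | 5 =>
      refine ⟨?_, Or.inr le_rfl⟩
      have key : ∀ j : Fin 2, pre _ (f22 j) w22 ∈ Subgroup.zpowers w22 := by
        intro j
        match j with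
        | 0 =>
          have : pre _ (f22 0) w22 = w22⁻¹ := by
            funext x
            match x with
            | 0 => exact inv_one.symm
            | 1 => exact inv_one.symm
            | 2 => rfl
            | 3 => exact (inv_inv s3).symm
          rw [this]
          exact Subgroup.inv_mem _ (Subgroup.mem_zpowers _)
        | 1 =>
          have : pre _ (f22 1) w22 = 1 := by
            funext x
            match x with
            | 0 => rfl
            | 1 => rfl
            | 2 => rfl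
            | 3 => rfl
          rw [this]
          exact Subgroup.one_mem _
      intro j g hg
      obtain ⟨k, hk⟩ := Subgroup.mem_zpowers_iff.mp hg
      rw [← hk, map_zpow]
      exact Subgroup.zpow_mem _ (key j) k

theorem ear22 : RepCode 7 [(1, 2), (1, 3), (1, 4), (2, 3), (5, 3)] := by
  refine URep.intervalSnow (G := Fin 4 → alternatingGroup (Fin 5)) (J := Fin 2) ⊥
    (fun j => pre _ (f22 j)) ?_ (Yt _ ⊤) (Subgroup.zpowers w22) bot_le bot_le ?_ ?_ c22 c22_surj
    c22_le
  · intro j g hg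
    have hg' : g = 1 := hg
    rw [hg', map_one]
    exact Subgroup.one_mem _
  · intro j g hg a b _
    exact hg _ _ trivial
  · have := (c22_surj (Subgroup.zpowers w22)).2 ⟨5, rfl⟩
    exact this.2.1

end P183
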