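import Vale.Agent.P183.Ear22

/-!
# P183: the lattice `1 < 2 < 3`, `1 < 4`, `5` (with bottom and top)

In the affine group `AGL(2, 3)` take the subgroups that contain the stabiliser of the origin and
of a line through it, or lie in a certain subgroup of order two.
-/

namespace P183

/-- the plane -/
abbrev Pl : Type := ZMod 3 × ZMod 3

/-- linear automorphisms -/
abbrev Ln : Type := Pl ≃ₗ[ZMod 3] Pl

/-- the affine group of the plane over `ZMod 3`: `⟨v, s⟩` is the map `x ↦ v + s x` -/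
@[ext] structure Af where
  v : Pl
  s : Ln

namespace Af

instance : Mul Af := ⟨fun g h => ⟨g.v + g.s h.v, g.s * h.s⟩⟩
instance : One Af := ⟨⟨0, 1⟩⟩
instance : Inv Af := ⟨fun g => ⟨-(g.s⁻¹ g.v), g.s⁻¹⟩⟩

@[simp] lemma mul_v (g h : Af) : (g * h).v = g.v + g.s h.v := rfl
@[simp] lemma mul_s (g h : Af) : (g * h).s = g.s * h.s := rfl
@[simp] lemma one_v : (1 : Af).v = 0 := rfl
@[simp] lemma one_s : (1 : Af).s = 1 := rfl
@[simp] lemma inv_v (g : Af) : (g⁻¹).v = -(g.s⁻¹ g.v) := rfl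
@[simp] lemma inv_s (g : Af) : (g⁻¹).s = g.s⁻¹ := rfl

instance : Group Af :=
  Group.ofLeftAxioms
    (by
      intro a b c
      apply Af.ext
      · simp [add_assoc]
      · simp [mul_assoc])
    (by
      intro a
      apply Af.ext
      · simp
      · simp)
    (by
      intro a
      apply Af.ext
      · simp
      · simp)

instance : Finite Af := by
  have : Finite Ln := DFunLike.finite Ln
  exact Finite.of_injective (fun g : Af => (g.v, g.s)) (by
    intro g h hgh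
    exact Af.ext (congrArg Prod.fst hgh) (congrArg Prod.snd hgh))

/-- `x ↦ -x` -/
def ng : Ln := LinearEquiv.neg (ZMod 3)

/-- exchange of the coordinates -/
def sw : Ln where
  toFun v := (v.2, v.1)
  invFun v := (v.2, v.1)
  left_inv _ := rfl
  right_inv _ := rfl
  map_add' _ _ := rfl
  map_smul' _ _ := rfl

lemma sq3 (l : ZMod 3) (hl : l ≠ 0) : l * l = 1 := by
  revert l; decide

/-- `(x, y) ↦ (x + t y, l y)` -/
def shr (t l : ZMod 3) (hl : l ≠ 0) : Ln where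
  toFun v := (v.1 + t * v.2, l * v.2)
  invFun v := (v.1 - t * l * v.2, l * v.2)
  left_inv v := by
    apply Prod.ext
    · show v.1 + t * v.2 - t * l * (l * v.2) = v.1
      have := sq3 l hl
      linear_combination (-t * v.2) * this
    · show l * (l * v.2) = v.2
      have := sq3 l hl
      linear_combination v.2 * this
  right_inv v := by
    apply Prod.ext
    · show v.1 - t * l * v.2 + t * (l * v.2) = v.1
      ring
    · show l * (l * v.2) = v.2
      have := sq3 l hl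
      linear_combination v.2 * this
  map_add' v w := by
    apply Prod.ext
    · show (v + w).1 + t * (v + w).2 = v.1 + t * v.2 + (w.1 + t * w.2)
      simp only [Prod.fst_add, Prod.snd_add]
      ring
    · show l * (v + w).2 = l * v.2 + l * w.2
      simp only [Prod.snd_add]
      ring
  map_smul' c v := by
    apply Prod.ext
    · show (c • v).1 + t * (c • v).2 = c * (v.1 + t * v.2)
      simp only [Prod.smul_fst, Prod.smul_snd, smul_eq_mul]
      ring
    · show l * (c • v).2 = c * (l * v.2)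
      simp only [Prod.smul_snd, smul_eq_mul]
      ring

lemma aut_apply (s : Ln) (v : Pl) :
    s v = (v.1 * (s (1, 0)).1 + v.2 * (s (0, 1)).1, v.1 * (s (1, 0)).2 + v.2 * (s (0, 1)).2) := by
  have h1 : v = v.1 • (1, 0) + v.2 • (0, 1) := by
    apply Prod.ext <;> simp
  conv_lhs => rw [h1, map_add, map_smul, map_smul]
  rfl

/-- `s` preserves the line `y = 0` -/
def Qk (s : Ln) : Prop := ∀ v : Pl, v.2 = 0 ↔ (s v).2 = 0

lemma Qk_iff (s : Ln) : Qk s ↔ (s (1, 0)).2 = 0 := by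
  constructor
  · intro h
    exact (h (1, 0)).mp rfl
  · intro h v
    have h1 : ∀ v : Pl, (s v).2 = v.2 * (s (0, 1)).2 := by
      intro v
      rw [aut_apply s v]
      show v.1 * (s (1, 0)).2 + v.2 * (s (0, 1)).2 = v.2 * (s (0, 1)).2
      rw [h, mul_zero, zero_add]
    have hd : (s (0, 1)).2 ≠ 0 := by
      intro hd
      have h2 := h1 (s⁻¹ (0, 1))
      rw [hd, mul_zero] at h2
      have h3 : s (s⁻¹ (0, 1)) = (0, 1) := s.apply_symm_apply (0, 1)
      rw [h3] at h2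
      exact absurd h2 (by decide)
    rw [h1]
    constructor
    · intro hv
      rw [hv, zero_mul]
    · intro hv
      have h4 := sq3 _ hd
      have : v.2 = v.2 * (s (0, 1)).2 * (s (0, 1)).2 := by rw [mul_assoc, h4, mul_one]
      rw [this, hv, zero_mul]

lemma Qk_one : Qk 1 := fun _ => Iff.rfl

lemma Qk_mul {s t : Ln} (hs : Qk s) (ht : Qk t) : Qk (s * t) :=
  fun v => (ht v).trans (hs (t v))

lemma Qk_inv {s : Ln} (hs : Qk s) : Qk s⁻¹ := by
  intro v
  have h3 : s (s⁻¹ v) = v := s.apply_symm_apply v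
  have := hs (s⁻¹ v)
  rw [h3] at this
  exact this.symm

lemma Qk_ng : Qk ng := by
  intro v
  show v.2 = 0 ↔ -v.2 = 0
  rw [neg_eq_zero]

lemma Qk_shr (t l : ZMod 3) (hl : l ≠ 0) : Qk (shr t l hl) := by
  rw [Qk_iff]
  show l * 0 = 0
  ring

lemma not_Qk_sw : ¬ Qk sw := by
  rw [Qk_iff]
  decide

/-- stabiliser of the origin and of the line -/
def A1 : Subgroup Af where
  carrier := {g | g.v = 0 ∧ Qk g.s}
  one_mem' := ⟨rfl, Qk_one⟩
  mul_mem' := by
    rintro g h ⟨h1, h2⟩ ⟨h3, h4⟩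
    refine ⟨?_, Qk_mul h2 h4⟩
    rw [mul_v, h1, h3, map_zero, add_zero]
  inv_mem' := by
    rintro g ⟨h1, h2⟩
    refine ⟨?_, Qk_inv h2⟩
    rw [inv_v, h1, map_zero, neg_zero]

/-- stabiliser of the line -/
def A2 : Subgroup Af where
  carrier := {g | g.v.2 = 0 ∧ Qk g.s}
  one_mem' := ⟨rfl, Qk_one⟩
  mul_mem' := by
    rintro g h ⟨h1, h2⟩ ⟨h3, h4⟩
    refine ⟨?_, Qk_mul h2 h4⟩
    rw [mul_v, Prod.snd_add, h1, (h2 h.v).mp h3, add_zero]
  inv_mem' := by
    rintro g ⟨h1, h2⟩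
    refine ⟨?_, Qk_inv h2⟩
    rw [inv_v, Prod.snd_neg, (Qk_inv h2 g.v).mp h1, neg_zero]

/-- stabiliser of the direction of the line -/
def A3 : Subgroup Af where
  carrier := {g | Qk g.s}
  one_mem' := Qk_one
  mul_mem' := fun h1 h2 => Qk_mul h1 h2
  inv_mem' := fun h => Qk_inv h

/-- stabiliser of the origin -/
def A4 : Subgroup Af where
  carrier := {g | g.v = 0}
  one_mem' := rfl
  mul_mem' := by
    intro g h h1 h3
    show (g * h).v = 0
    have h1' : g.v = 0 := h1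
    have h3' : h.v = 0 := h3
    rw [mul_v, h1', h3', map_zero, add_zero]
  inv_mem' := by
    intro g h1
    show (g⁻¹).v = 0
    have h1' : g.v = 0 := h1
    rw [inv_v, h1', map_zero, neg_zero]

/-- the involution -/
def g0 : Af := ⟨(1, 2), sw⟩

lemma g0_sq : g0 * g0 = 1 := by
  apply Af.ext
  · show ((1, 2) : Pl) + (2, 1) = 0
    decide
  · apply LinearEquiv.ext
    intro v
    rfl

lemma g0_ne : g0 ≠ 1 := by
  intro h
  have h1 : ((1, 2) : Pl) = 0 := congrArg Af.v h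
  exact absurd h1 (by decide)

lemma g0_order : orderOf g0 = 2 :=
  have : Fact (Nat.Prime 2) := ⟨Nat.prime_two⟩
  orderOf_eq_prime (by rw [pow_two]; exact g0_sq) g0_ne

lemma mem_zpowers_g0 {x : Af} (hx : x ∈ Subgroup.zpowers g0) : x = 1 ∨ x = g0 := by
  obtain ⟨k, rfl⟩ := Subgroup.mem_zpowers_iff.mp hx
  have h2 : g0 ^ (2 : ℤ) = 1 := by
    rw [zpow_two]; exact g0_sq
  rcases Int.even_or_odd' k with ⟨m, rfl | rfl⟩
  · left
    rw [zpow_mul, h2, one_zpow]
  · right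
    rw [zpow_add, zpow_mul, h2, one_zpow, one_mul, zpow_one]

/-- the seven subgroups -/
def c9 : Fin 7 → Subgroup Af
  | 0 => ⊥
  | 1 => A1
  | 2 => A2
  | 3 => A3
  | 4 => A4
  | 5 => Subgroup.zpowers g0
  | 6 => ⊤

theorem c9_le (p q : Fin 7) :
    c9 p ≤ c9 q ↔ leOf 7 [(1, 2), (1, 3), (1, 4), (2, 3)] p q := by
  have h12 : A1 ≤ A2 := fun g hg => ⟨congrArg Prod.snd hg.1, hg.2⟩
  have h23 : A2 ≤ A3 := fun g hg => hg.2
  have h14 : A1 ≤ A4 := fun g hg => hg.1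
  have k1 : (⟨0, ng⟩ : Af) ∈ A1 := ⟨rfl, Qk_ng⟩
  have k2 : (⟨0, ng⟩ : Af) ∈ A2 := h12 k1
  have k3 : (⟨0, ng⟩ : Af) ∈ A3 := h23 k2
  have k4 : (⟨0, ng⟩ : Af) ∈ A4 := h14 k1
  have k6 : (⟨0, ng⟩ : Af) ∈ (⊤ : Subgroup Af) := trivial
  have hng : (⟨0, ng⟩ : Af) ≠ 1 := by
    intro h
    have h1 : ng (1, 0) = (1 : Ln) (1, 0) := congrArg (fun g : Af => g.s (1, 0)) h
    have h2 : (-(1, 0) : Pl) = (1, 0) := h1
    exact absurd h2 (by decide)
  have n0 : (⟨0, ng⟩ : Af) ∉ (⊥ : Subgroup Af) := fun h => hng h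
  have nE : (⟨0, ng⟩ : Af) ∉ Subgroup.zpowers g0 := by
    intro h
    rcases mem_zpowers_g0 h with h | h
    · exact hng h
    · have h1 : (0 : Pl) = (1, 2) := congrArg Af.v h
      exact absurd h1 (by decide)
  have e0 : g0 ∉ (⊥ : Subgroup Af) := fun h => g0_ne h
  have e5 : g0 ∈ Subgroup.zpowers g0 := Subgroup.mem_zpowers _
  have e6 : g0 ∈ (⊤ : Subgroup Af) := trivial
  have g3 : g0 ∉ A3 := fun h => not_Qk_sw h
  have g2 : g0 ∉ A2 := fun h => g3 (h23 h)
  have g1 : g0 ∉ A1 := fun h => g2 (h12 h)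
  have g4 : g0 ∉ A4 := by
    intro h
    have h1 : ((1, 2) : Pl) = 0 := h
    exact absurd h1 (by decide)
  have a2m : (⟨(1, 0), 1⟩ : Af) ∈ A2 := ⟨rfl, Qk_one⟩
  have a3m : (⟨(1, 0), 1⟩ : Af) ∈ A3 := h23 a2m
  have a4 : (⟨(1, 0), 1⟩ : Af) ∉ A4 := by
    intro h
    have h1 : ((1, 0) : Pl) = 0 := h
    exact absurd h1 (by decide)
  have a1 : (⟨(1, 0), 1⟩ : Af) ∉ A1 := fun h => a4 (h14 h)
  have b3m : (⟨(0, 1), 1⟩ : Af) ∈ A3 := Qk_one
  have b2 : (⟨(0, 1), 1⟩ : Af) ∉ A2 := by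
    intro h
    have h1 : (1 : ZMod 3) = 0 := h.1
    exact absurd h1 (by decide)
  have s4m : (⟨0, sw⟩ : Af) ∈ A4 := rfl
  have s3 : (⟨0, sw⟩ : Af) ∉ A3 := fun h => not_Qk_sw h
  have s2 : (⟨0, sw⟩ : Af) ∉ A2 := fun h => s3 (h23 h)
  have s1 : (⟨0, sw⟩ : Af) ∉ A1 := fun h => s2 (h12 h)
  match p, q with
  | 0, 0 => exact iff_of_true bot_le (by decide)
  | 0, 1 => exact iff_of_true bot_le (by decide)
  | 0, 2 => exact iff_of_true bot_le (by decide)
  | 0, 3 => exact iff_of_true bot_le (by decide)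
  | 0, 4 => exact iff_of_true bot_le (by decide)
  | 0, 5 => exact iff_of_true bot_le (by decide)
  | 0, 6 => exact iff_of_true bot_le (by decide)
  | 1, 0 => exact iff_of_false (fun h => n0 (h k1)) (by decide)
  | 1, 1 => exact iff_of_true le_rfl (by decide)
  | 1, 2 => exact iff_of_true h12 (by decide)
  | 1, 3 => exact iff_of_true (h12.trans h23) (by decide)
  | 1, 4 => exact iff_of_true h14 (by decide)
  | 1, 5 => exact iff_of_false (fun h => nE (h k1)) (by decide)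
  | 1, 6 => exact iff_of_true le_top (by decide)
  | 2, 0 => exact iff_of_false (fun h => n0 (h k2)) (by decide)
  | 2, 1 => exact iff_of_false (fun h => a1 (h a2m)) (by decide)
  | 2, 2 => exact iff_of_true le_rfl (by decide)
  | 2, 3 => exact iff_of_true h23 (by decide)
  | 2, 4 => exact iff_of_false (fun h => a4 (h a2m)) (by decide)
  | 2, 5 => exact iff_of_false (fun h => nE (h k2)) (by decide)
  | 2, 6 => exact iff_of_true le_top (by decide)
  | 3, 0 => exact iff_of_false (fun h => n0 (h k3)) (by decide)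
  | 3, 1 => exact iff_of_false (fun h => a1 (h a3m)) (by decide)
  | 3, 2 => exact iff_of_false (fun h => b2 (h b3m)) (by decide)
  | 3, 3 => exact iff_of_true le_rfl (by decide)
  | 3, 4 => exact iff_of_false (fun h => a4 (h a3m)) (by decide)
  | 3, 5 => exact iff_of_false (fun h => nE (h k3)) (by decide)
  | 3, 6 => exact iff_of_true le_top (by decide)
  | 4, 0 => exact iff_of_false (fun h => n0 (h k4)) (by decide)
  | 4, 1 => exact iff_of_false (fun h => s1 (h s4m)) (by decide)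
  | 4, 2 => exact iff_of_false (fun h => s2 (h s4m)) (by decide)
  | 4, 3 => exact iff_of_false (fun h => s3 (h s4m)) (by decide)
  | 4, 4 => exact iff_of_true le_rfl (by decide)
  | 4, 5 => exact iff_of_false (fun h => nE (h k4)) (by decide)
  | 4, 6 => exact iff_of_true le_top (by decide)
  | 5, 0 => exact iff_of_false (fun h => e0 (h e5)) (by decide)
  | 5, 1 => exact iff_of_false (fun h => g1 (h e5)) (by decide)
  | 5, 2 => exact iff_of_false (fun h => g2 (h e5)) (by decide)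
  | 5, 3 => exact iff_of_false (fun h => g3 (h e5)) (by decide)
  | 5, 4 => exact iff_of_false (fun h => g4 (h e5)) (by decide)
  | 5, 5 => exact iff_of_true le_rfl (by decide)
  | 5, 6 => exact iff_of_true le_top (by decide)
  | 6, 0 => exact iff_of_false (fun h => n0 (h k6)) (by decide)
  | 6, 1 => exact iff_of_false (fun h => g1 (h e6)) (by decide)
  | 6, 2 => exact iff_of_false (fun h => g2 (h e6)) (by decide)
  | 6, 3 => exact iff_of_false (fun h => g3 (h e6)) (by decide)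
  | 6, 4 => exact iff_of_false (fun h => g4 (h e6)) (by decide)
  | 6, 5 => exact iff_of_false (fun h => nE (h k6)) (by decide)
  | 6, 6 => exact iff_of_true le_top (by decide)

section classify

variable {S : Subgroup Af} (hS : A1 ≤ S)

include hS

lemma split_v {g : Af} (hg : g ∈ S) : (⟨g.v, 1⟩ : Af) ∈ S := by
  have hn : (⟨0, ng⟩ : Af) ∈ S := hS ⟨rfl, Qk_ng⟩
  have h1 : g * ⟨0, ng⟩ * g⁻¹ * ⟨0, ng⟩ ∈ S :=
    S.mul_mem (S.mul_mem (S.mul_mem hg hn) (S.inv_mem hg)) hn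
  have h2 : g * ⟨0, ng⟩ * g⁻¹ * ⟨0, ng⟩ = ⟨g.v + g.v, 1⟩ := by
    apply Af.ext
    · show g.v + g.s 0 + g.s (ng (-(g.s⁻¹ g.v))) + (g.s * ng * g.s⁻¹) 0 = g.v + g.v
      have e1 : ng (-(g.s⁻¹ g.v)) = g.s⁻¹ g.v := neg_neg (g.s⁻¹ g.v)
      have e2 : g.s (g.s⁻¹ g.v) = g.v := g.s.apply_symm_apply g.v
      rw [e1, e2, map_zero, map_zero, add_zero, add_zero]
    · show g.s * ng * g.s⁻¹ * ng = 1
      apply LinearEquiv.ext
      intro v
      show g.s (-(g.s⁻¹ (-v))) = v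
      rw [map_neg, map_neg, map_neg, neg_neg]
      exact g.s.apply_symm_apply v
  rw [h2] at h1
  have h3 := S.mul_mem h1 h1
  have h4 : (⟨g.v + g.v, 1⟩ : Af) * ⟨g.v + g.v, 1⟩ = ⟨g.v, 1⟩ := by
    apply Af.ext
    · show g.v + g.v + (g.v + g.v) = g.v
      have : ∀ v : Pl, v + v + (v + v) = v := by decide
      exact this g.v
    · exact one_mul 1
  rwa [h4] at h3

lemma split_s {g : Af} (hg : g ∈ S) : (⟨0, g.s⟩ : Af) ∈ S := by
  have h1 := S.mul_mem (S.inv_mem (split_v hS hg)) hg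
  have h2 : (⟨g.v, 1⟩ : Af)⁻¹ * g = ⟨0, g.s⟩ := by
    apply Af.ext
    · show -((1 : Ln)⁻¹ g.v) + (1 : Ln)⁻¹ g.v = 0
      exact neg_add_cancel _
    · show (1 : Ln)⁻¹ * g.s = g.s
      rw [inv_one, one_mul]
  rwa [h2] at h1

lemma mem_iff (g : Af) : g ∈ S ↔ (⟨g.v, 1⟩ : Af) ∈ S ∧ (⟨0, g.s⟩ : Af) ∈ S := by
  refine ⟨fun h => ⟨split_v hS h, split_s hS h⟩, fun h => ?_⟩
  have h1 := S.mul_mem h.1 h.2
  have h2 : (⟨g.v, 1⟩ : Af) * ⟨0, g.s⟩ = g := by
    apply Af.ext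
    · show g.v + (1 : Ln) 0 = g.v
      rw [map_zero, add_zero]
    · exact one_mul g.s
  rwa [h2] at h1

lemma tr_add {v w : Pl} (hv : (⟨v, 1⟩ : Af) ∈ S) (hw : (⟨w, 1⟩ : Af) ∈ S) :
    (⟨v + w, 1⟩ : Af) ∈ S := by
  have h1 := S.mul_mem hv hw
  have h2 : (⟨v, 1⟩ : Af) * ⟨w, 1⟩ = ⟨v + w, 1⟩ := Af.ext rfl (one_mul 1)
  rwa [h2] at h1

lemma tr_neg {v : Pl} (hv : (⟨v, 1⟩ : Af) ∈ S) : (⟨-v, 1⟩ : Af) ∈ S := by
  have h1 := S.inv_mem hv
  have h2 : (⟨v, 1⟩ : Af)⁻¹ = ⟨-v, 1⟩ := Af.ext rfl inv_one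
  rwa [h2] at h1

lemma tr_conj {v : Pl} (hv : (⟨v, 1⟩ : Af) ∈ S) {s : Ln} (hs : (⟨0, s⟩ : Af) ∈ S) :
    (⟨s v, 1⟩ : Af) ∈ S := by
  have h1 := split_v hS (S.mul_mem hs hv)
  have h2 : ((⟨0, s⟩ : Af) * ⟨v, 1⟩).v = s v := zero_add _
  rwa [h2] at h1

lemma tr_all {v : Pl} (hv : (⟨v, 1⟩ : Af) ∈ S) (hv2 : v.2 ≠ 0) (w : Pl) :
    (⟨w, 1⟩ : Af) ∈ S := by
  have h11 : (1 : ZMod 3) ≠ 0 := by decide
  have h1 : (⟨shr 1 1 h11 v, 1⟩ : Af) ∈ S :=
    tr_conj hS hv (hS ⟨rfl, Qk_shr 1 1 h11⟩)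
  have h2 := tr_add hS h1 (tr_neg hS hv)
  have h3 : shr 1 1 h11 v + -v = (v.2, 0) := by
    apply Prod.ext
    · show v.1 + 1 * v.2 + -v.1 = v.2
      ring
    · show 1 * v.2 + -v.2 = 0
      ring
  rw [h3] at h2
  -- all combinations
  have h4 := tr_add hS h2 h2
  have h5 := tr_add hS hv hv
  have h0 : (⟨0, 1⟩ : Af) ∈ S := S.one_mem
  have key : ∀ (v w : Pl), v.2 ≠ 0 → ∃ i j : Fin 3,
      w = (![(0 : Pl), (v.2, 0), (v.2, 0) + (v.2, 0)] i) + ![(0 : Pl), v, v + v] j := by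
    decide
  obtain ⟨i, j, hw⟩ := key v w hv2
  rw [hw]
  apply tr_add hS
  · match i with
    | 0 => exact h0
    | 1 => exact h2
    | 2 => exact h4
  · match j with
    | 0 => exact h0
    | 1 => exact hv
    | 2 => exact h5

lemma lin_all {s : Ln} (hs : (⟨0, s⟩ : Af) ∈ S) (hq : ¬ Qk s) (c : Ln) :
    (⟨0, c⟩ : Af) ∈ S := by
  have mulm : ∀ {a b : Ln}, (⟨0, a⟩ : Af) ∈ S → (⟨0, b⟩ : Af) ∈ S →
      (⟨0, a * b⟩ : Af) ∈ S := by
    intro a b ha hb
    have h1 := S.mul_mem ha hb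
    have h2 : (⟨0, a⟩ : Af) * ⟨0, b⟩ = ⟨0, a * b⟩ := by
      apply Af.ext
      · show (0 : Pl) + a 0 = 0
        rw [map_zero, add_zero]
      · rfl
    rwa [h2] at h1
  by_cases hc : Qk c
  · exact hS ⟨rfl, hc⟩
  rw [Qk_iff] at hq hc
  set b := (s (1, 0)).2 with hb
  set b' := (c (1, 0)).2 with hb'
  have hl : b' * b ≠ 0 := mul_ne_zero hc hq
  let k := shr (((c (1, 0)).1 - (s (1, 0)).1) * b) (b' * b) hl
  have hk : (⟨0, k⟩ : Af) ∈ S := hS ⟨rfl, Qk_shr _ _ hl⟩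
  have hks : (⟨0, k * s⟩ : Af) ∈ S := mulm hk hs
  have hbb := sq3 b hq
  have e1 : (k * s) (1, 0) = c (1, 0) := by
    apply Prod.ext
    · show (s (1, 0)).1 + ((c (1, 0)).1 - (s (1, 0)).1) * b * (s (1, 0)).2 = (c (1, 0)).1
      rw [← hb]
      linear_combination ((c (1, 0)).1 - (s (1, 0)).1) * hbb
    · show b' * b * (s (1, 0)).2 = (c (1, 0)).2
      rw [← hb, ← hb']
      linear_combination b' * hbb
  have hq2 : Qk ((k * s)⁻¹ * c) := by
    rw [Qk_iff]
    have e2 : ((k * s)⁻¹ * c) (1, 0) = (1, 0) := by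
      show (k * s)⁻¹ (c (1, 0)) = (1, 0)
      rw [← e1]
      exact (k * s).symm_apply_apply (1, 0)
    rw [e2]
  have h6 := mulm hks (hS (show (⟨0, (k * s)⁻¹ * c⟩ : Af) ∈ A1 from ⟨rfl, hq2⟩))
  rwa [mul_inv_cancel_left] at h6

theorem above_A1 : S = A1 ∨ S = A2 ∨ S = A3 ∨ S = A4 ∨ S = ⊤ := by
  by_cases hlin : ∃ s, (⟨0, s⟩ : Af) ∈ S ∧ ¬ Qk s
  · obtain ⟨s, hs, hq⟩ := hlin
    have hall := lin_all hS hs hq
    by_cases hv : ∃ v : Pl, v ≠ 0 ∧ (⟨v, 1⟩ : Af) ∈ S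
    · right; right; right; right
      obtain ⟨v, hv0, hv⟩ := hv
      have : ∃ w : Pl, w.2 ≠ 0 ∧ (⟨w, 1⟩ : Af) ∈ S := by
        by_cases h2 : v.2 = 0
        · refine ⟨sw v, ?_, tr_conj hS hv (hall sw)⟩
          intro h1
          exact hv0 (Prod.ext h1 h2)
        · exact ⟨v, h2, hv⟩
      obtain ⟨w, hw2, hw⟩ := this
      rw [eq_top_iff]
      intro g _
      rw [mem_iff hS]
      exact ⟨tr_all hS hw hw2 _, hall _⟩
    · right; right; right; left
      ext g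
      constructor
      · intro hg
        by_contra hne
        exact hv ⟨g.v, hne, split_v hS hg⟩
      · intro hg
        have hg' : g.v = 0 := hg
        rw [mem_iff hS, hg']
        exact ⟨S.one_mem, hall _⟩
  · have hlin' : ∀ s, (⟨0, s⟩ : Af) ∈ S → Qk s := by
      intro s hs
      by_contra hq
      exact hlin ⟨s, hs, hq⟩
    by_cases hv2 : ∃ v : Pl, v.2 ≠ 0 ∧ (⟨v, 1⟩ : Af) ∈ S
    · right; right; left
      obtain ⟨v, hv2, hv⟩ := hv2
      ext g
      constructor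
      · intro hg
        exact hlin' _ (split_s hS hg)
      · intro hg
        rw [mem_iff hS]
        exact ⟨tr_all hS hv hv2 _, hS ⟨rfl, hg⟩⟩
    · by_cases hv1 : ∃ v : Pl, v ≠ 0 ∧ (⟨v, 1⟩ : Af) ∈ S
      · right; left
        obtain ⟨v, hv0, hv⟩ := hv1
        have h2 : ∀ w : Pl, (⟨w, 1⟩ : Af) ∈ S → w.2 = 0 := by
          intro w hw
          by_contra h
          exact hv2 ⟨w, h, hw⟩
        have hvv := h2 v hv
        ext g
        constructor
        · intro hg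
          exact ⟨h2 _ (split_v hS hg), hlin' _ (split_s hS hg)⟩
        · rintro ⟨h3, h4⟩
          rw [mem_iff hS]
          refine ⟨?_, hS ⟨rfl, h4⟩⟩
          have key : ∀ v w : Pl, v.1 ≠ 0 → v.2 = 0 → w.2 = 0 →
              ∃ i : Fin 3, w = ![(0 : Pl), v, v + v] i := by
            decide
          have hv1' : v.1 ≠ 0 := fun h1 => hv0 (Prod.ext h1 hvv)
          obtain ⟨i, hi⟩ := key v g.v hv1' hvv h3
          rw [hi]
          match i with
          | 0 => exact S.one_mem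
          | 1 => exact hv
          | 2 => exact tr_add hS hv hv
      · left
        ext g
        constructor
        · intro hg
          refine ⟨?_, hlin' _ (split_s hS hg)⟩
          by_contra h
          exact hv1 ⟨g.v, h, split_v hS hg⟩
        · exact fun hg => hS hg

end classify

theorem c9_surj (Y : Subgroup Af) :
    (⊥ ≤ Y ∧ (∀ _ : Empty, ∀ g ∈ Y, (MonoidHom.id Af) g ∈ Y) ∧
      (A1 ≤ Y ∨ Y ≤ Subgroup.zpowers g0)) ↔ ∃ p, c9 p = Y := by
  constructor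
  · rintro ⟨_, _, h | h⟩
    · rcases above_A1 h with h | h | h | h | h
      · exact ⟨1, h.symm⟩
      · exact ⟨2, h.symm⟩
      · exact ⟨3, h.symm⟩
      · exact ⟨4, h.symm⟩
      · exact ⟨6, h.symm⟩
    · rcases le_zpowers_prime Nat.prime_two g0_order h with h | h
      · exact ⟨0, h.symm⟩
      · exact ⟨5, h.symm⟩
  · rintro ⟨p, rfl⟩
    refine ⟨bot_le, fun _ g hg => hg, ?_⟩
    have h1 : ∀ q : Fin 7, leOf 7 [(1, 2), (1, 3), (1, 4), (2, 3)] 1 q → A1 ≤ c9 q :=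
      fun q hq => (c9_le 1 q).mpr hq
    match p with
    | 0 => exact Or.inr bot_le
    | 1 => exact Or.inl (h1 1 (by decide))
    | 2 => exact Or.inl (h1 2 (by decide))
    | 3 => exact Or.inl (h1 3 (by decide))
    | 4 => exact Or.inl (h1 4 (by decide))
    | 5 => exact Or.inr le_rfl
    | 6 => exact Or.inl (h1 6 (by decide))

end Af

open Af in
theorem ear9 : RepCode 7 [(1, 2), (1, 3), (1, 4), (2, 3)] :=
  URep.intervalSnow (G := Af) (J := Empty) ⊥ (fun _ => MonoidHom.id Af)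
    (fun _ _ hg => hg) A1 (Subgroup.zpowers g0) bot_le bot_le (fun _ _ hg => hg)
    (fun _ _ hg => hg) c9 c9_surj c9_le

end P183
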