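import Mathlib

/-!
# P183: subgroups of `(Sym ι)^ι` containing the constants and invariant under reindexing
-/

namespace Vale.Agent.P183

open Equiv Equiv.Perm Finset

variable {ι : Type} [Fintype ι] [DecidableEq ι]

/-- The hypotheses on the base part. -/
structure Good (R : Subgroup (ι → Perm ι)) : Prop where
  const : ∀ σ : Perm ι, (fun _ => σ) ∈ R
  reidx : ∀ π : Perm ι, ∀ τ ∈ R, (fun i => τ (π i)) ∈ R

lemma comm_exists (hc : 5 ≤ Fintype.card ι) (g : Perm ι) (hg : g ≠ 1) :
    ∃ h : Perm ι, g * (h * g * h⁻¹) ≠ (h * g * h⁻¹) * g := by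
  by_contra hcon
  push Not at hcon
  set N := Subgroup.normalClosure ({g} : Set (Perm ι)) with hN
  have hgN : g ∈ N := Subgroup.subset_normalClosure rfl
  haveI : Nontrivial N := by
    refine ⟨⟨⟨g, hgN⟩, 1, ?_⟩⟩
    intro h
    exact hg (congrArg Subtype.val h)
  have hA := Perm.alternatingGroup_le_of_normal (α := ι) (by simpa using hc) (N := N) inferInstance
  have hconj : ∀ a b : Perm ι, (a * g * a⁻¹) * (b * g * b⁻¹) = (b * g * b⁻¹) * (a * g * a⁻¹) := by
    intro a b
    have := hcon (a⁻¹ * b)
    have h2 := congrArg (fun t => a * t * a⁻¹) this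
    simp only [mul_inv_rev, inv_inv] at h2
    calc (a * g * a⁻¹) * (b * g * b⁻¹)
        = a * (g * (a⁻¹ * b * g * (b⁻¹ * a))) * a⁻¹ := by group
      _ = a * (a⁻¹ * b * g * (b⁻¹ * a) * g) * a⁻¹ := h2
      _ = (b * g * b⁻¹) * (a * g * a⁻¹) := by group
  have hle : N ≤ Subgroup.centralizer (Group.conjugatesOfSet ({g} : Set (Perm ι))) := by
    rw [hN, Subgroup.normalClosure, Subgroup.closure_le]
    intro x hx
    rw [SetLike.mem_coe, Subgroup.mem_centralizer_iff]
    intro y hy
    rw [Group.mem_conjugatesOfSet_iff] at hx hy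
    obtain ⟨g1, hg1, h1⟩ := hx
    obtain ⟨g2, hg2, h2⟩ := hy
    rw [Set.mem_singleton_iff] at hg1 hg2
    subst hg1
    rw [isConj_iff] at h1 h2
    obtain ⟨c1, rfl⟩ := h1
    obtain ⟨c2, rfl⟩ := h2
    rw [hg2]
    exact hconj c2 c1
  have hle2 : N ≤ Subgroup.centralizer (N : Set (Perm ι)) := by
    conv_lhs => rw [hN, Subgroup.normalClosure]
    rw [Subgroup.closure_le]
    intro x hx
    rw [SetLike.mem_coe, Subgroup.mem_centralizer_iff]
    intro y hy
    have := Subgroup.mem_centralizer_iff.mp (hle hy) x hx
    exact this.symm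
  -- four distinct points
  obtain ⟨s, -, hs2⟩ : ∃ s : Finset ι, s ⊆ univ ∧ s.card = 4 :=
    Finset.exists_subset_card_eq (by simpa using (by omega : 4 ≤ Fintype.card ι))
  obtain ⟨a, t, hat, -, ht⟩ := Finset.card_eq_succ.mp hs2
  obtain ⟨b, c, d, hbc, hbd, hcd, rfl⟩ := Finset.card_eq_three.mp ht
  simp only [Finset.mem_insert, Finset.mem_singleton, not_or] at hat
  obtain ⟨hab, hac, had⟩ := hat
  have m1 : swap a b * swap b c ∈ N := hA (by
    rw [mem_alternatingGroup, Perm.sign_mul, Perm.sign_swap hab, Perm.sign_swap hbc]; rfl)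
  have m2 : swap b c * swap c d ∈ N := hA (by
    rw [mem_alternatingGroup, Perm.sign_mul, Perm.sign_swap hbc, Perm.sign_swap hcd]; rfl)
  have h3 := Subgroup.mem_centralizer_iff.mp (hle2 m1) _ m2
  have h4 := congrArg (fun t : Perm ι => t a) h3
  simp only [Perm.coe_mul, Function.comp_apply] at h4
  rw [swap_apply_of_ne_of_ne hab hac, swap_apply_left, swap_apply_of_ne_of_ne hbc hbd,
    swap_apply_left, swap_apply_of_ne_of_ne hac had, swap_apply_of_ne_of_ne hab hac,
    swap_apply_of_ne_of_ne hab hac, swap_apply_left] at h4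
  exact hbc h4.symm

variable {R : Subgroup (ι → Perm ι)}

lemma pair_mem (hR : Good R) {τ : ι → Perm ι} (hτ : τ ∈ R) {i j : ι} (hij : i ≠ j) :
    (fun k => if k = i then τ i * (τ j)⁻¹ else if k = j then τ j * (τ i)⁻¹ else 1) ∈ R := by
  have h1 := R.mul_mem hτ (R.inv_mem (hR.reidx (swap i j) τ hτ))
  convert h1 using 1
  funext k
  by_cases hki : k = i
  · subst hki
    simp
  · by_cases hkj : k = j
    · subst hkj
      simp [hki]
    · simp [hki, hkj, swap_apply_of_ne_of_ne hki hkj]

lemma even_mem (hR : Good R) (hc : 5 ≤ Fintype.card ι) {τ : ι → Perm ι} (hτ : τ ∈ R) {i j : ι}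
    (hij : τ i ≠ τ j) {x : ι → Perm ι} (hx : ∀ k, sign (x k) = 1) : x ∈ R := by
  have hne : i ≠ j := fun h => hij (by rw [h])
  set g := τ i * (τ j)⁻¹ with hg
  have hg1 : g ≠ 1 := by
    intro h
    apply hij
    rw [hg, mul_inv_eq_one] at h
    exact h
  have hρ := pair_mem hR hτ hne
  obtain ⟨k, hki, hkj⟩ : ∃ k, k ≠ i ∧ k ≠ j := by
    have : ({i, j} : Finset ι).card < Fintype.card ι := by
      have := Finset.card_le_two (a := i) (b := j)
      omega
    obtain ⟨k, hk⟩ := Finset.exists_mem_notMem_of_card_lt_card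
      (s := ({i, j} : Finset ι)) (t := univ) (by simpa using this)
    simp at hk
    exact ⟨k, hk.1, hk.2⟩
  obtain ⟨h, hh⟩ := comm_exists hc g hg1
  set ρ : ι → Perm ι :=
    fun k => if k = i then τ i * (τ j)⁻¹ else if k = j then τ j * (τ i)⁻¹ else 1 with hρd
  have hρ' := hR.reidx (swap j k) ρ hρ
  have hρ'' := R.mul_mem (R.mul_mem (hR.const h) hρ') (R.inv_mem (hR.const h))
  have hcomm := R.mul_mem (R.mul_mem (R.mul_mem hρ hρ'') (R.inv_mem hρ)) (R.inv_mem hρ'')
  set u := g * (h * g * h⁻¹) * g⁻¹ * (h * g * h⁻¹)⁻¹ with hu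
  have hu1 : u ≠ 1 := by
    intro hcon
    apply hh
    have := congrArg (fun t => t * (h * g * h⁻¹) * g) hcon
    simpa [hu, mul_assoc] using this
  have hsingle : Pi.mulSingle i u ∈ R := by
    have hρi : ρ i = g := by simp [hρd, hg]
    have hρo : ∀ l, l ≠ i → l ≠ j → ρ l = 1 := by
      intro l h1 h2
      simp [hρd, h1, h2]
    convert hcomm using 1
    funext l
    by_cases hli : l = i
    · subst hli
      have e1 : swap j k l = l := swap_apply_of_ne_of_ne hne hki.symm
      simp only [Pi.mulSingle_eq_same, Pi.mul_apply, Pi.inv_apply, e1, hρi, hu]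
    · rw [Pi.mulSingle_eq_of_ne hli]
      by_cases hlj : l = j
      · subst hlj
        have e : ρ (swap l k l) = 1 := by rw [swap_apply_left]; exact hρo k hki hkj
        simp only [Pi.mul_apply, Pi.inv_apply, e]
        group
      · have e : ρ l = 1 := hρo l hli hlj
        simp only [Pi.mul_apply, Pi.inv_apply, e]
        group
  -- the i-th fibre
  let N : Subgroup (Perm ι) := R.comap (MonoidHom.mulSingle (fun _ : ι => Perm ι) i)
  have hNn : N.Normal := by
    constructor
    intro n hn y
    have hn' : Pi.mulSingle i n ∈ R := hn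
    have := R.mul_mem (R.mul_mem (hR.const y) hn') (R.inv_mem (hR.const y))
    have h2 : Pi.mulSingle i (y * n * y⁻¹) ∈ R := by
      convert this using 1
      funext l
      by_cases hli : l = i
      · subst hli; simp
      · simp [Pi.mulSingle_eq_of_ne hli]
    exact h2
  have huN : u ∈ N := hsingle
  haveI : Nontrivial N := ⟨⟨⟨u, huN⟩, 1, fun h => hu1 (congrArg Subtype.val h)⟩⟩
  have hA := Perm.alternatingGroup_le_of_normal (α := ι) (by simpa using hc) (N := N) inferInstance
  apply Subgroup.pi_mem_of_mulSingle_mem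
  intro l
  have h1 : Pi.mulSingle i (x l) ∈ R := hA (by rw [mem_alternatingGroup]; exact hx l)
  have h2 := hR.reidx (swap i l) _ h1
  convert h2 using 1
  funext m
  by_cases hml : m = l
  · subst hml
    simp
  · rw [Pi.mulSingle_eq_of_ne hml]
    have : swap i l m ≠ i := by
      intro h
      apply hml
      have := congrArg (swap i l) h
      simpa using this
    rw [Pi.mulSingle_eq_of_ne this]

lemma top_of_sign (hR : Good R) (hc : 5 ≤ Fintype.card ι) (hodd : Odd (Fintype.card ι))
    {τ : ι → Perm ι} (hτ : τ ∈ R) {i j : ι} (hij : sign (τ i) ≠ sign (τ j)) : R = ⊤ := by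
  have hτne : τ i ≠ τ j := fun h => hij (by rw [h])
  have hne : i ≠ j := fun h => hij (by rw [h])
  have heven : ∀ x : ι → Perm ι, (∀ k, sign (x k) = 1) → x ∈ R :=
    fun x hx => even_mem hR hc hτ hτne hx
  set t : Perm ι := swap i j with ht
  have htt : t * t = 1 := swap_mul_self i j
  have hsign_t : sign t = -1 := Perm.sign_swap hne
  -- pairs
  have hpair0 : (fun k => if k = i then t else if k = j then t else 1) ∈ R := by
    have hρ := pair_mem hR hτ hne
    set ρ : ι → Perm ι :=
      fun k => if k = i then τ i * (τ j)⁻¹ else if k = j then τ j * (τ i)⁻¹ else 1 with hρd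
    set y : ι → Perm ι := fun k => if k = i then t else if k = j then t else 1 with hyd
    have hyρ : y * ρ⁻¹ ∈ R := by
      apply heven
      intro k
      have hs : sign (τ i) * sign (τ j) = -1 := by
        rcases Int.units_eq_one_or (sign (τ i)) with h1 | h1 <;>
          rcases Int.units_eq_one_or (sign (τ j)) with h2 | h2
        · exact absurd (h1.trans h2.symm) hij
        · rw [h1, h2]; rfl
        · rw [h1, h2]; rfl
        · exact absurd (h1.trans h2.symm) hij
      by_cases hki : k = i
      · subst hki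
        simp only [hyd, hρd, Pi.mul_apply, Pi.inv_apply, if_true, Perm.sign_mul, Perm.sign_inv, hsign_t,
          hs]
        rfl
      · by_cases hkj : k = j
        · subst hkj
          simp only [hyd, hρd, Pi.mul_apply, Pi.inv_apply, if_true, Perm.sign_mul, Perm.sign_inv, hsign_t,
            hki, if_false]
          rw [mul_comm (sign (τ k)), hs]
          rfl
        · simp [hyd, hρd, hki, hkj]
    have := R.mul_mem hyρ hρ
    simpa using this
  have hpair : ∀ a b : ι, a ≠ b → (fun k => if k = a then t else if k = b then t else 1) ∈ R := by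
    intro a b hab
    -- permutation sending a ↦ i, b ↦ j
    let π : Perm ι := swap (swap a i b) j * swap a i
    have hπa : π a = i := by
      have h1 : swap a i b ≠ i := by
        intro h
        have := congrArg (swap a i) h
        simp at this
        exact hab this.symm
      simp only [π, Perm.coe_mul, Function.comp_apply, swap_apply_left]
      exact swap_apply_of_ne_of_ne h1.symm hne
    have hπb : π b = j := by
      simp [π]
    have := hR.reidx π _ hpair0
    convert this using 1
    funext k
    have e1 : (π k = i) ↔ (k = a) := by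
      rw [← hπa]; exact π.injective.eq_iff
    have e2 : (π k = j) ↔ (k = b) := by
      rw [← hπb]; exact π.injective.eq_iff
    simp only [e1, e2]
  -- induction
  have hind : ∀ k : ι, ∀ T : Finset ι, k ∉ T →
      (fun l => if l ∈ T then t else if l = k then t ^ T.card else 1) ∈ R := by
    intro k T
    induction T using Finset.induction_on with
    | empty =>
      intro _
      convert R.one_mem using 1
      funext l
      by_cases hl : l = k <;> simp [hl]
    | insert a T ha ih =>
      intro hk
      simp only [Finset.mem_insert, not_or] at hk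
      have h1 := ih hk.2
      have h2 := hpair a k (Ne.symm hk.1)
      have h3 := R.mul_mem h1 h2
      convert h3 using 1
      funext l
      simp only [Finset.mem_insert, Pi.mul_apply]
      by_cases hla : l = a
      · subst hla
        simp [ha, hk.1, Ne.symm hk.1]
      · by_cases hlk : l = k
        · subst hlk
          simp [hla, hk.2, Finset.card_insert_of_notMem ha, pow_succ]
        · by_cases hlT : l ∈ T
          · simp [hla, hlk, hlT]
          · simp [hla, hlk, hlT]
  have hsingle : ∀ k : ι, Pi.mulSingle k t ∈ R := by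
    intro k
    have h1 := hind k (univ.erase k) (by simp)
    have hcard : t ^ (univ.erase k).card = 1 := by
      rw [Finset.card_erase_of_mem (Finset.mem_univ k), Finset.card_univ]
      obtain ⟨r, hr⟩ := hodd
      rw [hr]
      rw [show 2 * r + 1 - 1 = 2 * r by omega, pow_mul, pow_two, htt, one_pow]
    have h2 := R.mul_mem (R.inv_mem h1) (hR.const t)
    convert h2 using 1
    funext l
    by_cases hlk : l = k
    · subst hlk
      simp only [Pi.mulSingle_eq_same, Pi.mul_apply, Pi.inv_apply, Finset.mem_erase, ne_eq,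
        not_true_eq_false, false_and, if_false, if_true, hcard, inv_one, one_mul]
    · simp [Pi.mulSingle_eq_of_ne hlk, hlk]
  rw [eq_top_iff]
  intro x _
  apply Subgroup.pi_mem_of_mulSingle_mem
  intro k
  rcases Int.units_eq_one_or (sign (x k)) with h1 | h1
  · apply heven
    intro l
    by_cases hlk : l = k
    · subst hlk; simpa using h1
    · simp [Pi.mulSingle_eq_of_ne hlk]
  · have h2 : Pi.mulSingle k (x k * t⁻¹) ∈ R := by
      apply heven
      intro l
      by_cases hlk : l = k
      · subst hlk
        simp [Perm.sign_mul, h1, hsign_t]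
      · simp [Pi.mulSingle_eq_of_ne hlk]
    have h3 := R.mul_mem h2 (hsingle k)
    rw [← Pi.mulSingle_mul] at h3
    simpa using h3

/-- Classification of the base part. -/
theorem base_classification (hR : Good R) (hc : 5 ≤ Fintype.card ι)
    (hodd : Odd (Fintype.card ι)) :
    (∀ τ, τ ∈ R ↔ ∀ i j, τ i = τ j) ∨
    (∀ τ, τ ∈ R ↔ ∀ i j, sign (τ i) = sign (τ j)) ∨ R = ⊤ := by
  have : Nonempty ι := Fintype.card_pos_iff.mp (by omega)
  by_cases h1 : ∀ τ ∈ R, ∀ i j, τ i = τ j
  · left
    intro τ
    refine ⟨h1 τ, fun h => ?_⟩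
    have i0 : ι := Classical.arbitrary ι
    have : τ = fun _ => τ i0 := funext fun k => h k i0
    rw [this]
    exact hR.const _
  · right
    push Not at h1
    obtain ⟨τ, hτ, i, j, hij⟩ := h1
    by_cases h2 : ∀ τ ∈ R, ∀ i j, sign (τ i) = sign (τ j)
    · left
      intro x
      refine ⟨h2 x, fun h => ?_⟩
      have i0 : ι := Classical.arbitrary ι
      have h3 : (fun _ => x i0)⁻¹ * x ∈ R := by
        apply even_mem hR hc hτ hij
        intro k
        simp only [Pi.mul_apply, Pi.inv_apply, Perm.sign_mul, Perm.sign_inv]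
        rw [h i0 k]
        exact Int.units_mul_self _
      have h4 := R.mul_mem (hR.const (x i0)) h3
      simpa using h4
    · right
      push Not at h2
      obtain ⟨x, hx, k, l, hkl⟩ := h2
      exact top_of_sign hR hc hodd hx hkl

end Vale.Agent.P183
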