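import Vale.Agent.P183.TwoTrans
import Vale.Agent.P183.Wreath

/-!
# P183: the overgroups of `Sym ι × Sym ι` in `Sym (ι × ι)`, `|ι|` odd, `|ι| ≥ 17`
-/

namespace Vale.Agent.P183

open Equiv Equiv.Perm Finset

variable {ι : Type}

/-- permutations preserving the relation same row -/
def WR (ι : Type) : Subgroup (Perm (ι × ι)) where
  carrier := {g | ∀ p q, p.1 = q.1 ↔ (g p).1 = (g q).1}
  one_mem' := by intro p q; simp
  mul_mem' := by
    intro a b ha hb p q
    rw [hb p q, ha (b p) (b q)]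
    rfl
  inv_mem' := by
    intro a ha p q
    have := ha (a⁻¹ p) (a⁻¹ q)
    simpa using this.symm

/-- permutations preserving the relation same column -/
def WC (ι : Type) : Subgroup (Perm (ι × ι)) where
  carrier := {g | ∀ p q, p.2 = q.2 ↔ (g p).2 = (g q).2}
  one_mem' := by intro p q; simp
  mul_mem' := by
    intro a b ha hb p q
    rw [hb p q, ha (b p) (b q)]
    rfl
  inv_mem' := by
    intro a ha p q
    have := ha (a⁻¹ p) (a⁻¹ q)
    simpa using this.symm

/-- `Sym ι × Sym ι` acting on the grid -/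
def KK (ι : Type) : Subgroup (Perm (ι × ι)) := WR ι ⊓ WC ι

/-- adjacency or equality in the rook graph -/
def adj (p q : ι × ι) : Prop := p.1 = q.1 ∨ p.2 = q.2

/-- automorphisms of the rook graph -/
def PW (ι : Type) : Subgroup (Perm (ι × ι)) where
  carrier := {g | ∀ p q, adj p q ↔ adj (g p) (g q)}
  one_mem' := by intro p q; simp
  mul_mem' := by
    intro a b ha hb p q
    rw [hb p q, ha (b p) (b q)]
    rfl
  inv_mem' := by
    intro a ha p q
    have := ha (a⁻¹ p) (a⁻¹ q)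
    simpa using this.symm

/-- exchange of the coordinates -/
def sw (ι : Type) : Perm (ι × ι) := Equiv.prodComm ι ι

@[simp] lemma sw_apply (p : ι × ι) : sw ι p = (p.2, p.1) := rfl

@[simp] lemma sw_mul_sw : sw ι * sw ι = 1 := by
  ext p <;> simp

@[simp] lemma sw_inv : (sw ι)⁻¹ = sw ι := inv_eq_of_mul_eq_one_right sw_mul_sw

/-- the permutation `(x, y) ↦ (σ x, τ_x y)` -/
def sh (σ : Perm ι) (τ : ι → Perm ι) : Perm (ι × ι) := Equiv.prodShear σ τ

@[simp] lemma sh_apply (σ : Perm ι) (τ : ι → Perm ι) (p : ι × ι) :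
    sh σ τ p = (σ p.1, τ p.1 p.2) := rfl

lemma sh_mul (σ σ' : Perm ι) (τ τ' : ι → Perm ι) :
    sh σ τ * sh σ' τ' = sh (σ * σ') (fun i => τ (σ' i) * τ' i) := by
  ext p <;> simp

lemma sh_one : sh (1 : Perm ι) (fun _ => 1) = 1 := by
  ext p <;> simp

lemma sh_inj {σ σ' : Perm ι} {τ τ' : ι → Perm ι} [Nonempty ι] (h : sh σ τ = sh σ' τ') :
    σ = σ' ∧ τ = τ' := by
  constructor
  · ext i
    have := congrArg (fun t : Perm (ι × ι) => (t (i, i)).1) h
    simpa using this
  · funext i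
    ext j
    have := congrArg (fun t : Perm (ι × ι) => (t (i, j)).2) h
    simpa using this

lemma sh_mem_WR (σ : Perm ι) (τ : ι → Perm ι) : sh σ τ ∈ WR ι := by
  intro p q
  simp

lemma mem_WR_iff [Finite ι] [Nonempty ι] {g : Perm (ι × ι)} :
    g ∈ WR ι ↔ ∃ σ τ, g = sh σ τ := by
  constructor
  · intro hg
    let i0 : ι := Classical.arbitrary ι
    have hσinj : Function.Injective (fun i : ι => (g (i, i0)).1) := by
      intro i j h
      exact (hg (i, i0) (j, i0)).mpr h
    let σ : Perm ι := Equiv.ofBijective _ (Finite.injective_iff_bijective.mp hσinj)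
    have hτinj : ∀ i, Function.Injective (fun j : ι => (g (i, j)).2) := by
      intro i j k h
      have h1 : (g (i, j)).1 = (g (i, k)).1 := (hg (i, j) (i, k)).mp rfl
      have : g (i, j) = g (i, k) := Prod.ext h1 h
      have := g.injective this
      exact (Prod.mk.injEq _ _ _ _ ▸ this).2
    let τ : ι → Perm ι := fun i => Equiv.ofBijective _ (Finite.injective_iff_bijective.mp (hτinj i))
    refine ⟨σ, τ, ?_⟩
    apply Equiv.ext
    rintro ⟨i, j⟩
    apply Prod.ext
    · show (g (i, j)).1 = (g (i, i0)).1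
      exact (hg (i, j) (i, i0)).mp rfl
    · rfl
  · rintro ⟨σ, τ, rfl⟩
    exact sh_mem_WR σ τ

lemma sh_const_mem_KK (σ ρ : Perm ι) : sh σ (fun _ => ρ) ∈ KK ι := by
  refine ⟨sh_mem_WR σ _, ?_⟩
  intro p q
  simp

lemma mem_KK_iff [Finite ι] [Nonempty ι] {g : Perm (ι × ι)} :
    g ∈ KK ι ↔ ∃ σ ρ, g = sh σ (fun _ => ρ) := by
  constructor
  · rintro ⟨h1, h2⟩
    obtain ⟨σ, τ, rfl⟩ := mem_WR_iff.mp h1
    let i0 : ι := Classical.arbitrary ι
    refine ⟨σ, τ i0, ?_⟩
    congr 1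
    funext i
    ext j
    exact (h2 (i, j) (i0, j)).mp rfl
  · rintro ⟨σ, ρ, rfl⟩
    exact sh_const_mem_KK σ ρ

variable [Fintype ι] [DecidableEq ι]

/-- the row-type subgroup with all signs equal -/
def XR (ι : Type) [Fintype ι] [DecidableEq ι] : Subgroup (Perm (ι × ι)) where
  carrier := {g | ∃ σ τ, (∀ i j, Perm.sign (τ i) = Perm.sign (τ j)) ∧ g = sh σ τ}
  one_mem' := ⟨1, fun _ => 1, fun _ _ => rfl, sh_one.symm⟩
  mul_mem' := by
    rintro a b ⟨σ, τ, h, rfl⟩ ⟨σ', τ', h', rfl⟩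
    refine ⟨_, _, ?_, sh_mul _ _ _ _⟩
    intro i j
    simp only [Perm.sign_mul]
    rw [h (σ' i) (σ' j), h' i j]
  inv_mem' := by
    rintro a ⟨σ, τ, h, rfl⟩
    refine ⟨σ⁻¹, fun i => (τ (σ⁻¹ i))⁻¹, ?_, ?_⟩
    · intro i j
      simp only [Perm.sign_inv]
      exact h _ _
    · symm
      rw [eq_inv_iff_mul_eq_one, sh_mul]
      simp [sh_one]

/-- the base part of a subgroup -/
def basePart (M : Subgroup (Perm (ι × ι))) : Subgroup (ι → Perm ι) where
  carrier := {τ | sh 1 τ ∈ M}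
  one_mem' := by
    show sh 1 (fun _ => 1) ∈ M
    rw [sh_one]; exact M.one_mem
  mul_mem' := by
    intro a b ha hb
    have := M.mul_mem ha hb
    rw [sh_mul] at this
    show sh 1 (fun i => a i * b i) ∈ M
    simpa using this
  inv_mem' := by
    intro a ha
    have := M.inv_mem ha
    have h2 : (sh 1 a)⁻¹ = sh 1 a⁻¹ := by
      rw [inv_eq_iff_mul_eq_one, sh_mul]
      have : (fun i => a ((1 : Perm ι) i) * a⁻¹ i) = fun _ => 1 := by
        funext i; simp
      rw [this]
      simp [sh_one]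
    show sh 1 a⁻¹ ∈ M
    rw [← h2]; exact this

lemma mem_basePart {M : Subgroup (Perm (ι × ι))} {τ : ι → Perm ι} :
    τ ∈ basePart M ↔ sh 1 τ ∈ M := Iff.rfl

lemma good_basePart {M : Subgroup (Perm (ι × ι))} (hK : KK ι ≤ M) : Good (basePart M) where
  const σ := hK (sh_const_mem_KK 1 σ)
  reidx π τ hτ := by
    have h1 : sh π (fun _ => 1) ∈ M := hK (sh_const_mem_KK π 1)
    have h2 := M.mul_mem (M.mul_mem (M.inv_mem h1) hτ) h1
    have h3 : (sh π (fun _ => 1))⁻¹ * sh 1 τ * sh π (fun _ => 1) = sh 1 (fun i => τ (π i)) := by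
      rw [mul_assoc, inv_mul_eq_iff_eq_mul, sh_mul, sh_mul]
      simp
    rw [h3] at h2
    exact h2

lemma sh_mem_iff {M : Subgroup (Perm (ι × ι))} (hK : KK ι ≤ M) (σ : Perm ι) (τ : ι → Perm ι) :
    sh σ τ ∈ M ↔ τ ∈ basePart M := by
  have h1 : sh σ (fun _ => 1) ∈ M := hK (sh_const_mem_KK σ 1)
  have h2 : sh σ τ = sh σ (fun _ => 1) * sh 1 τ := by
    rw [sh_mul]; simp
  rw [h2, Subgroup.mul_mem_cancel_left _ h1]
  rfl

/-- Subgroups between `K` and the row stabiliser. -/
theorem row_classification (hc : 5 ≤ Fintype.card ι) (hodd : Odd (Fintype.card ι))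
    {M : Subgroup (Perm (ι × ι))} (hK : KK ι ≤ M) (hM : M ≤ WR ι) :
    M = KK ι ∨ M = XR ι ∨ M = WR ι := by
  have : Nonempty ι := Fintype.card_pos_iff.mp (by omega)
  rcases base_classification (good_basePart hK) hc hodd with h | h | h
  · left
    ext g
    constructor
    · intro hg
      obtain ⟨σ, τ, rfl⟩ := mem_WR_iff.mp (hM hg)
      rw [sh_mem_iff hK, h] at hg
      let i0 : ι := Classical.arbitrary ι
      have : τ = fun _ => τ i0 := funext fun k => hg k i0
      rw [this]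
      exact sh_const_mem_KK _ _
    · exact fun hg => hK hg
  · right; left
    ext g
    constructor
    · intro hg
      obtain ⟨σ, τ, rfl⟩ := mem_WR_iff.mp (hM hg)
      rw [sh_mem_iff hK, h] at hg
      exact ⟨σ, τ, hg, rfl⟩
    · rintro ⟨σ, τ, hτ, rfl⟩
      rw [sh_mem_iff hK, h]
      exact hτ
  · right; right
    ext g
    constructor
    · exact fun hg => hM hg
    · intro hg
      obtain ⟨σ, τ, rfl⟩ := mem_WR_iff.mp hg
      rw [sh_mem_iff hK, h]
      trivial

end Vale.Agent.P183
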