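import Vale.Agent.P183.Grid

/-!
# P183: the overgroups of `Sym ι × Sym ι` in `Sym (ι × ι)`, part 2
-/

namespace Vale.Agent.P183

open Equiv Equiv.Perm Finset

variable {ι : Type}

/-! ### conjugation by the exchange of coordinates -/

/-- conjugate by `sw` -/
def cj (M : Subgroup (Perm (ι × ι))) : Subgroup (Perm (ι × ι)) :=
  M.comap (MulAut.conj (sw ι)).toMonoidHom

lemma mem_cj {M : Subgroup (Perm (ι × ι))} {g : Perm (ι × ι)} :
    g ∈ cj M ↔ sw ι * g * sw ι ∈ M := by
  simp [cj, Subgroup.mem_comap]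

lemma cj_cj (M : Subgroup (Perm (ι × ι))) : cj (cj M) = M := by
  ext g
  rw [mem_cj, mem_cj]
  have : sw ι * (sw ι * g * sw ι) * sw ι = g := by
    calc sw ι * (sw ι * g * sw ι) * sw ι = (sw ι * sw ι) * g * (sw ι * sw ι) := by
          simp only [mul_assoc]
      _ = g := by simp
  rw [this]

lemma cj_mono {M N : Subgroup (Perm (ι × ι))} (h : M ≤ N) : cj M ≤ cj N :=
  Subgroup.comap_mono h

lemma cj_le_iff {M N : Subgroup (Perm (ι × ι))} : cj M ≤ cj N ↔ M ≤ N :=
  ⟨fun h => by simpa [cj_cj] using cj_mono h, cj_mono⟩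

lemma cj_WR : cj (WR ι) = WC ι := by
  ext g
  rw [mem_cj]
  constructor
  · intro h p q
    have := h (p.2, p.1) (q.2, q.1)
    simpa using this
  · intro h p q
    have := h (p.2, p.1) (q.2, q.1)
    simpa using this

lemma cj_WC : cj (WC ι) = WR ι := by rw [← cj_WR, cj_cj]

lemma cj_KK : cj (KK ι) = KK ι := by
  have : cj (KK ι) = cj (WR ι) ⊓ cj (WC ι) := by
    unfold cj KK
    rw [Subgroup.comap_inf]
  rw [this, cj_WR, cj_WC, inf_comm]
  rfl

lemma sw_mem_PW : sw ι ∈ PW ι := by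
  intro p q
  simp [adj, or_comm]

lemma cj_PW : cj (PW ι) = PW ι := by
  ext g
  rw [mem_cj, Subgroup.mul_mem_cancel_right _ sw_mem_PW, Subgroup.mul_mem_cancel_left _ sw_mem_PW]

/-! ### fusion of the three types of pairs -/

variable [Fintype ι] [DecidableEq ι]

/-- the column analogue of `XR` -/
def XC (ι : Type) [Fintype ι] [DecidableEq ι] : Subgroup (Perm (ι × ι)) := cj (XR ι)

omit [Fintype ι] in
lemma exists_perm2 {a b c d : ι} (h : a = b ↔ c = d) : ∃ σ : Perm ι, σ a = c ∧ σ b = d := by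
  by_cases hab : a = b
  · have hcd := h.mp hab
    subst hab; subst hcd
    exact ⟨swap a c, by simp⟩
  · have hcd : c ≠ d := fun hh => hab (h.mpr hh)
    refine ⟨swap (swap a c b) d * swap a c, ?_, ?_⟩
    · have h1 : c ≠ swap a c b := by
        intro hh
        have := congrArg (swap a c) hh
        simp at this
        exact hab this
      simp only [Perm.coe_mul, Function.comp_apply, swap_apply_left]
      exact swap_apply_of_ne_of_ne h1 hcd
    · simp

omit [Fintype ι] in
lemma exists_k {p q p' q' : ι × ι} (h1 : p.1 = q.1 ↔ p'.1 = q'.1) (h2 : p.2 = q.2 ↔ p'.2 = q'.2) :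
    ∃ k ∈ KK ι, k p = p' ∧ k q = q' := by
  obtain ⟨σ, hσ1, hσ2⟩ := exists_perm2 h1
  obtain ⟨τ, hτ1, hτ2⟩ := exists_perm2 h2
  exact ⟨sh σ (fun _ => τ), sh_const_mem_KK σ τ, Prod.ext hσ1 hτ1, Prod.ext hσ2 hτ2⟩

/-- the type of a pair -/
def Tp : Fin 3 → ι × ι → ι × ι → Prop
  | 0, p, q => p.1 = q.1 ∧ p.2 ≠ q.2
  | 1, p, q => p.1 ≠ q.1 ∧ p.2 = q.2
  | 2, p, q => p.1 ≠ q.1 ∧ p.2 ≠ q.2

omit [Fintype ι] [DecidableEq ι] in
lemma Tp_same {x : Fin 3} {p q p' q' : ι × ι} (h : Tp x p q) (h' : Tp x p' q') :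
    (p.1 = q.1 ↔ p'.1 = q'.1) ∧ (p.2 = q.2 ↔ p'.2 = q'.2) := by
  match x, h, h' with
  | 0, h, h' => exact ⟨iff_of_true h.1 h'.1, iff_of_false h.2 h'.2⟩
  | 1, h, h' => exact ⟨iff_of_false h.1 h'.1, iff_of_true h.2 h'.2⟩
  | 2, h, h' => exact ⟨iff_of_false h.1 h'.1, iff_of_false h.2 h'.2⟩

omit [Fintype ι] [DecidableEq ι] in
lemma exists_Tp {p q : ι × ι} (h : p ≠ q) : ∃ x, Tp x p q := by
  by_cases h1 : p.1 = q.1
  · by_cases h2 : p.2 = q.2
    · exact absurd (Prod.ext h1 h2) h
    · exact ⟨0, h1, h2⟩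
  · by_cases h2 : p.2 = q.2
    · exact ⟨1, h1, h2⟩
    · exact ⟨2, h1, h2⟩

/-- types `x` and `y` are fused by `M` -/
def Fus (M : Subgroup (Perm (ι × ι))) (x y : Fin 3) : Prop :=
  ∃ m ∈ M, ∃ p q, Tp x p q ∧ Tp y (m p) (m q)

omit [Fintype ι] [DecidableEq ι] in
lemma Fus.symm {M : Subgroup (Perm (ι × ι))} {x y : Fin 3} (h : Fus M x y) : Fus M y x := by
  obtain ⟨m, hm, p, q, h1, h2⟩ := h
  exact ⟨m⁻¹, M.inv_mem hm, m p, m q, h2, by simpa using h1⟩

omit [Fintype ι] in
lemma Fus.trans {M : Subgroup (Perm (ι × ι))} (hK : KK ι ≤ M) {x y z : Fin 3} (h : Fus M x y)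
    (h' : Fus M y z) : Fus M x z := by
  obtain ⟨m, hm, p, q, h1, h2⟩ := h
  obtain ⟨m', hm', p', q', h1', h2'⟩ := h'
  obtain ⟨e1, e2⟩ := Tp_same h2 h1'
  obtain ⟨k, hk, k1, k2⟩ := exists_k e1 e2
  refine ⟨m' * k * m, M.mul_mem (M.mul_mem hm' (hK hk)) hm, p, q, h1, ?_⟩
  simpa [k1, k2] using h2'

theorem twoTrans_of {M : Subgroup (Perm (ι × ι))} (hc : 2 ≤ Fintype.card ι) (hK : KK ι ≤ M)
    (h1 : ¬ M ≤ WR ι) (h2 : ¬ M ≤ WC ι) (h3 : ¬ M ≤ PW ι) : TwoTrans M := by
  have e1 : Fus M 0 1 ∨ Fus M 0 2 := by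
    rw [SetLike.not_le_iff_exists] at h1
    obtain ⟨g, hg, hgW⟩ := h1
    have : ∃ p q, ¬ (p.1 = q.1 ↔ (g p).1 = (g q).1) := by
      by_contra hcon
      push Not at hcon
      exact hgW fun p q => hcon p q
    obtain ⟨p, q, hpq⟩ := this
    have key : ∃ m ∈ M, ∃ p q : ι × ι, p.1 = q.1 ∧ (m p).1 ≠ (m q).1 := by
      by_cases hh : p.1 = q.1
      · exact ⟨g, hg, p, q, hh, fun h => hpq (iff_of_true hh h)⟩
      · refine ⟨g⁻¹, M.inv_mem hg, g p, g q, ?_, by simpa using hh⟩
        by_contra hcon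
        exact hpq (iff_of_false hh hcon)
    obtain ⟨m, hm, p, q, ha, hb⟩ := key
    have hne : p.2 ≠ q.2 := by
      intro h
      apply hb
      rw [Prod.ext ha h]
    by_cases hcc : (m p).2 = (m q).2
    · exact Or.inl ⟨m, hm, p, q, ⟨ha, hne⟩, ⟨hb, hcc⟩⟩
    · exact Or.inr ⟨m, hm, p, q, ⟨ha, hne⟩, ⟨hb, hcc⟩⟩
  have e2 : Fus M 1 0 ∨ Fus M 1 2 := by
    rw [SetLike.not_le_iff_exists] at h2
    obtain ⟨g, hg, hgW⟩ := h2
    have : ∃ p q, ¬ (p.2 = q.2 ↔ (g p).2 = (g q).2) := by
      by_contra hcon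
      push Not at hcon
      exact hgW fun p q => hcon p q
    obtain ⟨p, q, hpq⟩ := this
    have key : ∃ m ∈ M, ∃ p q : ι × ι, p.2 = q.2 ∧ (m p).2 ≠ (m q).2 := by
      by_cases hh : p.2 = q.2
      · exact ⟨g, hg, p, q, hh, fun h => hpq (iff_of_true hh h)⟩
      · refine ⟨g⁻¹, M.inv_mem hg, g p, g q, ?_, by simpa using hh⟩
        by_contra hcon
        exact hpq (iff_of_false hh hcon)
    obtain ⟨m, hm, p, q, ha, hb⟩ := key
    have hne : p.1 ≠ q.1 := by
      intro h
      apply hb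
      rw [Prod.ext h ha]
    by_cases hcc : (m p).1 = (m q).1
    · exact Or.inl ⟨m, hm, p, q, ⟨hne, ha⟩, ⟨hcc, hb⟩⟩
    · exact Or.inr ⟨m, hm, p, q, ⟨hne, ha⟩, ⟨hcc, hb⟩⟩
  have e3 : Fus M 0 2 ∨ Fus M 1 2 := by
    rw [SetLike.not_le_iff_exists] at h3
    obtain ⟨g, hg, hgW⟩ := h3
    have : ∃ p q, ¬ (adj p q ↔ adj (g p) (g q)) := by
      by_contra hcon
      push Not at hcon
      exact hgW fun p q => hcon p q
    obtain ⟨p, q, hpq⟩ := this
    have key : ∃ m ∈ M, ∃ p q : ι × ι, adj p q ∧ ¬ adj (m p) (m q) := by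
      by_cases hh : adj p q
      · exact ⟨g, hg, p, q, hh, fun h => hpq (iff_of_true hh h)⟩
      · refine ⟨g⁻¹, M.inv_mem hg, g p, g q, ?_, by simpa using hh⟩
        by_contra hcon
        exact hpq (iff_of_false hh hcon)
    obtain ⟨m, hm, p, q, ha, hb⟩ := key
    have hb' : Tp 2 (m p) (m q) := by
      unfold adj at hb
      push Not at hb
      exact hb
    have hne : p ≠ q := by
      rintro rfl
      exact hb (Or.inl rfl)
    rcases ha with ha | ha
    · exact Or.inl ⟨m, hm, p, q, ⟨ha, fun h => hne (Prod.ext ha h)⟩, hb'⟩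
    · exact Or.inr ⟨m, hm, p, q, ⟨fun h => hne (Prod.ext h ha), ha⟩, hb'⟩
  have f01 : Fus M 0 1 := by
    rcases e1 with h | h
    · exact h
    · rcases e2 with h' | h'
      · exact h'.symm
      · exact h.trans hK h'.symm
  have f02 : Fus M 0 2 := by
    rcases e3 with h | h
    · exact h
    · exact f01.trans hK h
  have frefl : ∀ x : Fin 3, Fus M x x := by
    intro x
    match x with
    | 0 => exact f01.trans hK f01.symm
    | 1 => exact f01.symm.trans hK f01
    | 2 => exact f02.symm.trans hK f02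
  have fall : ∀ x y : Fin 3, Fus M x y := by
    intro x y
    match x, y with
    | 0, 0 => exact frefl 0
    | 0, 1 => exact f01
    | 0, 2 => exact f02
    | 1, 0 => exact f01.symm
    | 1, 1 => exact frefl 1
    | 1, 2 => exact f01.symm.trans hK f02
    | 2, 0 => exact f02.symm
    | 2, 1 => exact f02.symm.trans hK f01
    | 2, 2 => exact frefl 2
  intro a b c d hab hcd
  obtain ⟨x, hx⟩ := exists_Tp hab
  obtain ⟨y, hy⟩ := exists_Tp hcd
  obtain ⟨m, hm, p, q, h1, h2⟩ := fall x y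
  obtain ⟨s1, s2⟩ := Tp_same hx h1
  obtain ⟨t1, t2⟩ := Tp_same h2 hy
  obtain ⟨k, hk, k1, k2⟩ := exists_k s1 s2
  obtain ⟨l, hl, l1, l2⟩ := exists_k t1 t2
  refine ⟨l * m * k, M.mul_mem (M.mul_mem (hK hl) hm) (hK hk), ?_, ?_⟩
  · simp [k1, l1]
  · simp [k2, l2]

/-! ### the doubly transitive case -/

lemma sign_row (i j : ι) (hij : i ≠ j) (hodd : Odd (Fintype.card ι)) :
    Perm.sign (sh (swap i j) (fun _ => 1)) = -1 := by
  have : sh (swap i j) (fun _ : ι => (1 : Perm ι)) = prodCongrLeft (fun _ : ι => swap i j) := by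
    ext p <;> simp
  rw [this, Perm.sign_prodCongrLeft]
  simp only [Perm.sign_swap hij, Finset.prod_const, Finset.card_univ]
  exact hodd.neg_one_pow

lemma support_row (i j : ι) (hij : i ≠ j) :
    (sh (swap i j) (fun _ : ι => (1 : Perm ι))).support.card = 2 * Fintype.card ι := by
  have : (sh (swap i j) (fun _ : ι => (1 : Perm ι))).support = ({i, j} : Finset ι) ×ˢ univ := by
    ext p
    rw [Perm.mem_support]
    simp only [sh_apply, Perm.coe_one, id_eq, Finset.mem_product, Finset.mem_insert,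
      Finset.mem_singleton, Finset.mem_univ, and_true, ne_eq]
    constructor
    · intro h
      by_contra hcon
      push Not at hcon
      apply h
      rw [swap_apply_of_ne_of_ne hcon.1 hcon.2]
    · rintro (h | h) hcon
      · have := congrArg Prod.fst hcon
        simp [h] at this
        exact hij this.symm
      · have := congrArg Prod.fst hcon
        simp [h] at this
        exact hij this
  rw [this, Finset.card_product, Finset.card_pair hij, Finset.card_univ]

lemma arith (a : ℕ) (h : 17 ≤ a) :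
    (a * a - 1) + (2 * a - 1) ^ 2 < 6 * (a * a - 2 * a) ∧ 225 < a * a ∧ 2 * a < a * a := by
  obtain ⟨k, rfl⟩ := Nat.exists_eq_add_of_le' h
  have h1 : (k + 17) * (k + 17) = k * k + 34 * k + 289 := by ring
  have h2 : 2 * (k + 17) - 1 = 2 * k + 33 := by omega
  have h3 : (2 * k + 33) ^ 2 = 4 * (k * k) + 132 * k + 1089 := by ring
  rw [h1, h2, h3]
  refine ⟨?_, ?_, ?_⟩ <;> omega

theorem top_of_twoTrans {M : Subgroup (Perm (ι × ι))} (h17 : 17 ≤ Fintype.card ι)
    (hodd : Odd (Fintype.card ι)) (hK : KK ι ≤ M) (hM : TwoTrans M) : M = ⊤ := by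
  obtain ⟨i, j, hij⟩ := Fintype.exists_pair_of_one_lt_card (α := ι) (by omega)
  set ρ := sh (swap i j) (fun _ : ι => (1 : Perm ι)) with hρ
  have hρM : ρ ∈ M := hK (sh_const_mem_KK _ _)
  have hs := sign_row i j hij hodd
  have hsup := support_row i j hij
  rw [← hρ] at hs hsup
  have hρ1 : ρ ≠ 1 := by
    intro h
    rw [h] at hs
    exact absurd hs (by simp)
  obtain ⟨a1, a2, a3⟩ := arith _ h17
  have hA : alternatingGroup (ι × ι) ≤ M := by
    apply alternating_le hM hρM hρ1
    · rw [Fintype.card_prod]; exact a2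
    · rw [Fintype.card_prod, hsup]; exact a3
    · rw [Fintype.card_prod, hsup]; exact a1
  rw [eq_top_iff]
  intro x _
  rcases Int.units_eq_one_or (Perm.sign x) with h | h
  · exact hA (by rw [mem_alternatingGroup]; exact h)
  · have h1 : x * ρ ∈ M := hA (by
      rw [mem_alternatingGroup, Perm.sign_mul, h, hs]; rfl)
    exact (Subgroup.mul_mem_cancel_right M hρM).mp h1

/-! ### the rook graph -/

omit [Fintype ι] [DecidableEq ι] in
lemma WR_inf_PW : WR ι ⊓ PW ι ≤ KK ι := by
  rintro g ⟨h1, h2⟩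
  refine ⟨h1, ?_⟩
  intro p q
  by_cases hpq : p.1 = q.1
  · have e1 := (h1 p q).mp hpq
    constructor
    · intro h; rw [Prod.ext hpq h]
    · intro h
      have := g.injective (Prod.ext e1 h)
      rw [this]
  · have e1 : (g p).1 ≠ (g q).1 := fun h => hpq ((h1 p q).mpr h)
    have := h2 p q
    unfold adj at this
    simp only [hpq, e1, false_or] at this
    exact this

omit [DecidableEq ι] in
lemma mem_WR_of_rows {g : Perm (ι × ι)} (h : ∀ i j k, (g (i, j)).1 = (g (i, k)).1) :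
    g ∈ WR ι := by
  rcases isEmpty_or_nonempty ι with hE | hE
  · intro p; exact hE.elim p.1
  let i0 : ι := Classical.arbitrary ι
  let f : ι → ι := fun i => (g (i, i0)).1
  have hf : ∀ p : ι × ι, (g p).1 = f p.1 := fun p => h p.1 p.2 i0
  have hsurj : Function.Surjective f := by
    intro y
    refine ⟨(g⁻¹ (y, i0)).1, ?_⟩
    rw [← hf]
    simp
  have hinj := Finite.injective_iff_surjective.mpr hsurj
  intro p q
  rw [hf, hf]
  exact hinj.eq_iff.symm

lemma pw_dichotomy (hc : 3 ≤ Fintype.card ι) {g : Perm (ι × ι)} (hg : g ∈ PW ι) :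
    (∀ i j k, (g (i, j)).1 = (g (i, k)).1) ∨ (∀ i j k, (g (i, j)).2 = (g (i, k)).2) := by
  obtain ⟨j0, k0, hjk⟩ := Fintype.exists_pair_of_one_lt_card (α := ι) (by omega)
  have hadj : ∀ i j k, adj (g (i, j)) (g (i, k)) := fun i j k => (hg (i, j) (i, k)).mp (Or.inl rfl)
  have hrow : ∀ i, (∀ j k, (g (i, j)).1 = (g (i, k)).1) ∨ (∀ j k, (g (i, j)).2 = (g (i, k)).2) := by
    intro i
    rcases hadj i j0 k0 with h | h
    · left
      have key : ∀ j, (g (i, j)).1 = (g (i, j0)).1 := by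
        intro j
        by_contra hne
        have h1 : (g (i, j)).2 = (g (i, j0)).2 := (hadj i j j0).resolve_left hne
        have h2 : (g (i, j)).2 = (g (i, k0)).2 := (hadj i j k0).resolve_left (fun hh => hne (hh.trans h.symm))
        have h3 : g (i, j0) = g (i, k0) := Prod.ext h (h1.symm.trans h2)
        have h4 := g.injective h3
        exact hjk (Prod.mk.injEq _ _ _ _ ▸ h4).2
      intro j k
      rw [key j, key k]
    · right
      have key : ∀ j, (g (i, j)).2 = (g (i, j0)).2 := by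
        intro j
        by_contra hne
        have h1 : (g (i, j)).1 = (g (i, j0)).1 := (hadj i j j0).resolve_right hne
        have h2 : (g (i, j)).1 = (g (i, k0)).1 := (hadj i j k0).resolve_right (fun hh => hne (hh.trans h.symm))
        have h3 : g (i, j0) = g (i, k0) := Prod.ext (h1.symm.trans h2) h
        have h4 := g.injective h3
        exact hjk (Prod.mk.injEq _ _ _ _ ▸ h4).2
      intro j k
      rw [key j, key k]
  have hcons : ∀ i i', (∀ j k, (g (i, j)).1 = (g (i, k)).1) →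
      (∀ j k, (g (i', j)).2 = (g (i', k)).2) → i = i' := by
    intro i i' h1 h2
    have inj1 : Function.Injective (fun j => (g (i, j)).2) := by
      intro j k h
      have := g.injective (Prod.ext (h1 j k) h)
      exact (Prod.mk.injEq _ _ _ _ ▸ this).2
    have inj2 : Function.Injective (fun j => (g (i', j)).1) := by
      intro j k h
      have := g.injective (Prod.ext h (h2 j k))
      exact (Prod.mk.injEq _ _ _ _ ▸ this).2
    obtain ⟨j, hj⟩ := (Finite.injective_iff_surjective.mp inj1) (g (i', j0)).2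
    obtain ⟨k, hk⟩ := (Finite.injective_iff_surjective.mp inj2) (g (i, j0)).1
    have e1 : (g (i, j)).1 = (g (i', k)).1 := (h1 j j0).trans hk.symm
    have e2 : (g (i, j)).2 = (g (i', k)).2 := hj.trans (h2 j0 k)
    have := g.injective (Prod.ext e1 e2)
    exact (Prod.mk.injEq _ _ _ _ ▸ this).1
  by_cases hall : ∀ i, ∀ j k, (g (i, j)).1 = (g (i, k)).1
  · left; exact hall
  · right
    push Not at hall
    obtain ⟨i, hi⟩ := hall
    have hi' : ¬ ∀ j k, (g (i, j)).1 = (g (i, k)).1 := by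
      push Not; exact hi
    have h2 := (hrow i).resolve_left hi'
    intro i'
    by_cases hii : i' = i
    · subst hii; exact h2
    · refine (hrow i').resolve_left fun h => hii (hcons i' i h h2)

lemma pw_cases (hc : 3 ≤ Fintype.card ι) {g : Perm (ι × ι)} (hg : g ∈ PW ι) :
    g ∈ KK ι ∨ sw ι * g ∈ KK ι := by
  rcases pw_dichotomy hc hg with h | h
  · left
    exact WR_inf_PW ⟨mem_WR_of_rows h, hg⟩
  · right
    refine WR_inf_PW ⟨mem_WR_of_rows ?_, (PW ι).mul_mem sw_mem_PW hg⟩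
    intro i j k
    simpa using h i j k

omit [Fintype ι] [DecidableEq ι] in
lemma KK_le_PW : KK ι ≤ PW ι := by
  rintro g ⟨h1, h2⟩ p q
  unfold adj
  rw [h1 p q, h2 p q]

theorem pw_classification (hc : 3 ≤ Fintype.card ι) {M : Subgroup (Perm (ι × ι))}
    (hK : KK ι ≤ M) (hM : M ≤ PW ι) : M = KK ι ∨ M = PW ι := by
  by_cases h : M ≤ KK ι
  · left; exact le_antisymm h hK
  · right
    rw [SetLike.not_le_iff_exists] at h
    obtain ⟨g, hg, hgK⟩ := h
    have h1 := (pw_cases hc (hM hg)).resolve_left hgK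
    have hsw : sw ι ∈ M := (Subgroup.mul_mem_cancel_right M hg).mp (hK h1)
    apply le_antisymm hM
    intro x hx
    rcases pw_cases hc hx with h2 | h2
    · exact hK h2
    · exact (Subgroup.mul_mem_cancel_left M hsw).mp (hK h2)

/-- The full classification of the overgroups of `K`. -/
theorem classification (h17 : 17 ≤ Fintype.card ι) (hodd : Odd (Fintype.card ι))
    {M : Subgroup (Perm (ι × ι))} (hK : KK ι ≤ M) :
    M = KK ι ∨ M = XR ι ∨ M = WR ι ∨ M = XC ι ∨ M = WC ι ∨ M = PW ι ∨ M = ⊤ := by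
  by_cases h1 : M ≤ WR ι
  · rcases row_classification (by omega) hodd hK h1 with h | h | h
    · exact Or.inl h
    · exact Or.inr (Or.inl h)
    · exact Or.inr (Or.inr (Or.inl h))
  by_cases h2 : M ≤ WC ι
  · have hK' : KK ι ≤ cj M := by rw [← cj_KK]; exact cj_mono hK
    have h2' : cj M ≤ WR ι := by rw [← cj_WC]; exact cj_mono h2
    rcases row_classification (by omega) hodd hK' h2' with h | h | h
    · left
      have := congrArg cj h
      rwa [cj_cj, cj_KK] at this
    · right; right; right; left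
      have := congrArg cj h
      rwa [cj_cj] at this
    · right; right; right; right; left
      have := congrArg cj h
      rwa [cj_cj, cj_WR] at this
  by_cases h3 : M ≤ PW ι
  · rcases pw_classification (by omega) hK h3 with h | h
    · exact Or.inl h
    · right; right; right; right; right; left; exact h
  right; right; right; right; right; right
  exact top_of_twoTrans h17 hodd hK (twoTrans_of (by omega) hK h1 h2 h3)

end Vale.Agent.P183
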