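import Vale.Agent.P183.Grid2
import Vale.Agent.P183.Defs

/-!
# P183: the interval `[Sym ι × Sym ι, Sym (ι × ι)]` is the parallel sum of chains 2, 2, 1
-/

namespace Vale.Agent.P183

open Equiv Equiv.Perm Finset

variable {ι : Type} [Fintype ι] [DecidableEq ι]

lemma KK_le_XR [Nonempty ι] : KK ι ≤ XR ι := by
  intro g hg
  obtain ⟨σ, ρ, rfl⟩ := mem_KK_iff.mp hg
  exact ⟨σ, fun _ => ρ, fun _ _ => rfl, rfl⟩

lemma XR_le_WR : XR ι ≤ WR ι := by
  rintro g ⟨σ, τ, _, rfl⟩
  exact sh_mem_WR σ τ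

lemma XR_not_le_KK (hc : 3 ≤ Fintype.card ι) : ¬ XR ι ≤ KK ι := by
  obtain ⟨a, b, c, hab, hac, hbc⟩ := Fintype.two_lt_card_iff.mp hc
  have : Nonempty ι := ⟨a⟩
  intro hle
  let τ : ι → Perm ι := fun i => if i = a then swap a b * swap b c else 1
  have hs : Perm.sign (swap a b * swap b c) = 1 := by
    rw [Perm.sign_mul, Perm.sign_swap hab, Perm.sign_swap hbc]; rfl
  have hsg : ∀ i, Perm.sign (τ i) = 1 := by
    intro i
    by_cases h : i = a
    · simp only [τ, if_pos h]; exact hs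
    · simp only [τ, if_neg h]; exact Perm.sign_one
  have h1 : sh 1 τ ∈ XR ι := ⟨1, τ, fun i j => by rw [hsg i, hsg j], rfl⟩
  obtain ⟨σ, ρ, h2⟩ := mem_KK_iff.mp (hle h1)
  obtain ⟨_, h3⟩ := sh_inj h2
  have ha : τ a = ρ := congrFun h3 a
  have hb : τ b = ρ := congrFun h3 b
  rw [← hb] at ha
  simp only [τ, if_true, if_neg hab.symm] at ha
  have := congrArg (fun s : Perm ι => s c) ha
  simp at this
  exact hac this

lemma WR_not_le_XR (hc : 2 ≤ Fintype.card ι) : ¬ WR ι ≤ XR ι := by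
  obtain ⟨a, b, hab⟩ := Fintype.exists_pair_of_one_lt_card (α := ι) (by omega)
  have : Nonempty ι := ⟨a⟩
  intro hle
  let τ : ι → Perm ι := fun i => if i = a then swap a b else 1
  obtain ⟨σ, ρ, hs, h2⟩ := hle (sh_mem_WR 1 τ)
  obtain ⟨_, h3⟩ := sh_inj h2
  have := hs a b
  rw [← h3] at this
  simp only [τ, if_true, if_neg hab.symm, Perm.sign_swap hab, Perm.sign_one] at this
  exact absurd this (by decide)

omit [DecidableEq ι] in
lemma sw_not_mem_WR (hc : 2 ≤ Fintype.card ι) : sw ι ∉ WR ι := by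
  obtain ⟨a, b, hab⟩ := Fintype.exists_pair_of_one_lt_card (α := ι) (by omega)
  intro h
  have := (h (a, a) (a, b)).mp rfl
  simp at this
  exact hab this

lemma XC_le_WC : XC ι ≤ WC ι := by
  rw [← cj_WR]; exact cj_mono XR_le_WR

lemma KK_le_XC [Nonempty ι] : KK ι ≤ XC ι := by
  rw [← cj_KK]; exact cj_mono KK_le_XR

lemma XC_not_le_KK (hc : 3 ≤ Fintype.card ι) : ¬ XC ι ≤ KK ι := by
  rw [← cj_KK]; exact fun h => XR_not_le_KK hc (cj_le_iff.mp h)

lemma WC_not_le_XC (hc : 2 ≤ Fintype.card ι) : ¬ WC ι ≤ XC ι := by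
  rw [← cj_WR]; exact fun h => WR_not_le_XR hc (cj_le_iff.mp h)

omit [DecidableEq ι] in
lemma sw_not_mem_WC (hc : 2 ≤ Fintype.card ι) : sw ι ∉ WC ι := by
  rw [← cj_WR, mem_cj]
  simpa using sw_not_mem_WR hc

lemma XR_not_le_WC (hc : 3 ≤ Fintype.card ι) : ¬ XR ι ≤ WC ι :=
  fun h => XR_not_le_KK hc (le_inf XR_le_WR h)

lemma XC_not_le_WR (hc : 3 ≤ Fintype.card ι) : ¬ XC ι ≤ WR ι :=
  fun h => XC_not_le_KK hc (le_inf h XC_le_WC)

lemma XR_not_le_PW (hc : 3 ≤ Fintype.card ι) : ¬ XR ι ≤ PW ι :=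
  fun h => XR_not_le_KK hc ((le_inf XR_le_WR h).trans WR_inf_PW)

lemma XC_not_le_PW (hc : 3 ≤ Fintype.card ι) : ¬ XC ι ≤ PW ι := by
  rw [← cj_PW]; exact fun h => XR_not_le_PW hc (cj_le_iff.mp h)

lemma PW_not_le_WR (hc : 2 ≤ Fintype.card ι) : ¬ PW ι ≤ WR ι :=
  fun h => sw_not_mem_WR hc (h sw_mem_PW)

lemma PW_not_le_WC (hc : 2 ≤ Fintype.card ι) : ¬ PW ι ≤ WC ι :=
  fun h => sw_not_mem_WC hc (h sw_mem_PW)

/-- The overgroups of `KK ι`, in the numbering `0` bottom, `6` top, `1 < 2`, `3 < 4`, `5`. -/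
def c221 (ι : Type) [Fintype ι] [DecidableEq ι] : Fin 7 → Subgroup (Perm (ι × ι))
  | 0 => KK ι
  | 1 => XR ι
  | 2 => WR ι
  | 3 => XC ι
  | 4 => WC ι
  | 5 => PW ι
  | 6 => ⊤

theorem c221_surj (h17 : 17 ≤ Fintype.card ι) (hodd : Odd (Fintype.card ι))
    (K : Subgroup (Perm (ι × ι))) : KK ι ≤ K ↔ ∃ p, c221 ι p = K := by
  have : Nonempty ι := Fintype.card_pos_iff.mp (by omega)
  constructor
  · intro h
    rcases classification h17 hodd h with h | h | h | h | h | h | h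
    · exact ⟨0, h.symm⟩
    · exact ⟨1, h.symm⟩
    · exact ⟨2, h.symm⟩
    · exact ⟨3, h.symm⟩
    · exact ⟨4, h.symm⟩
    · exact ⟨5, h.symm⟩
    · exact ⟨6, h.symm⟩
  · rintro ⟨p, rfl⟩
    match p with
    | 0 => exact le_rfl
    | 1 => exact KK_le_XR
    | 2 => exact inf_le_left
    | 3 => exact KK_le_XC
    | 4 => exact inf_le_right
    | 5 => exact KK_le_PW
    | 6 => exact le_top

theorem c221_le (hc : 3 ≤ Fintype.card ι) (p q : Fin 7) :
    c221 ι p ≤ c221 ι q ↔ P183.leOf 7 [(1, 2), (3, 4)] p q := by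
  have hne : Nonempty ι := Fintype.card_pos_iff.mp (by omega)
  have h2 : 2 ≤ Fintype.card ι := by omega
  have t01 : KK ι ≤ XR ι := KK_le_XR
  have t02 : KK ι ≤ WR ι := inf_le_left
  have t03 : KK ι ≤ XC ι := KK_le_XC
  have t04 : KK ι ≤ WC ι := inf_le_right
  have t05 : KK ι ≤ PW ι := KK_le_PW
  have t12 : XR ι ≤ WR ι := XR_le_WR
  have t34 : XC ι ≤ WC ι := XC_le_WC
  have f10 := XR_not_le_KK hc
  have f21 := WR_not_le_XR h2
  have f30 := XC_not_le_KK hc
  have f43 := WC_not_le_XC h2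
  have f14 := XR_not_le_WC hc
  have f32 := XC_not_le_WR hc
  have f15 := XR_not_le_PW hc
  have f35 := XC_not_le_PW hc
  have f52 := PW_not_le_WR h2
  have f54 := PW_not_le_WC h2
  have f20 : ¬ WR ι ≤ KK ι := fun h => f10 (t12.trans h)
  have f40 : ¬ WC ι ≤ KK ι := fun h => f30 (t34.trans h)
  have f50 : ¬ PW ι ≤ KK ι := fun h => f52 (h.trans t02)
  have f13 : ¬ XR ι ≤ XC ι := fun h => f14 (h.trans t34)
  have f23 : ¬ WR ι ≤ XC ι := fun h => f13 (t12.trans h)
  have f24 : ¬ WR ι ≤ WC ι := fun h => f14 (t12.trans h)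
  have f31 : ¬ XC ι ≤ XR ι := fun h => f32 (h.trans t12)
  have f41 : ¬ WC ι ≤ XR ι := fun h => f31 (t34.trans h)
  have f42 : ¬ WC ι ≤ WR ι := fun h => f32 (t34.trans h)
  have f25 : ¬ WR ι ≤ PW ι := fun h => f15 (t12.trans h)
  have f45 : ¬ WC ι ≤ PW ι := fun h => f35 (t34.trans h)
  have f51 : ¬ PW ι ≤ XR ι := fun h => f52 (h.trans t12)
  have f53 : ¬ PW ι ≤ XC ι := fun h => f54 (h.trans t34)
  have f60 : ¬ (⊤ : Subgroup (Perm (ι × ι))) ≤ KK ι := fun h => f50 (le_top.trans h)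
  have f61 : ¬ (⊤ : Subgroup (Perm (ι × ι))) ≤ XR ι := fun h => f51 (le_top.trans h)
  have f62 : ¬ (⊤ : Subgroup (Perm (ι × ι))) ≤ WR ι := fun h => f52 (le_top.trans h)
  have f63 : ¬ (⊤ : Subgroup (Perm (ι × ι))) ≤ XC ι := fun h => f53 (le_top.trans h)
  have f64 : ¬ (⊤ : Subgroup (Perm (ι × ι))) ≤ WC ι := fun h => f54 (le_top.trans h)
  have f65 : ¬ (⊤ : Subgroup (Perm (ι × ι))) ≤ PW ι := fun h => f25 (le_top.trans h)
  match p, q with
  | 0, 0 => exact iff_of_true le_rfl (by decide)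
  | 0, 1 => exact iff_of_true t01 (by decide)
  | 0, 2 => exact iff_of_true t02 (by decide)
  | 0, 3 => exact iff_of_true t03 (by decide)
  | 0, 4 => exact iff_of_true t04 (by decide)
  | 0, 5 => exact iff_of_true t05 (by decide)
  | 0, 6 => exact iff_of_true le_top (by decide)
  | 1, 0 => exact iff_of_false f10 (by decide)
  | 1, 1 => exact iff_of_true le_rfl (by decide)
  | 1, 2 => exact iff_of_true t12 (by decide)
  | 1, 3 => exact iff_of_false f13 (by decide)
  | 1, 4 => exact iff_of_false f14 (by decide)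
  | 1, 5 => exact iff_of_false f15 (by decide)
  | 1, 6 => exact iff_of_true le_top (by decide)
  | 2, 0 => exact iff_of_false f20 (by decide)
  | 2, 1 => exact iff_of_false f21 (by decide)
  | 2, 2 => exact iff_of_true le_rfl (by decide)
  | 2, 3 => exact iff_of_false f23 (by decide)
  | 2, 4 => exact iff_of_false f24 (by decide)
  | 2, 5 => exact iff_of_false f25 (by decide)
  | 2, 6 => exact iff_of_true le_top (by decide)
  | 3, 0 => exact iff_of_false f30 (by decide)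
  | 3, 1 => exact iff_of_false f31 (by decide)
  | 3, 2 => exact iff_of_false f32 (by decide)
  | 3, 3 => exact iff_of_true le_rfl (by decide)
  | 3, 4 => exact iff_of_true t34 (by decide)
  | 3, 5 => exact iff_of_false f35 (by decide)
  | 3, 6 => exact iff_of_true le_top (by decide)
  | 4, 0 => exact iff_of_false f40 (by decide)
  | 4, 1 => exact iff_of_false f41 (by decide)
  | 4, 2 => exact iff_of_false f42 (by decide)
  | 4, 3 => exact iff_of_false f43 (by decide)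
  | 4, 4 => exact iff_of_true le_rfl (by decide)
  | 4, 5 => exact iff_of_false f45 (by decide)
  | 4, 6 => exact iff_of_true le_top (by decide)
  | 5, 0 => exact iff_of_false f50 (by decide)
  | 5, 1 => exact iff_of_false f51 (by decide)
  | 5, 2 => exact iff_of_false f52 (by decide)
  | 5, 3 => exact iff_of_false f53 (by decide)
  | 5, 4 => exact iff_of_false f54 (by decide)
  | 5, 5 => exact iff_of_true le_rfl (by decide)
  | 5, 6 => exact iff_of_true le_top (by decide)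
  | 6, 0 => exact iff_of_false f60 (by decide)
  | 6, 1 => exact iff_of_false f61 (by decide)
  | 6, 2 => exact iff_of_false f62 (by decide)
  | 6, 3 => exact iff_of_false f63 (by decide)
  | 6, 4 => exact iff_of_false f64 (by decide)
  | 6, 5 => exact iff_of_false f65 (by decide)
  | 6, 6 => exact iff_of_true le_rfl (by decide)

/-- The interval above `Sym 17 × Sym 17` in `Sym (17 * 17)`. -/
theorem interval221 : ∃ (H : Subgroup (Perm (Fin 17 × Fin 17)))
    (c : Fin 7 → Subgroup (Perm (Fin 17 × Fin 17))),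
    (∀ K, H ≤ K ↔ ∃ p, c p = K) ∧ ∀ p q, c p ≤ c q ↔ P183.leOf 7 [(1, 2), (3, 4)] p q :=
  ⟨KK (Fin 17), c221 (Fin 17), c221_surj (by simp) (by simp; decide),
    c221_le (by simp)⟩

end Vale.Agent.P183
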