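import Vale.Agent.P183.Basic

/-!
# P183: inflating congruences (the overalgebra construction)
-/

namespace P183

/-- congruences of a quotient: a closed family of equivalence relations above `κ` -/
theorem URep.ofAbove {Z ι : Type} [Finite Z] [Nonempty Z] [Finite ι] (f : ι → Z → Z)
    (κ : Setoid Z) (hκ : ∀ i x y, κ x y → κ (f i x) (f i y)) {P : Type} {le : P → P → Prop}
    (c : P → Setoid Z) (hc1 : ∀ p, κ ≤ c p)
    (hc2 : ∀ p i x y, c p x y → c p (f i x) (f i y))
    (hc3 : ∀ r : Setoid Z, κ ≤ r → (∀ i x y, r x y → r (f i x) (f i y)) → ∃ p, c p = r)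
    (hle : ∀ p q, c p ≤ c q ↔ le p q) : URep P le := by
  classical
  have hout : ∀ z : Z, κ (Quotient.out (Quotient.mk κ z)) z := fun z => Quotient.mk_out z
  have key : ∀ p (x y : Z), c p (Quotient.out (Quotient.mk κ x)) (Quotient.out (Quotient.mk κ y)) ↔
      c p x y := by
    intro p x y
    have h1 : c p (Quotient.out (Quotient.mk κ x)) x := hc1 p (hout x)
    have h2 : c p (Quotient.out (Quotient.mk κ y)) y := hc1 p (hout y)
    constructor
    · intro h
      exact (c p).trans ((c p).symm h1) ((c p).trans h h2)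
    · intro h
      exact (c p).trans h1 ((c p).trans h ((c p).symm h2))
  refine ⟨Quotient κ, inferInstance, ⟨Quotient.mk κ (Classical.arbitrary Z)⟩, ι, inferInstance,
    fun i => Quotient.map (f i) (fun x y h => hκ i x y h),
    fun p => ⟨Setoid.comap Quotient.out (c p), ?_⟩, ?_, ?_⟩
  · intro i x y
    induction x using Quotient.inductionOn with
    | _ x =>
      induction y using Quotient.inductionOn with
      | _ y =>
        intro h
        have h' : c p x y := (key p x y).1 h
        exact (key p _ _).2 (hc2 p i x y h')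
  · rintro ⟨r, hr⟩
    obtain ⟨p, hp⟩ := hc3 (Setoid.comap (Quotient.mk κ) r) (by
        intro x y h
        show r (Quotient.mk κ x) (Quotient.mk κ y)
        have : Quotient.mk κ x = Quotient.mk κ y := Quotient.sound h
        rw [this])
      (by
        intro i x y h
        exact hr i (Quotient.mk κ x) (Quotient.mk κ y) h)
    refine ⟨p, ?_⟩
    apply Subtype.ext
    apply Setoid.ext
    intro x y
    induction x using Quotient.inductionOn with
    | _ x =>
      induction y using Quotient.inductionOn with
      | _ y =>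
        show c p (Quotient.out (Quotient.mk κ x)) (Quotient.out (Quotient.mk κ y)) ↔ _
        rw [key, hp]
        exact Iff.rfl
  · intro p q
    rw [← hle]
    constructor
    · intro h x y hxy
      exact (key q x y).1 (h ((key p x y).2 hxy))
    · intro h x y hxy
      exact h hxy

namespace Infl

/-- maps preserving every member of the family `C` -/
def Comp {B J : Type} (C : J → Setoid B) (g : B → B) : Prop :=
  ∀ j x x', C j x x' → C j (g x) (g x')

section

variable {B J : Type} (y : B) {X : J → Type} {ι : J → Type} (o : ∀ j, ι j → X j → X j)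
  (a : (Σ j, X j) → B)

/-- the simultaneous action of one operation (or none) in every fibre -/
def act (κ : ∀ j, Option (ι j)) (t : Σ j, X j) : Σ j, X j :=
  ⟨t.1, match κ t.1 with
    | none => t.2
    | some k => o t.1 k t.2⟩

theorem act_none {κ : ∀ j, Option (ι j)} {j : J} (h : κ j = none) (i : X j) :
    act o κ ⟨j, i⟩ = ⟨j, i⟩ := by
  simp [act, h]

theorem act_some {κ : ∀ j, Option (ι j)} {j : J} {k : ι j} (h : κ j = some k) (i : X j) :
    act o κ ⟨j, i⟩ = ⟨j, o j k i⟩ := by
  simp [act, h]

/-- the points: a central copy of `B` and a copy of `B` for every index `t` -/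
abbrev Pt (B : Type) {J : Type} (X : J → Type) : Type := B ⊕ ((Σ j, X j) × B)

/-- fold onto the central copy -/
def sMap : Pt B X → B
  | Sum.inl x => x
  | Sum.inr p => a p.1

/-- the coordinate in the outer copy -/
def kMap : Pt B X → B
  | Sum.inl _ => y
  | Sum.inr p => p.2

open Classical in
/-- the coordinate in the outer copies of one fibre -/
noncomputable def kjMap (j : J) : Pt B X → B
  | Sum.inl _ => y
  | Sum.inr p => if p.1.1 = j then p.2 else y

/-- two outer copies are glued -/
def glue (G : Setoid (Σ j, X j)) : Pt B X → Pt B X → Prop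
  | Sum.inr p, Sum.inr q => G p.1 q.1
  | _, _ => False

theorem glue_symm {G : Setoid (Σ j, X j)} {z z' : Pt B X} (h : glue G z z') : glue G z' z := by
  match z, z', h with
  | Sum.inr p, Sum.inr q, h => exact G.symm h

theorem glue_trans {G : Setoid (Σ j, X j)} {z z' z'' : Pt B X} (h : glue G z z')
    (h' : glue G z' z'') : glue G z z'' := by
  match z, z', z'', h, h' with
  | Sum.inr p, Sum.inr q, Sum.inr r, h, h' => exact G.trans h h'

/-- the equivalence relation on points given by `D` on `B` and `G` on the indices -/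
def rel (D : Setoid B) (G : Setoid (Σ j, X j)) : Setoid (Pt B X) where
  r z z' := D (kMap y z) (kMap y z') ∧ D (sMap a z) (sMap a z') ∧
    (D (kMap y z) y ∨ glue G z z')
  iseqv := by
    refine ⟨?_, ?_, ?_⟩
    · intro z
      refine ⟨D.refl _, D.refl _, ?_⟩
      match z with
      | Sum.inl x => exact Or.inl (D.refl _)
      | Sum.inr p => exact Or.inr (G.refl _)
    · rintro z z' ⟨h1, h2, h3⟩
      refine ⟨D.symm h1, D.symm h2, ?_⟩
      rcases h3 with h3 | h3
      · exact Or.inl (D.trans (D.symm h1) h3)
      · exact Or.inr (glue_symm h3)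
    · rintro z z' z'' ⟨h1, h2, h3⟩ ⟨h1', h2', h3'⟩
      refine ⟨D.trans h1 h1', D.trans h2 h2', ?_⟩
      rcases h3 with h3 | h3
      · exact Or.inl h3
      · rcases h3' with h3' | h3'
        · exact Or.inl (D.trans h1 h3')
        · exact Or.inr (glue_trans h3 h3')

theorem rel_iff {D : Setoid B} {G : Setoid (Σ j, X j)} {z z' : Pt B X} :
    rel y a D G z z' ↔ D (kMap y z) (kMap y z') ∧ D (sMap a z) (sMap a z') ∧
    (D (kMap y z) y ∨ glue G z z') := Iff.rfl

/-- extend an equivalence relation of one fibre by equality -/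
def extS (j : J) (π : Setoid (X j)) : Setoid (Σ j, X j) where
  r t t' := t = t' ∨ ∃ i i' : X j, t = ⟨j, i⟩ ∧ t' = ⟨j, i'⟩ ∧ π i i'
  iseqv := by
    refine ⟨fun t => Or.inl rfl, ?_, ?_⟩
    · rintro t t' (h | ⟨i, i', h, h', hp⟩)
      · exact Or.inl h.symm
      · exact Or.inr ⟨i', i, h', h, π.symm hp⟩
    · rintro t t' t'' (h | ⟨i, i', h, h', hp⟩) (g | ⟨l, l', g, g', gp⟩)
      · exact Or.inl (h.trans g)
      · exact Or.inr ⟨l, l', h.trans g, g', gp⟩
      · exact Or.inr ⟨i, i', h, g ▸ h', hp⟩
      · refine Or.inr ⟨i, l', h, g', ?_⟩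
        have : i' = l := by
          have e : (⟨j, i'⟩ : Σ j, X j) = ⟨j, l⟩ := h'.symm.trans g
          exact eq_of_heq (Sigma.mk.inj e).2
        subst this
        exact π.trans hp gp

theorem extS_mk {j : J} {π : Setoid (X j)} {i i' : X j} :
    extS j π ⟨j, i⟩ ⟨j, i'⟩ ↔ π i i' := by
  constructor
  · rintro (h | ⟨l, l', h, h', hp⟩)
    · have : i = i' := eq_of_heq (Sigma.mk.inj h).2
      subst this
      exact π.refl _
    · have e1 : i = l := eq_of_heq (Sigma.mk.inj h).2
      have e2 : i' = l' := eq_of_heq (Sigma.mk.inj h').2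
      subst e1 e2
      exact hp
  · intro h
    exact Or.inr ⟨i, i', rfl, rfl, h⟩

theorem extS_fst {j : J} {π : Setoid (X j)} {t t' : Σ j, X j} (h : extS j π t t') :
    t.1 = t'.1 := by
  rcases h with h | ⟨i, i', h, h', hp⟩
  · rw [h]
  · rw [h, h']

theorem extS_act {j : J} {π : Setoid (X j)}
    (hπ : ∀ k x x', π x x' → π (o j k x) (o j k x')) (κ : ∀ j, Option (ι j))
    {t t' : Σ j, X j} (h : extS j π t t') : extS j π (act o κ t) (act o κ t') := by
  rcases h with h | ⟨i, i', h, h', hp⟩
  · exact Or.inl (by rw [h])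
  · subst h h'
    cases hk : κ j with
    | none =>
      rw [act_none o hk, act_none o hk]
      exact Or.inr ⟨_, _, rfl, rfl, hp⟩
    | some k =>
      rw [act_some o hk, act_some o hk]
      exact Or.inr ⟨_, _, rfl, rfl, hπ k _ _ hp⟩

end

end Infl

end P183
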