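import Vale.Agent.P183.Infl

/-!
# P183: the operations of the overalgebra and its congruences
-/

namespace P183

namespace Infl

section

variable {B J : Type} (C : J → Setoid B) (y : B) {X : J → Type} {ι : J → Type}
  (o : ∀ j, ι j → X j → X j) (a : (Σ j, X j) → B)

/-- apply `g` in every outer copy -/
def tMap (g : B → B) : Pt B X → Pt B X
  | Sum.inl x => Sum.inl x
  | Sum.inr p => Sum.inr (p.1, g p.2)

/-- apply `g` in the central copy and move the indices by `w` -/
def oMap (g : B → B) (w : (Σ j, X j) → (Σ j, X j)) : Pt B X → Pt B X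
  | Sum.inl x => Sum.inl (g x)
  | Sum.inr p => Sum.inr (w p.1, p.2)

/-- index set of the operations -/
abbrev OpIx (B : Type) {J : Type} (C : J → Setoid B) (y : B) (X : J → Type) (ι : J → Type)
    (o : ∀ j, ι j → X j → X j) (a : (Σ j, X j) → B) : Type :=
  ({g : B → B // Comp C g} ⊕ (Σ j, X j)) ⊕ (J ⊕ ({g : B → B // Comp C g ∧ g y = y} ⊕
    {p : (B → B) × (∀ j, Option (ι j)) // Comp C p.1 ∧ ∀ t, p.1 (a t) = a (act o p.2 t)}))

/-- the operations -/
noncomputable def opn : OpIx B C y X ι o a → Pt B X → Pt B X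
  | Sum.inl (Sum.inl g), z => Sum.inl (g.1 (sMap a z))
  | Sum.inl (Sum.inr t), z => Sum.inr (t, sMap a z)
  | Sum.inr (Sum.inl j), z => Sum.inl (kjMap y j z)
  | Sum.inr (Sum.inr (Sum.inl g)), z => tMap g.1 z
  | Sum.inr (Sum.inr (Sum.inr p)), z => oMap p.1.1 (act o p.1.2) z

theorem kMap_tMap {g : B → B} (hg : g y = y) (z : Pt B X) :
    kMap y (tMap g z) = g (kMap y z) := by
  match z with
  | Sum.inl x => exact hg.symm
  | Sum.inr p => rfl

theorem sMap_tMap (g : B → B) (z : Pt B X) : sMap a (tMap g z) = sMap a z := by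
  match z with
  | Sum.inl x => rfl
  | Sum.inr p => rfl

theorem glue_tMap {G : Setoid (Σ j, X j)} (g : B → B) {z z' : Pt B X} (h : glue G z z') :
    glue G (tMap g z) (tMap g z') := by
  match z, z', h with
  | Sum.inr p, Sum.inr q, h => exact h

theorem kMap_oMap (g : B → B) (w : (Σ j, X j) → (Σ j, X j)) (z : Pt B X) :
    kMap y (oMap g w z) = kMap y z := by
  match z with
  | Sum.inl x => rfl
  | Sum.inr p => rfl

theorem sMap_oMap {g : B → B} {w : (Σ j, X j) → (Σ j, X j)} (h : ∀ t, g (a t) = a (w t))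
    (z : Pt B X) : sMap a (oMap g w z) = g (sMap a z) := by
  match z with
  | Sum.inl x => rfl
  | Sum.inr p => exact (h p.1).symm

theorem glue_oMap {G : Setoid (Σ j, X j)} (g : B → B) {w : (Σ j, X j) → (Σ j, X j)}
    (hw : ∀ t t', G t t' → G (w t) (w t')) {z z' : Pt B X} (h : glue G z z') :
    glue G (oMap g w z) (oMap g w z') := by
  match z, z', h with
  | Sum.inr p, Sum.inr q, h => exact hw _ _ h

/-- all operations preserve `rel D G` -/
theorem opn_rel {D : Setoid B} {G : Setoid (Σ j, X j)}
    (hD : ∀ g, Comp C g → ∀ x x', D x x' → D (g x) (g x'))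
    (hG1 : ∀ t t', G t t' → t.1 = t'.1)
    (hG2 : ∀ κ t t', G t t' → G (act o κ t) (act o κ t'))
    (i : OpIx B C y X ι o a) (z z' : Pt B X) (h : rel y a D G z z') :
    rel y a D G (opn C y o a i z) (opn C y o a i z') := by
  classical
  obtain ⟨h1, h2, h3⟩ := h
  match i with
  | Sum.inl (Sum.inl g) =>
    exact ⟨D.refl _, hD g.1 g.2 _ _ h2, Or.inl (D.refl _)⟩
  | Sum.inl (Sum.inr t) =>
    exact ⟨h2, D.refl _, Or.inr (G.refl _)⟩
  | Sum.inr (Sum.inl j) =>
    refine ⟨D.refl _, ?_, Or.inl (D.refl _)⟩
    show D (kjMap y j z) (kjMap y j z')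
    rcases h3 with h3 | h3
    · have hz : D (kjMap y j z) y := by
        match z with
        | Sum.inl x => exact D.refl _
        | Sum.inr p =>
          show D (if p.1.1 = j then p.2 else y) y
          split_ifs
          · exact h3
          · exact D.refl _
      have h3' : D (kMap y z') y := D.trans (D.symm h1) h3
      have hz' : D (kjMap y j z') y := by
        match z' with
        | Sum.inl x => exact D.refl _
        | Sum.inr p =>
          show D (if p.1.1 = j then p.2 else y) y
          split_ifs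
          · exact h3'
          · exact D.refl _
      exact D.trans hz (D.symm hz')
    · match z, z', h3 with
      | Sum.inr p, Sum.inr q, h3 =>
        have e := hG1 _ _ h3
        show D (if p.1.1 = j then p.2 else y) (if q.1.1 = j then q.2 else y)
        rw [e]
        split_ifs
        · exact h1
        · exact D.refl _
  | Sum.inr (Sum.inr (Sum.inl g)) =>
    refine ⟨?_, ?_, ?_⟩
    · show D (kMap y (tMap g.1 z)) (kMap y (tMap g.1 z'))
      rw [kMap_tMap y g.2.2, kMap_tMap y g.2.2]
      exact hD g.1 g.2.1 _ _ h1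
    · show D (sMap a (tMap g.1 z)) (sMap a (tMap g.1 z'))
      rw [sMap_tMap, sMap_tMap]
      exact h2
    · show D (kMap y (tMap g.1 z)) y ∨ glue G (tMap g.1 z) (tMap g.1 z')
      rcases h3 with h3 | h3
      · left
        rw [kMap_tMap y g.2.2]
        have := hD g.1 g.2.1 _ _ h3
        rw [g.2.2] at this
        exact this
      · exact Or.inr (glue_tMap g.1 h3)
  | Sum.inr (Sum.inr (Sum.inr p)) =>
    refine ⟨?_, ?_, ?_⟩
    · show D (kMap y (oMap p.1.1 (act o p.1.2) z)) (kMap y (oMap p.1.1 (act o p.1.2) z'))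
      rw [kMap_oMap, kMap_oMap]
      exact h1
    · show D (sMap a (oMap p.1.1 (act o p.1.2) z)) (sMap a (oMap p.1.1 (act o p.1.2) z'))
      rw [sMap_oMap a p.2.2, sMap_oMap a p.2.2]
      exact hD p.1.1 p.2.1 _ _ h2
    · show D (kMap y (oMap p.1.1 (act o p.1.2) z)) y ∨
        glue G (oMap p.1.1 (act o p.1.2) z) (oMap p.1.1 (act o p.1.2) z')
      rcases h3 with h3 | h3
      · left
        rw [kMap_oMap]
        exact h3
      · exact Or.inr (glue_oMap p.1.1 (hG2 p.1.2) h3)

/-- the bottom relation lies below all the others -/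
theorem bot_le_rel (D : Setoid B) (G : Setoid (Σ j, X j)) :
    rel y a ⊥ ⊥ ≤ rel y a D G := by
  rintro z z' ⟨h1, h2, h3⟩
  have e1 : kMap y z = kMap y z' := h1
  have e2 : sMap a z = sMap a z' := h2
  refine ⟨by rw [e1], by rw [e2], ?_⟩
  rcases h3 with h3 | h3
  · have e3 : kMap y z = y := h3
    exact Or.inl (by rw [e3])
  · right
    match z, z', h3 with
    | Sum.inr p, Sum.inr q, h3 =>
      have e : p.1 = q.1 := h3
      show G p.1 q.1
      rw [e]

/-- the congruences attached to the pairs (congruence of the base, congruence of the index algebra) -/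
def cong (p : Σ j, UCon (o j)) : Setoid (Pt B X) := rel y a (C p.1) (extS p.1 p.2.1)

theorem cong_opn (p : Σ j, UCon (o j)) (i : OpIx B C y X ι o a) (z z' : Pt B X)
    (h : cong C y o a p z z') :
    cong C y o a p (opn C y o a i z) (opn C y o a i z') :=
  opn_rel C y o a (fun _ hg x x' hx => hg p.1 x x' hx) (fun _ _ h => extS_fst h)
    (fun κ _ _ h => extS_act o (fun k x x' hx => p.2.2 k x x' hx) κ h) i z z' h

theorem bot_opn (i : OpIx B C y X ι o a) (z z' : Pt B X)
    (h : rel y a ⊥ ⊥ z z') :
    rel y a ⊥ ⊥ (opn C y o a i z) (opn C y o a i z') :=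
  opn_rel C y o a (D := ⊥) (G := ⊥)
    (fun g _ x x' hx => by
      have e : x = x' := hx
      show g x = g x'
      rw [e])
    (fun t t' h => by
      have e : t = t' := h
      rw [e])
    (fun κ t t' h => by
      have e : t = t' := h
      show act o κ t = act o κ t'
      rw [e]) i z z' h

end

end Infl

end P183
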