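import Vale.Agent.P183.Infl2

/-!
# P183: the congruences of the overalgebra
-/

namespace P183

namespace Infl

/-- hypotheses on the base family, the base point and the tie points -/
structure Good {B J : Type} (C : J → Setoid B) (y : B) {X : J → Type} {ι : J → Type}
    (o : ∀ j, ι j → X j → X j) (a : (Σ j, X j) → B) : Prop where
  inj : Function.Injective C
  closed : ∀ r : Setoid B, (∀ g, Comp C g → ∀ x x', r x x' → r (g x) (g x')) → ∃ j, C j = r
  tie1 : ∀ j (i i' : X j), C j (a ⟨j, i⟩) (a ⟨j, i'⟩)
  tie2 : ∀ j (i i' : X j), i ≠ i' → ∀ l, C l (a ⟨j, i⟩) (a ⟨j, i'⟩) → C j ≤ C l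
  r1 : ∀ j (i i' : X j), i ≠ i' → ∀ u, ¬ C j u y → ∀ u', ∃ g, Comp C g ∧ g y = y ∧ C j (g u) u'
  r1' : ∀ j (i i' : X j), i ≠ i' → ∃ u, ¬ C j u y
  r1'' : ∀ j (i i' : X j), i ≠ i' → ∀ l, C j ≤ C l → l = j ∨ C l = ⊤
  r3 : ∀ κ : (∀ j, Option (ι j)), ∃ g, Comp C g ∧ ∀ t, g (a t) = a (act o κ t)

/-- the order on the pairs -/
def lexLe {B J : Type} (C : J → Setoid B) {M : J → Type} (le : ∀ j, M j → M j → Prop)
    (p q : Σ j, M j) : Prop :=
  C p.1 < C q.1 ∨ ∃ (j : J) (x x' : M j), p = ⟨j, x⟩ ∧ q = ⟨j, x'⟩ ∧ le j x x'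

section

variable {B J : Type} {C : J → Setoid B} {y : B} {X : J → Type} {ι : J → Type}
  {o : ∀ j, ι j → X j → X j} {a : (Σ j, X j) → B}

/-- every congruence above the bottom relation is one of the list -/
theorem Good.surj (H : Good C y o a) (E : Setoid (Pt B X)) (hE : rel y a ⊥ ⊥ ≤ E)
    (hop : ∀ (i : OpIx B C y X ι o a) z z', E z z' → E (opn C y o a i z) (opn C y o a i z')) :
    ∃ p, cong C y o a p = E := by
  classical
  -- the restriction to the central copy
  have idC : Comp C (fun x : B => x) := fun _ _ _ h => h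
  obtain ⟨j, hj⟩ := H.closed (Setoid.comap Sum.inl E) (fun g hg x x' h =>
    hop (Sum.inl (Sum.inl ⟨g, hg⟩)) (Sum.inl x) (Sum.inl x') h)
  have hj' : ∀ x x' : B, C j x x' ↔ E (Sum.inl x) (Sum.inl x') := by
    intro x x'
    rw [hj]
    exact Iff.rfl
  -- forcing
  have hs : ∀ z z', E z z' → C j (sMap a z) (sMap a z') := fun z z' h =>
    (hj' _ _).2 (hop (Sum.inl (Sum.inl ⟨_, idC⟩)) z z' h)
  have hk : ∀ l z z', E z z' → C j (kjMap y l z) (kjMap y l z') := fun l z z' h =>
    (hj' _ _).2 (hop (Sum.inr (Sum.inl l)) z z' h)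
  have hcopy : ∀ t u v, C j u v → E (Sum.inr (t, u)) (Sum.inr (t, v)) := fun t u v h =>
    hop (Sum.inl (Sum.inr t)) (Sum.inl u) (Sum.inl v) ((hj' _ _).1 h)
  have htie : ∀ t, E (Sum.inr (t, y)) (Sum.inl (a t)) := fun t =>
    hE ⟨rfl, rfl, Or.inl rfl⟩
  have hbase : ∀ z : Pt B X, C j (kMap y z) y → E z (Sum.inl (sMap a z)) := by
    intro z hz
    match z, hz with
    | Sum.inl x, _ => exact E.refl _
    | Sum.inr p, hz => exact E.trans (hcopy p.1 p.2 y hz) (htie p.1)
  -- the index congruence
  let π : Setoid (X j) :=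
    { r := fun i i' => ∀ u, E (Sum.inr (⟨j, i⟩, u)) (Sum.inr (⟨j, i'⟩, u))
      iseqv := ⟨fun i u => E.refl _, fun h u => E.symm (h u),
        fun h h' u => E.trans (h u) (h' u)⟩ }
  have hπ : ∀ (k : ι j) (i i' : X j), π i i' → π (o j k i) (o j k i') := by
    intro k i i' h u
    let κ : ∀ l, Option (ι l) := Function.update (fun _ => none) j (some k)
    have hκ : κ j = some k := Function.update_self _ _ _
    obtain ⟨g, hg, hga⟩ := H.r3 κ
    have := hop (Sum.inr (Sum.inr (Sum.inr ⟨(g, κ), hg, hga⟩))) _ _ (h u)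
    change E (Sum.inr (act o κ ⟨j, i⟩, u)) (Sum.inr (act o κ ⟨j, i'⟩, u)) at this
    rw [act_some o hκ, act_some o hκ] at this
    exact this
  refine ⟨⟨j, π, hπ⟩, ?_⟩
  apply Setoid.ext
  intro z z'
  constructor
  · rintro ⟨h1, h2, h3⟩
    rcases h3 with h3 | h3
    · have h3' : C j (kMap y z') y := (C j).trans ((C j).symm h1) h3
      exact E.trans (hbase z h3) (E.trans ((hj' _ _).1 h2) (E.symm (hbase z' h3')))
    · match z, z', h1, h3 with
      | Sum.inr (t, u), Sum.inr (t', u'), h1, h3 =>
        rcases h3 with h3 | ⟨i, i', e, e', hp⟩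
        · have e : t = t' := h3
          subst e
          exact hcopy t u u' h1
        · have e : t = ⟨j, i⟩ := e
          have e' : t' = ⟨j, i'⟩ := e'
          subst e e'
          exact E.trans (hcopy _ u u' h1) (hp u')
  · intro h
    have h2 := hs z z' h
    -- the coordinates are related
    have h13 : C j (kMap y z) (kMap y z') ∧ (C j (kMap y z) y ∨
        glue (extS j π) z z') := by
      match z, z', h, h2 with
      | Sum.inl x, Sum.inl x', h, _ => exact ⟨(C j).refl _, Or.inl ((C j).refl _)⟩
      | Sum.inl x, Sum.inr (t, u), h, _ =>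
        have := hk t.1 _ _ h
        simp only [kjMap, if_true] at this
        exact ⟨this, Or.inl ((C j).refl _)⟩
      | Sum.inr (t, u), Sum.inl x, h, _ =>
        have := hk t.1 _ _ h
        simp only [kjMap, if_true] at this
        exact ⟨this, Or.inl this⟩
      | Sum.inr (t, u), Sum.inr (t', u'), h, h2 =>
        by_cases htt : t.1 = t'.1
        · have huu : C j u u' := by
            have := hk t.1 _ _ h
            simp only [kjMap, if_true, htt] at this
            exact this
          refine ⟨huu, ?_⟩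
          by_cases huy : C j u y
          · exact Or.inl huy
          · right
            obtain ⟨l, i⟩ := t
            obtain ⟨l', i'⟩ := t'
            have htt : l = l' := htt
            subst htt
            by_cases hii : i = i'
            · subst hii
              exact (extS j π).refl _
            · have hle : C l ≤ C j := H.tie2 l i i' hii j h2
              rcases H.r1'' l i i' hii j hle with hjl | htop
              · subst hjl
                refine Or.inr ⟨i, i', rfl, rfl, ?_⟩
                intro w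
                obtain ⟨g, hg, hgy, hgw⟩ := H.r1 j i i' hii u huy w
                have h' : E (Sum.inr (⟨j, i⟩, u)) (Sum.inr (⟨j, i'⟩, u)) :=
                  E.trans h (hcopy _ _ _ ((C j).symm huu))
                have h'' : E (Sum.inr (⟨j, i⟩, g u)) (Sum.inr (⟨j, i'⟩, g u)) :=
                  hop (Sum.inr (Sum.inr (Sum.inl ⟨g, hg, hgy⟩))) _ _ h'
                exact E.trans (hcopy _ _ _ ((C j).symm hgw)) (E.trans h'' (hcopy _ _ _ hgw))
              · exact absurd (by rw [htop]; trivial) huy
        · have htt' : ¬ t'.1 = t.1 := fun e => htt e.symm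
          have e1 : C j u y := by
            have := hk t.1 _ _ h
            simp only [kjMap, if_true, htt', if_false] at this
            exact this
          have e2 : C j y u' := by
            have := hk t'.1 _ _ h
            simp only [kjMap, if_true, htt, if_false] at this
            exact this
          exact ⟨(C j).trans e1 e2, Or.inl e1⟩
    exact ⟨h13.1, h2, h13.2⟩

/-- the order of the congruences -/
theorem Good.cong_le (H : Good C y o a) (p q : Σ j, UCon (o j)) :
    cong C y o a p ≤ cong C y o a q ↔ lexLe C (fun _ x x' => x ≤ x') p q := by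
  constructor
  · intro h
    have hle : C p.1 ≤ C q.1 := by
      intro x x' hx
      exact (h (x := Sum.inl x) (y := Sum.inl x') ⟨(C p.1).refl _, hx, Or.inl ((C p.1).refl _)⟩).2.1
    by_cases hlt : C p.1 < C q.1
    · exact Or.inl hlt
    · right
      have heq : C p.1 = C q.1 := le_antisymm hle (by
        by_contra hne
        exact hlt (lt_of_le_not_ge hle hne))
      have heq' : p.1 = q.1 := H.inj heq
      obtain ⟨j, π⟩ := p
      obtain ⟨l, ρ⟩ := q
      have heq' : j = l := heq'
      subst heq'
      refine ⟨j, π, ρ, rfl, rfl, ?_⟩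
      intro i i' hi
      by_cases hii : i = i'
      · subst hii
        exact ρ.1.refl _
      · obtain ⟨u, hu⟩ := H.r1' j i i' hii
        have h1 : cong C y o a ⟨j, π⟩ (Sum.inr (⟨j, i⟩, u)) (Sum.inr (⟨j, i'⟩, u)) :=
          ⟨(C j).refl _, H.tie1 j i i', Or.inr (extS_mk.2 hi)⟩
        rcases (h h1).2.2 with h2 | h2
        · exact absurd h2 hu
        · exact extS_mk.1 h2
  · rintro (hlt | ⟨j, π, ρ, rfl, rfl, hle⟩)
    · rintro z z' ⟨h1, h2, h3⟩
      refine ⟨hlt.le h1, hlt.le h2, ?_⟩
      rcases h3 with h3 | h3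
      · exact Or.inl (hlt.le h3)
      · obtain ⟨j, π⟩ := p
        match z, z', h1, h3 with
        | Sum.inr (t, u), Sum.inr (t', u'), h1, h3 =>
          rcases h3 with h3 | ⟨i, i', e, e', hp⟩
          · exact Or.inr (Or.inl h3)
          · by_cases hii : i = i'
            · subst hii
              exact Or.inr (Or.inl (e.trans e'.symm))
            · rcases H.r1'' j i i' hii q.1 hlt.le with h | h
              · have hlt' : C j < C q.1 := hlt
                rw [h] at hlt'
                exact absurd hlt' (lt_irrefl _)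
              · left
                rw [h]
                trivial
    · rintro z z' ⟨h1, h2, h3⟩
      refine ⟨h1, h2, ?_⟩
      rcases h3 with h3 | h3
      · exact Or.inl h3
      · match z, z', h3 with
        | Sum.inr (t, u), Sum.inr (t', u'), h3 =>
          rcases h3 with h3 | ⟨i, i', e, e', hp⟩
          · exact Or.inr (Or.inl h3)
          · exact Or.inr (Or.inr ⟨i, i', e, e', hle hp⟩)

/-- the pairs are the congruences of a finite unary algebra -/
theorem Good.urep (H : Good C y o a) [Finite B] [Finite J] [∀ j, Finite (X j)]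
    [∀ j, Finite (ι j)] : URep (Σ j, UCon (o j)) (lexLe C (fun _ x x' => x ≤ x')) := by
  have : Nonempty (Pt B X) := ⟨Sum.inl y⟩
  have : Finite (Pt B X) := inferInstance
  have : Finite (OpIx B C y X ι o a) := inferInstance
  exact URep.ofAbove (opn C y o a) (rel y a ⊥ ⊥) (bot_opn C y o a) (cong C y o a)
    (fun p => bot_le_rel y a _ _) (cong_opn C y o a) H.surj H.cong_le

end

end Infl

end P183
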