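import Vale.Agent.P183.Infl3

/-!
# P183: the power of the base with evaluation tie points
-/

namespace P183

namespace Infl

/-- the member `C j` is a proper congruence outside of which compatible maps are transitive -/
def Trans {A J : Type} (C : J → Setoid A) (j : J) : Prop :=
  (∃ p q, ¬ C j p q) ∧ ∀ p q, ¬ C j p q → ∀ c d, ∃ g, Comp C g ∧ g p = c ∧ C j (g q) d

section

variable {A J : Type} (C : J → Setoid A) (X : J → Type) {ι : J → Type}
  (o : ∀ j, ι j → X j → X j)

/-- exponent of the power -/
abbrev Ex : Type := {h : (Σ j, X j) → A // ∀ j (i i' : X j), C j (h ⟨j, i⟩) (h ⟨j, i'⟩)}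

/-- powers of the congruences -/
def CP (Y : Type) (j : J) : Setoid (Y → A) where
  r x x' := ∀ e, C j (x e) (x' e)
  iseqv := ⟨fun _ _ => (C j).refl _, fun h e => (C j).symm (h e),
    fun h h' e => (C j).trans (h e) (h' e)⟩

theorem CP_le {Y : Type} [Nonempty Y] (j l : J) : CP C Y j ≤ CP C Y l ↔ C j ≤ C l := by
  constructor
  · intro h p q hpq
    exact (h (x := fun _ => p) (y := fun _ => q) (fun _ => hpq)) (Classical.arbitrary Y)
  · intro h x x' hx e
    exact h (hx e)

theorem CP_closed {Y : Type} [Finite Y] [Nonempty Y]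
    (closed : ∀ r : Setoid A, (∀ g, Comp C g → ∀ x x', r x x' → r (g x) (g x')) → ∃ j, C j = r)
    (r : Setoid (Y → A))
    (hr : ∀ g, Comp (CP C Y) g → ∀ x x', r x x' → r (g x) (g x')) : ∃ j, CP C Y j = r := by
  classical
  obtain ⟨_⟩ := nonempty_fintype Y
  obtain ⟨j, hj⟩ := closed (Setoid.comap (fun p => fun _ : Y => p) r) (fun g hg x x' h =>
    hr (fun z e => g (z e)) (fun l z z' hz e => hg l _ _ (hz e)) _ _ h)
  have hj' : ∀ p q : A, C j p q ↔ r (fun _ => p) (fun _ => q) := by
    intro p q
    rw [hj]
    exact Iff.rfl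
  refine ⟨j, ?_⟩
  apply Setoid.ext
  intro x x'
  constructor
  · intro h
    have key : ∀ F : Finset Y, r x (fun e => if e ∈ F then x' e else x e) := by
      intro F
      induction F using Finset.induction_on with
      | empty => simp only [Finset.notMem_empty, if_false]; exact r.refl _
      | insert e F he ih =>
        refine r.trans ih ?_
        have h1 := (hj' _ _).1 (h e)
        have h2 := hr (fun z e' => if e' = e then z e else if e' ∈ F then x' e' else x e')
          (by
            intro l z z' hz e'
            show C l (if e' = e then z e else if e' ∈ F then x' e' else x e')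
              (if e' = e then z' e else if e' ∈ F then x' e' else x e')
            split_ifs
            · exact hz e
            · exact (C l).refl _
            · exact (C l).refl _) _ _ h1
        have e1 : (fun e' => if e' = e then x e else if e' ∈ F then x' e' else x e') =
            (fun e' => if e' ∈ F then x' e' else x e') := by
          funext e'
          by_cases h : e' = e
          · subst h
            simp [he]
          · simp [h]
        have e2 : (fun e' => if e' = e then x' e else if e' ∈ F then x' e' else x e') =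
            (fun e' => if e' ∈ insert e F then x' e' else x e') := by
          funext e'
          by_cases h : e' = e
          · subst h
            simp
          · simp [h]
        rw [← e1, ← e2]
        exact h2
    have := key Finset.univ
    simpa using this
  · intro h e
    exact (hj' _ _).2 (hr (fun z _ => z e) (fun l z z' hz _ => hz e) _ _ h)

variable {C X}

/-- the tie points: evaluations -/
def tie (t : Σ j, X j) : Ex C X → A := fun e => e.1 t

theorem good_power [Finite A] [Nonempty A] [Finite J] [∀ j, Finite (X j)]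
    (inj : Function.Injective C)
    (closed : ∀ r : Setoid A, (∀ g, Comp C g → ∀ x x', r x x' → r (g x) (g x')) → ∃ j, C j = r)
    (tr : ∀ j (i i' : X j), i ≠ i' → Trans C j) (y : Ex C X → A) :
    Good (CP C (Ex C X)) y o (tie (C := C) (X := X)) := by
  classical
  have ne : Nonempty (Ex C X) := ⟨⟨fun _ => Classical.arbitrary A, fun _ _ _ => (C _).refl _⟩⟩
  have fin : Finite (Ex C X) := inferInstance
  refine ⟨?_, ?_, ?_, ?_, ?_, ?_, ?_, ?_⟩
  · intro j l h
    apply inj
    apply le_antisymm
    · rw [← CP_le C (Y := Ex C X), h]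
    · rw [← CP_le C (Y := Ex C X), h]
  · exact CP_closed C closed
  · intro j i i' e
    exact e.2 j i i'
  · intro j i i' hii l h
    rw [CP_le]
    intro p q hpq
    have := h ⟨fun t => if t = ⟨j, i⟩ then p else q, by
      intro l' i1 i2
      show C l' (if (⟨l', i1⟩ : Σ j, X j) = ⟨j, i⟩ then p else q)
        (if (⟨l', i2⟩ : Σ j, X j) = ⟨j, i⟩ then p else q)
      split_ifs with h1 h2 h2
      · exact (C l').refl _
      · have e : l' = j := (Sigma.mk.inj h1).1
        rw [e]
        exact hpq
      · have e : l' = j := (Sigma.mk.inj h2).1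
        rw [e]
        exact (C j).symm hpq
      · exact (C l').refl _⟩
    have e1 : ¬ (⟨j, i'⟩ : Σ j, X j) = ⟨j, i⟩ := by
      intro e
      exact hii (eq_of_heq (Sigma.mk.inj e).2).symm
    simp only [tie, if_true, e1, if_false] at this
    exact this
  · intro j i i' hii u hu u'
    have : ∃ e, ¬ C j (u e) (y e) := by
      by_contra hcon
      push Not at hcon
      exact hu hcon
    obtain ⟨e0, he0⟩ := this
    have hne : ¬ C j (y e0) (u e0) := fun h => he0 ((C j).symm h)
    choose g hg1 hg2 hg3 using fun e => (tr j i i' hii).2 (y e0) (u e0) hne (y e) (u' e)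
    refine ⟨fun x e => g e (x e0), ?_, ?_, ?_⟩
    · intro l x x' h e
      exact hg1 e l _ _ (h e0)
    · funext e
      exact hg2 e
    · intro e
      exact hg3 e
  · intro j i i' hii
    obtain ⟨p, q, hpq⟩ := (tr j i i' hii).1
    obtain ⟨e⟩ := ne
    by_cases h : C j p (y e)
    · refine ⟨fun _ => q, fun h' => hpq ((C j).trans h ((C j).symm (h' e)))⟩
    · exact ⟨fun _ => p, fun h' => h (h' e)⟩
  · intro j i i' hii l hle
    rw [CP_le] at hle
    by_cases h : C l ≤ C j
    · exact Or.inl (inj (le_antisymm h hle))
    · right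
      have : ∃ p q, C l p q ∧ ¬ C j p q := by
        by_contra hcon
        push Not at hcon
        exact h (fun p q hpq => hcon p q hpq)
      obtain ⟨p, q, hpq, hn⟩ := this
      have htop : ∀ c d, C l c d := by
        intro c d
        obtain ⟨g, hg, hgp, hgq⟩ := (tr j i i' hii).2 p q hn c d
        have h1 := hg l p q hpq
        rw [hgp] at h1
        exact (C l).trans h1 (hle hgq)
      apply Setoid.ext
      intro x x'
      exact ⟨fun _ => trivial, fun _ e => htop _ _⟩
  · intro κ
    refine ⟨fun x e => x ⟨fun t => e.1 (act o κ t), ?_⟩, ?_, ?_⟩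
    · intro l i1 i2
      exact e.2 l _ _
    · intro l x x' h e
      exact h _
    · intro t
      rfl

/-- **Inflation theorem** for unary algebras: replace every congruence `C j` of the base which
has the transitivity property by an arbitrary congruence lattice. -/
theorem inflate [Finite A] [Nonempty A] (inj : Function.Injective C)
    (closed : ∀ r : Setoid A, (∀ g, Comp C g → ∀ x x', r x x' → r (g x) (g x')) → ∃ j, C j = r)
    {M : J → Type} {le : ∀ j, M j → M j → Prop} (hM : ∀ j, URep (M j) (le j))
    (tr : ∀ j, Trans C j ∨ Subsingleton (M j)) :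
    URep (Σ j, M j) (lexLe C le) := by
  classical
  have hJ : Finite J := Finite.of_injective (fun j => fun a b : A => C j a b) (by
    intro j l h
    apply inj
    apply Setoid.ext
    intro a b
    exact iff_of_eq (congrFun (congrFun h a) b))
  choose X hX hX0 ι hι o c hc hle using hM
  have tr' : ∀ j (i i' : X j), i ≠ i' → Trans C j := by
    intro j i i' hii
    rcases tr j with h | h
    · exact h
    · exfalso
      obtain ⟨m, hm⟩ := hc j ⟨⊤, fun _ _ _ _ => trivial⟩
      obtain ⟨m', hm'⟩ := hc j ⟨⊥, fun k x x' h => by
        have e : x = x' := h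
        show o j k x = o j k x'
        rw [e]⟩
      have : m = m' := h.allEq m m'
      rw [this, hm'] at hm
      have h1 : (⊥ : Setoid (X j)) = ⊤ := congrArg Subtype.val hm
      have h2 : (⊥ : Setoid (X j)) i i' := by
        rw [h1]
        trivial
      exact hii h2
  have G := good_power (C := C) (X := X) o inj closed tr' (fun _ => Classical.arbitrary A)
  obtain ⟨Z, hZ, hZ0, κ, hκ, f, d, hd, hdle⟩ := G.urep
  refine ⟨Z, hZ, hZ0, κ, hκ, f, fun p => d ⟨p.1, c p.1 p.2⟩, ?_, ?_⟩
  · intro r
    obtain ⟨⟨j, π⟩, hp⟩ := hd r
    obtain ⟨m, hm⟩ := hc j π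
    exact ⟨⟨j, m⟩, by rw [← hp, ← hm]⟩
  · intro p q
    rw [hdle]
    have ne : Nonempty (Ex C X) := ⟨⟨fun _ => Classical.arbitrary A, fun _ _ _ => (C _).refl _⟩⟩
    have hlt : CP C (Ex C X) p.1 < CP C (Ex C X) q.1 ↔ C p.1 < C q.1 := by
      rw [lt_iff_le_not_ge, lt_iff_le_not_ge, CP_le, CP_le]
    constructor
    · rintro (h | ⟨j, π, ρ, h1, h2, h3⟩)
      · exact Or.inl (hlt.1 h)
      · right
        obtain ⟨p1, p2⟩ := p
        obtain ⟨q1, q2⟩ := q
        have e1 : p1 = j := congrArg Sigma.fst h1
        have e2 : q1 = j := congrArg Sigma.fst h2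
        subst e1 e2
        have e3 : c q1 p2 = π := eq_of_heq (Sigma.mk.inj h1).2
        have e4 : c q1 q2 = ρ := eq_of_heq (Sigma.mk.inj h2).2
        refine ⟨q1, p2, q2, rfl, rfl, ?_⟩
        rw [← hle, e3, e4]
        exact h3
    · rintro (h | ⟨j, m, m', h1, h2, h3⟩)
      · exact Or.inl (hlt.2 h)
      · subst h1 h2
        exact Or.inr ⟨j, c j m, c j m', rfl, rfl, (hle j m m').2 h3⟩

end

end Infl

end P183
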