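import Vale.Agent.P183.Infl4

/-!
# P183: algebras with a Mal'cev function, the inflation theorem
-/

namespace P183

/-- one-variable translations of the basic operations decide congruences -/
theorem isCong_of_unary {A : Type} {k : ℕ} (ar : Fin k → ℕ)
    (op : ∀ i : Fin k, (Fin (ar i) → A) → A) (r : Setoid A)
    (h : ∀ (i : Fin k) (j : Fin (ar i)) (x : Fin (ar i) → A) (p q : A), r p q →
      r (op i (Function.update x j p)) (op i (Function.update x j q))) : IsCong ar op r := by
  classical
  intro i x y hxy
  have key : ∀ F : Finset (Fin (ar i)), r (op i x) (op i (fun j => if j ∈ F then y j else x j)) := by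
    intro F
    induction F using Finset.induction_on with
    | empty => simp only [Finset.notMem_empty, if_false]; exact r.refl _
    | insert e F he ih =>
      refine r.trans ih ?_
      have h1 := h i e (fun j => if j ∈ F then y j else x j) (x e) (y e) (hxy e)
      have e1 : Function.update (fun j => if j ∈ F then y j else x j) e (x e) =
          (fun j => if j ∈ F then y j else x j) := by
        funext j
        by_cases hj : j = e
        · subst hj
          simp [he]
        · simp [hj]
      have e2 : Function.update (fun j => if j ∈ F then y j else x j) e (y e) =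
          (fun j => if j ∈ insert e F then y j else x j) := by
        funext j
        by_cases hj : j = e
        · subst hj
          simp
        · simp [hj]
      rw [e1, e2] at h1
      exact h1
  have := key Finset.univ
  simpa using this

theorem isCong_unary {A : Type} {k : ℕ} {ar : Fin k → ℕ}
    {op : ∀ i : Fin k, (Fin (ar i) → A) → A} {r : Setoid A} (hr : IsCong ar op r)
    (i : Fin k) (j : Fin (ar i)) (x : Fin (ar i) → A) (p q : A) (hpq : r p q) :
    r (op i (Function.update x j p)) (op i (Function.update x j q)) := by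
  apply hr
  intro l
  by_cases hl : l = j
  · subst hl
    simpa using hpq
  · simp only [Function.update_of_ne hl]
    exact r.refl _

/-- a representable lattice is the congruence lattice of a finite unary algebra -/
theorem Representable.urep {L : Type} [Lattice L] (h : Representable L) :
    URep L (fun x x' => x ≤ x') := by
  obtain ⟨A, hA, hA0, k, ar, op, ⟨Φ⟩⟩ := h
  refine ⟨A, hA, hA0, Σ i : Fin k, Fin (ar i) × (Fin (ar i) → A), inferInstance,
    fun t p => op t.1 (Function.update t.2.2 t.2.1 p), fun l => ⟨(Φ.symm l).1, ?_⟩, ?_, ?_⟩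
  · intro t p q hpq
    exact isCong_unary (Φ.symm l).2 t.1 t.2.1 t.2.2 p q hpq
  · rintro ⟨r, hr⟩
    refine ⟨Φ ⟨r, isCong_of_unary ar op r (fun i j x p q hpq => hr ⟨i, j, x⟩ p q hpq)⟩, ?_⟩
    apply Subtype.ext
    simp
  · intro p q
    exact Φ.symm.le_iff_le

namespace Infl

/-- congruences of a finite algebra form a closed family -/
theorem closed_alg {A : Type} {k : ℕ} (ar : Fin k → ℕ) (op : ∀ i : Fin k, (Fin (ar i) → A) → A)
    (r : Setoid A) (hr : ∀ g, Comp (fun s : {s : Setoid A // IsCong ar op s} => s.1) g →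
      ∀ x x', r x x' → r (g x) (g x')) :
    ∃ s : {s : Setoid A // IsCong ar op s}, s.1 = r := by
  refine ⟨⟨r, isCong_of_unary ar op r ?_⟩, rfl⟩
  intro i j x p q hpq
  exact hr (fun p => op i (Function.update x j p)) (fun s p q h => isCong_unary s.2 i j x p q h)
    p q hpq

/-- coatoms of the congruence lattice of an algebra with a Mal'cev function are transitive -/
theorem trans_of_malcev {A J : Type} (C : J → Setoid A)
    (closed : ∀ r : Setoid A, (∀ g, Comp C g → ∀ x x', r x x' → r (g x) (g x')) → ∃ j, C j = r)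
    (mal : A → A → A → A) (m1 : ∀ x y, mal x y y = x) (m2 : ∀ x y, mal x x y = y)
    (m3 : ∀ j x x' y y' z z', C j x x' → C j y y' → C j z z' → C j (mal x y z) (mal x' y' z'))
    (j : J) (hj : C j ≠ ⊤) (hmax : ∀ l, C j < C l → C l = ⊤) : Trans C j := by
  have hcomp : ∀ g1 g2 g3, Comp C g1 → Comp C g2 → Comp C g3 →
      Comp C (fun x => mal (g1 x) (g2 x) (g3 x)) := fun g1 g2 g3 h1 h2 h3 l x x' h =>
    m3 l _ _ _ _ _ _ (h1 l _ _ h) (h2 l _ _ h) (h3 l _ _ h)
  have hconst : ∀ c : A, Comp C (fun _ => c) := fun c l x x' _ => (C l).refl _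
  constructor
  · by_contra hcon
    push Not at hcon
    apply hj
    apply Setoid.ext
    intro x x'
    exact ⟨fun _ => trivial, fun _ => hcon x x'⟩
  · intro p q hpq
    -- the relation generated
    let Q : A → A → Prop := fun c d => ∃ g, Comp C g ∧ g p = c ∧ C j (g q) d
    have Qm : ∀ x x' y y' z z', Q x x' → Q y y' → Q z z' → Q (mal x y z) (mal x' y' z') := by
      rintro x x' y y' z z' ⟨g1, h1, e1, f1⟩ ⟨g2, h2, e2, f2⟩ ⟨g3, h3, e3, f3⟩
      refine ⟨fun u => mal (g1 u) (g2 u) (g3 u), hcomp _ _ _ h1 h2 h3, ?_, ?_⟩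
      · show mal (g1 p) (g2 p) (g3 p) = mal x y z
        rw [e1, e2, e3]
      · exact m3 j _ _ _ _ _ _ f1 f2 f3
    have Qr : ∀ x, Q x x := fun x => ⟨fun _ => x, hconst x, rfl, (C j).refl _⟩
    have Qs : ∀ {x x'}, Q x x' → Q x' x := by
      intro x x' h
      have := Qm _ _ _ _ _ _ (Qr x) h (Qr x')
      rw [m2, m1] at this
      exact this
    have Qt : ∀ {x x' x''}, Q x x' → Q x' x'' → Q x x'' := by
      intro x x' x'' h h'
      have := Qm _ _ _ _ _ _ h (Qr x') h'
      rw [m1, m2] at this
      exact this
    let R : Setoid A := ⟨Q, Qr, Qs, Qt⟩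
    obtain ⟨l, hl⟩ := closed R (by
      rintro g hg x x' ⟨g1, h1, e1, f1⟩
      refine ⟨fun u => g (g1 u), fun l x x' h => hg l _ _ (h1 l _ _ h), ?_, ?_⟩
      · show g (g1 p) = g x
        rw [e1]
      · exact hg j _ _ f1)
    have hle : C j ≤ C l := by
      rw [hl]
      intro x x' h
      exact ⟨fun _ => x, hconst x, rfl, h⟩
    have hpq' : C l p q := by
      rw [hl]
      exact ⟨fun u => u, fun _ _ _ h => h, rfl, (C j).refl _⟩
    have htop : C l = ⊤ := by
      apply hmax l
      refine lt_of_le_not_ge hle (fun h => hpq (h hpq'))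
    intro c d
    have : C l c d := by
      rw [htop]
      trivial
    rw [hl] at this
    exact this

end Infl

/-- **Inflation theorem.** -/
theorem inflation (A : Type) [Finite A] [Nonempty A] (k : ℕ) (ar : Fin k → ℕ)
    (op : ∀ i : Fin k, (Fin (ar i) → A) → A) (mal : A → A → A → A)
    (m1 : ∀ x y, mal x y y = x) (m2 : ∀ x y, mal x x y = y)
    (m3 : ∀ r : Setoid A, IsCong ar op r → ∀ x x' y y' z z', r x x' → r y y' → r z z' →
      r (mal x y z) (mal x' y' z'))
    (M : {r : Setoid A // IsCong ar op r} → Type) [∀ r, Lattice (M r)]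
    (hM : ∀ r, Representable (M r))
    (hco : ∀ r, ¬ Subsingleton (M r) → r.1 ≠ ⊤ ∧ ∀ s : {s : Setoid A // IsCong ar op s},
      r < s → s.1 = ⊤)
    (L : Type) [Lattice L] (e : L ≃o Σₗ r, M r) : Representable L := by
  have h := Infl.inflate (A := A) (C := fun s : {s : Setoid A // IsCong ar op s} => s.1)
    Subtype.val_injective (Infl.closed_alg ar op) (M := M) (le := fun r x x' => x ≤ x')
    (fun r => (hM r).urep) (by
      intro r
      by_cases hs : Subsingleton (M r)
      · exact Or.inr hs
      · left
        obtain ⟨h1, h2⟩ := hco r hs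
        exact Infl.trans_of_malcev _ (Infl.closed_alg ar op) mal m1 m2
          (fun j x x' y y' z z' hx hy hz => m3 j.1 j.2 x x' y y' z z' hx hy hz) r h1
          (fun l hl => h2 l hl))
  refine h.representable L (Equiv.trans toLex e.symm.toEquiv) ?_
  rintro ⟨r, x⟩ ⟨s, x'⟩
  show e.symm (toLex _) ≤ e.symm (toLex _) ↔ _
  rw [e.symm.le_iff_le]
  constructor
  · intro hle
    rcases Sigma.Lex.le_def.1 hle with hlt | ⟨heq, hle⟩
    · exact Or.inl hlt
    · have heq : r = s := heq
      subst heq
      exact Or.inr ⟨r, x, x', rfl, rfl, hle⟩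
  · rintro (hlt | ⟨j, y, y', h1, h2, h3⟩)
    · exact Sigma.Lex.left _ _ hlt
    · have e1 : r = j := congrArg Sigma.fst h1
      have e2 : s = j := congrArg Sigma.fst h2
      subst e1 e2
      have e3 : x = y := eq_of_heq (Sigma.mk.inj h1).2
      have e4 : x' = y' := eq_of_heq (Sigma.mk.inj h2).2
      subst e3 e4
      exact Sigma.Lex.right _ _ h3

end P183
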