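import Vale.Agent.P183.Infl5

/-!
# P183: parallel sums of `q + 1` representable lattices
-/

namespace P183

namespace Par

/-- index of the subspaces of a plane: `0`, the plane, and the lines -/
inductive JJ (I : Type) : Type
  | bot : JJ I
  | top : JJ I
  | mid (i : I) : JJ I

/-- a linear form with kernel the line `i` -/
def lam {K : Type} [Field K] : Option K → K × K → K
  | none, w => w.1
  | some t, w => w.2 - t * w.1

theorem lam_add {K : Type} [Field K] (i : Option K) (v w : K × K) :
    lam i (v + w) = lam i v + lam i w := by
  cases i with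
  | none => rfl
  | some t => simp only [lam, Prod.fst_add, Prod.snd_add]; ring

theorem lam_sub {K : Type} [Field K] (i : Option K) (v w : K × K) :
    lam i (v - w) = lam i v - lam i w := by
  cases i with
  | none => rfl
  | some t => simp only [lam, Prod.fst_sub, Prod.snd_sub]; ring

theorem lam_smul {K : Type} [Field K] (i : Option K) (s : K) (w : K × K) :
    lam i (s • w) = s * lam i w := by
  cases i with
  | none => rfl
  | some t => simp only [lam, Prod.smul_fst, Prod.smul_snd, smul_eq_mul]; ring

/-- a generator of the line `i` -/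
def gen {K : Type} [Field K] : Option K → K × K
  | none => (0, 1)
  | some t => (1, t)

theorem lam_gen {K : Type} [Field K] (i j : Option K) : lam i (gen j) = 0 ↔ i = j := by
  cases i with
  | none =>
    cases j with
    | none => simp [lam, gen]
    | some t => simp [lam, gen]
  | some s =>
    cases j with
    | none => simp [lam, gen]
    | some t =>
      simp only [lam, gen, mul_one, sub_eq_zero, Option.some.injEq]
      exact eq_comm

theorem gen_ne {K : Type} [Field K] (j : Option K) : gen j ≠ (0 : K × K) := by
  cases j with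
  | none => simp [gen, Prod.ext_iff]
  | some t => simp [gen, Prod.ext_iff]

theorem exists_line {K : Type} [Field K] (w : K × K) : ∃ i, lam i w = 0 := by
  by_cases h : w.1 = 0
  · exact ⟨none, h⟩
  · refine ⟨some (w.2 / w.1), ?_⟩
    simp only [lam]
    field_simp
    ring

theorem eq_smul {K : Type} [Field K] {i : Option K} {v w : K × K} (hw : w ≠ 0)
    (h : lam i w = 0) (h' : lam i v = 0) : ∃ s : K, v = s • w := by
  cases i with
  | none =>
    have h1 : w.1 = 0 := h
    have h2 : v.1 = 0 := h'
    have h3 : w.2 ≠ 0 := fun h3 => hw (Prod.ext h1 h3)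
    refine ⟨v.2 / w.2, Prod.ext ?_ ?_⟩
    · simp [h1, h2]
    · simp only [Prod.smul_snd, smul_eq_mul]
      field_simp
  | some t =>
    have h1 : w.2 = t * w.1 := sub_eq_zero.1 h
    have h2 : v.2 = t * v.1 := sub_eq_zero.1 h'
    have h3 : w.1 ≠ 0 := fun h3 => hw (Prod.ext h3 (by rw [h1, h3, mul_zero]; rfl))
    refine ⟨v.1 / w.1, Prod.ext ?_ ?_⟩
    · simp only [Prod.smul_fst, smul_eq_mul]
      field_simp
    · simp only [Prod.smul_snd, smul_eq_mul]
      rw [h1, h2]
      field_simp

/-- the congruences of the plane -/
def C {K : Type} [Field K] : JJ (Option K) → Setoid (K × K)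
  | JJ.bot => ⊥
  | JJ.top => ⊤
  | JJ.mid i => Setoid.ker (lam i)

theorem C_mid {K : Type} [Field K] (i : Option K) (v w : K × K) :
    C (JJ.mid i) v w ↔ lam i v = lam i w := Iff.rfl

theorem comp_affine {K : Type} [Field K] (s : K) (c d : K × K) :
    Infl.Comp (C (K := K)) (fun x => s • (x - c) + d) := by
  intro j x x' h
  match j, h with
  | JJ.bot, h =>
    have e : x = x' := h
    subst e
    exact (C JJ.bot).refl _
  | JJ.top, h => trivial
  | JJ.mid i, h =>
    have e : lam i x = lam i x' := h
    show lam i (s • (x - c) + d) = lam i (s • (x' - c) + d)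
    rw [lam_add, lam_add, lam_smul, lam_smul, lam_sub, lam_sub, e]

theorem C_inj {K : Type} [Field K] : Function.Injective (C (K := K)) := by
  have hb : ∀ i : Option K, C (JJ.mid i) (gen i) 0 := by
    intro i
    rw [C_mid, (lam_gen i i).2 rfl]
    have := lam_smul i (0 : K) (0 : K × K)
    simp only [zero_mul, smul_zero] at this
    exact this.symm
  have hz : ∀ i : Option K, lam i (0 : K × K) = 0 := by
    intro i
    have := lam_smul i (0 : K) (0 : K × K)
    simp only [zero_mul, smul_zero] at this
    exact this
  have hn : ∀ i j : Option K, i ≠ j → ¬ C (JJ.mid i) (gen j) 0 := by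
    intro i j hij h
    rw [C_mid, hz, lam_gen] at h
    exact hij h
  have hne : ∀ i : Option K, ∃ j, i ≠ j := by
    intro i
    cases i with
    | none => exact ⟨some 0, by simp⟩
    | some t => exact ⟨none, by simp⟩
  intro a b hab
  match a, b, hab with
  | JJ.bot, JJ.bot, _ => rfl
  | JJ.top, JJ.top, _ => rfl
  | JJ.bot, JJ.top, hab =>
    exfalso
    have h : (C JJ.bot : Setoid (K × K)) (gen none) 0 := by
      rw [hab]
      trivial
    exact gen_ne none h
  | JJ.top, JJ.bot, hab =>
    exfalso
    have h : (C JJ.bot : Setoid (K × K)) (gen none) 0 := by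
      rw [← hab]
      trivial
    exact gen_ne none h
  | JJ.bot, JJ.mid i, hab =>
    exfalso
    have h := hb i
    rw [← hab] at h
    exact gen_ne i h
  | JJ.mid i, JJ.bot, hab =>
    exfalso
    have h := hb i
    rw [hab] at h
    exact gen_ne i h
  | JJ.top, JJ.mid i, hab =>
    exfalso
    obtain ⟨j, hj⟩ := hne i
    apply hn i j hj
    rw [← hab]
    trivial
  | JJ.mid i, JJ.top, hab =>
    exfalso
    obtain ⟨j, hj⟩ := hne i
    apply hn i j hj
    rw [hab]
    trivial
  | JJ.mid i, JJ.mid j, hab =>
    by_contra hij
    have hij' : i ≠ j := fun h => hij (by rw [h])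
    have h := hb j
    rw [← hab] at h
    exact hn i j hij' h

theorem C_closed {K : Type} [Field K] (r : Setoid (K × K))
    (hr : ∀ g, Infl.Comp (C (K := K)) g → ∀ x x', r x x' → r (g x) (g x')) :
    ∃ j, C j = r := by
  have hz : ∀ i : Option K, lam i (0 : K × K) = 0 := by
    intro i
    have := lam_smul i (0 : K) (0 : K × K)
    simp only [zero_mul, smul_zero] at this
    exact this
  have h0 : ∀ x x', r x x' ↔ r (x - x') 0 := by
    intro x x'
    constructor
    · intro h
      have := hr _ (comp_affine 1 x' 0) _ _ h
      simpa using this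
    · intro h
      have := hr _ (comp_affine 1 0 x') _ _ h
      simpa using this
  have hsm : ∀ (s : K) w, r w 0 → r (s • w) 0 := by
    intro s w h
    have := hr _ (comp_affine s 0 0) _ _ h
    simpa using this
  have hadd : ∀ v w, r v 0 → r w 0 → r (v + w) 0 := by
    intro v w h h'
    have := hr _ (comp_affine 1 0 w) _ _ h
    simp only [one_smul, sub_zero, zero_add] at this
    exact r.trans this h'
  by_cases hbot : ∀ w, r w 0 → w = 0
  · refine ⟨JJ.bot, ?_⟩
    apply Setoid.ext
    intro x x'
    constructor
    · intro h
      have e : x = x' := h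
      rw [e]
    · intro h
      have := hbot _ ((h0 x x').1 h)
      exact sub_eq_zero.1 this
  · push Not at hbot
    obtain ⟨w, hw, hw0⟩ := hbot
    obtain ⟨i, hi⟩ := exists_line w
    have hker : ∀ v, lam i v = 0 → r v 0 := by
      intro v hv
      obtain ⟨s, hs⟩ := eq_smul hw0 hi hv
      rw [hs]
      exact hsm s w hw
    by_cases hall : ∀ v, r v 0 → lam i v = 0
    · refine ⟨JJ.mid i, ?_⟩
      apply Setoid.ext
      intro x x'
      rw [C_mid, h0]
      constructor
      · intro h
        apply hker
        rw [lam_sub, h, sub_self]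
      · intro h
        have := hall _ h
        rw [lam_sub] at this
        exact sub_eq_zero.1 this
    · push Not at hall
      obtain ⟨v, hv, hv0⟩ := hall
      refine ⟨JJ.top, ?_⟩
      apply Setoid.ext
      intro x x'
      constructor
      · intro _
        rw [h0]
        have e : x - x' = (lam i (x - x') / lam i v) • v +
            ((x - x') - (lam i (x - x') / lam i v) • v) := by
          rw [add_sub_cancel]
        rw [e]
        apply hadd
        · exact hsm _ _ hv
        · apply hker
          rw [lam_sub, lam_smul, div_mul_cancel₀ _ hv0, sub_self]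
      · intro _
        trivial

theorem C_trans {K : Type} [Field K] (i : Option K) : Infl.Trans (C (K := K)) (JJ.mid i) := by
  constructor
  · have hz : lam i (0 : K × K) = 0 := by
      have := lam_smul i (0 : K) (0 : K × K)
      simp only [zero_mul, smul_zero] at this
      exact this
    cases i with
    | none =>
      refine ⟨gen (some 0), 0, ?_⟩
      rw [C_mid, hz, lam_gen]
      simp
    | some t =>
      refine ⟨gen none, 0, ?_⟩
      rw [C_mid, hz, lam_gen]
      simp
  · intro p q hpq c d
    have hne : lam i q - lam i p ≠ 0 := by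
      intro h
      exact hpq ((C_mid i p q).2 (sub_eq_zero.1 h).symm)
    refine ⟨fun x => ((lam i d - lam i c) / (lam i q - lam i p)) • (x - p) + c,
      comp_affine _ _ _, ?_, ?_⟩
    · simp
    · rw [C_mid, lam_add, lam_smul, lam_sub, div_mul_cancel₀ _ hne, sub_add_cancel]

theorem C_bot_lt {K : Type} [Field K] {j : JJ (Option K)} (hj : j ≠ JJ.bot) :
    C JJ.bot < C j := by
  refine lt_of_le_of_ne bot_le ?_
  intro h
  exact hj (C_inj h).symm

theorem C_lt_top {K : Type} [Field K] {j : JJ (Option K)} (hj : j ≠ JJ.top) :
    C j < C JJ.top := by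
  refine lt_of_le_of_ne le_top ?_
  intro h
  exact hj (C_inj h)

theorem C_mid_not_lt {K : Type} [Field K] (i j : Option K) :
    ¬ C (JJ.mid i) < C (JJ.mid j) := by
  intro h
  have hz : ∀ i : Option K, lam i (0 : K × K) = 0 := by
    intro i
    have := lam_smul i (0 : K) (0 : K × K)
    simp only [zero_mul, smul_zero] at this
    exact this
  have h1 : C (JJ.mid i) (gen i) 0 := by
    rw [C_mid, hz, lam_gen]
  have h2 := h.le h1
  rw [C_mid, hz, lam_gen] at h2
  subst h2
  exact lt_irrefl _ h

end Par

end P183
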