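import Vale.Agent.P183.Infl6

/-!
# P183: parallel sums
-/

namespace P183

namespace Par

/-- the fibres: trivial over `0` and the plane -/
def MM {I : Type} (M : I → Type) : JJ I → Type
  | JJ.bot => Unit
  | JJ.top => Unit
  | JJ.mid i => M i

/-- the fibre orders -/
def leM {I : Type} (M : I → Type) [∀ i, Lattice (M i)] : ∀ j : JJ I, MM M j → MM M j → Prop
  | JJ.bot => fun _ _ => True
  | JJ.top => fun _ _ => True
  | JJ.mid i => fun x y => @LE.le (M i) _ x y

theorem urep_unit : URep Unit (fun _ _ => True) := by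
  refine ⟨Unit, inferInstance, inferInstance, Unit, inferInstance, fun _ x => x,
    fun _ => ⟨⊤, fun _ _ _ _ => trivial⟩, ?_, ?_⟩
  · intro r
    refine ⟨(), ?_⟩
    apply Subtype.ext
    apply Setoid.ext
    intro x y
    exact ⟨fun _ => r.1.refl _, fun _ => trivial⟩
  · intro p q
    exact ⟨fun _ => trivial, fun _ => le_refl _⟩

/-- the underlying equivalence -/
def toW {I : Type} (M : I → Type) : (Σ j, MM M j) → WithBot (WithTop (Σ i, M i))
  | ⟨JJ.bot, _⟩ => ⊥
  | ⟨JJ.top, _⟩ => ((⊤ : WithTop (Σ i, M i)) : WithBot (WithTop (Σ i, M i)))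
  | ⟨JJ.mid i, m⟩ => (((⟨i, m⟩ : Σ i, M i) : WithTop (Σ i, M i)) : WithBot (WithTop (Σ i, M i)))

theorem toW_bij {I : Type} (M : I → Type) : Function.Bijective (toW M) := by
  constructor
  · rintro ⟨j, m⟩ ⟨l, n⟩ h
    match j, m, l, n, h with
    | JJ.bot, m, JJ.bot, n, _ => rfl
    | JJ.top, m, JJ.top, n, _ => rfl
    | JJ.bot, m, JJ.top, n, h => exact absurd h WithBot.bot_ne_coe
    | JJ.top, m, JJ.bot, n, h => exact absurd h WithBot.coe_ne_bot
    | JJ.bot, m, JJ.mid i, n, h => exact absurd h WithBot.bot_ne_coe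
    | JJ.mid i, m, JJ.bot, n, h => exact absurd h WithBot.coe_ne_bot
    | JJ.top, m, JJ.mid i, n, h => exact absurd h (by simp [toW])
    | JJ.mid i, m, JJ.top, n, h => exact absurd h (by simp [toW])
    | JJ.mid i, m, JJ.mid i', n, h =>
      have h1 : (⟨i, m⟩ : Σ i, M i) = ⟨i', n⟩ := WithTop.coe_injective (WithBot.coe_injective h)
      have h2 : i = i' := congrArg Sigma.fst h1
      subst h2
      have h3 : m = n := eq_of_heq (Sigma.mk.inj h1).2
      subst h3
      rfl
  · intro z
    induction z using WithBot.recBotCoe with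
    | bot => exact ⟨⟨JJ.bot, ()⟩, rfl⟩
    | coe z =>
      induction z using WithTop.recTopCoe with
      | top => exact ⟨⟨JJ.top, ()⟩, rfl⟩
      | coe z => exact ⟨⟨JJ.mid z.1, z.2⟩, rfl⟩

theorem toW_le {K : Type} [Field K] (M : Option K → Type) [∀ i, Lattice (M i)]
    (p q : Σ j, MM M j) :
    toW M p ≤ toW M q ↔ Infl.lexLe (C (K := K)) (leM M) p q := by
  obtain ⟨j, m⟩ := p
  obtain ⟨l, n⟩ := q
  match j, m, l, n with
  | JJ.bot, m, JJ.bot, n =>
    exact ⟨fun _ => Or.inr ⟨JJ.bot, m, n, rfl, rfl, trivial⟩, fun _ => le_refl _⟩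
  | JJ.top, m, JJ.top, n =>
    exact ⟨fun _ => Or.inr ⟨JJ.top, m, n, rfl, rfl, trivial⟩, fun _ => le_refl _⟩
  | JJ.bot, m, JJ.top, n =>
    exact ⟨fun _ => Or.inl (C_bot_lt (by simp)), fun _ => bot_le⟩
  | JJ.bot, m, JJ.mid i, n =>
    exact ⟨fun _ => Or.inl (C_bot_lt (by simp)), fun _ => bot_le⟩
  | JJ.mid i, m, JJ.top, n =>
    exact ⟨fun _ => Or.inl (C_lt_top (by simp)), fun _ => WithBot.coe_le_coe.2 le_top⟩
  | JJ.top, m, JJ.bot, n =>
    constructor
    · intro h
      exact absurd h (by simp [toW])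
    · rintro (h | ⟨j, x, x', h1, h2, h3⟩)
      · exact absurd h (not_lt_of_ge bot_le)
      · have e1 : (JJ.top : JJ (Option K)) = j := congrArg Sigma.fst h1
        have e2 : (JJ.bot : JJ (Option K)) = j := congrArg Sigma.fst h2
        rw [← e1] at e2
        exact absurd e2 (by simp)
  | JJ.mid i, m, JJ.bot, n =>
    constructor
    · intro h
      exact absurd h (by simp [toW])
    · rintro (h | ⟨j, x, x', h1, h2, h3⟩)
      · exact absurd h (not_lt_of_ge bot_le)
      · have e1 : (JJ.mid i : JJ (Option K)) = j := congrArg Sigma.fst h1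
        have e2 : (JJ.bot : JJ (Option K)) = j := congrArg Sigma.fst h2
        rw [← e1] at e2
        exact absurd e2 (by simp)
  | JJ.top, m, JJ.mid i, n =>
    constructor
    · intro h
      exact absurd h (by simp [toW])
    · rintro (h | ⟨j, x, x', h1, h2, h3⟩)
      · exact absurd h (not_lt_of_ge le_top)
      · have e1 : (JJ.top : JJ (Option K)) = j := congrArg Sigma.fst h1
        have e2 : (JJ.mid i : JJ (Option K)) = j := congrArg Sigma.fst h2
        rw [← e1] at e2
        exact absurd e2 (by simp)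
  | JJ.mid i, m, JJ.mid i', n =>
    constructor
    · intro h
      have h1 : (⟨i, m⟩ : Σ i, M i) ≤ ⟨i', n⟩ := WithTop.coe_le_coe.1 (WithBot.coe_le_coe.1 h)
      obtain ⟨e, h2⟩ := Sigma.le_def.1 h1
      have e : i = i' := e
      subst e
      exact Or.inr ⟨JJ.mid i, m, n, rfl, rfl, h2⟩
    · rintro (h | ⟨j, x, x', h1, h2, h3⟩)
      · exact absurd h (C_mid_not_lt i i')
      · have e1 : (JJ.mid i : JJ (Option K)) = j := congrArg Sigma.fst h1
        have e2 : (JJ.mid i' : JJ (Option K)) = j := congrArg Sigma.fst h2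
        subst e1
        have e3 : i' = i := JJ.mid.inj e2
        subst e3
        have e4 : m = x := eq_of_heq (Sigma.mk.inj h1).2
        have e5 : n = x' := eq_of_heq (Sigma.mk.inj h2).2
        subst e4 e5
        exact WithBot.coe_le_coe.2 (WithTop.coe_le_coe.2 (Sigma.le_def.2 ⟨rfl, h3⟩))

theorem parallel_field (K : Type) [Field K] [Finite K] (M : Option K → Type)
    [∀ i, Lattice (M i)] (hM : ∀ i, Representable (M i)) (L : Type) [Lattice L]
    (e : L ≃o WithBot (WithTop (Σ i, M i))) : Representable L := by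
  have h := Infl.inflate (A := K × K) (C := C (K := K)) C_inj C_closed (M := MM M) (le := leM M)
    (by
      intro j
      match j with
      | JJ.bot => exact urep_unit
      | JJ.top => exact urep_unit
      | JJ.mid i => exact (hM i).urep)
    (by
      intro j
      match j with
      | JJ.bot => exact Or.inr (inferInstanceAs (Subsingleton Unit))
      | JJ.top => exact Or.inr (inferInstanceAs (Subsingleton Unit))
      | JJ.mid i => exact Or.inl (C_trans i))
  refine h.representable L ((Equiv.ofBijective _ (toW_bij M)).trans e.symm.toEquiv) ?_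
  intro p q
  show e.symm (toW M p) ≤ e.symm (toW M q) ↔ _
  rw [e.symm.le_iff_le, toW_le]

end Par

/-- **Parallel sums of `q + 1` representable lattices**, `q` a prime power. -/
theorem parallel (q : ℕ) (hq : IsPrimePow q) (M : Fin (q + 1) → Type)
    [∀ i, Lattice (M i)] (hM : ∀ i, Representable (M i)) (L : Type) [Lattice L]
    (e : L ≃o WithBot (WithTop (Σ i, M i))) : Representable L := by
  obtain ⟨p, n, hp, hn, rfl⟩ := (isPrimePow_nat_iff _).1 hq
  have : Fact p.Prime := ⟨hp⟩
  let K := GaloisField p n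
  have hK : Nat.card K = p ^ n := GaloisField.card p n hn.ne'
  have : Finite K := Nat.finite_of_card_ne_zero (by rw [hK]; exact pow_ne_zero n hp.ne_zero)
  have hc : Nat.card (Option K) = p ^ n + 1 := by
    rw [Finite.card_option, hK]
  let ε : Option K ≃ Fin (p ^ n + 1) := Finite.equivFinOfCardEq hc
  refine Par.parallel_field K (fun i => M (ε i)) (fun i => hM (ε i)) L (e.trans ?_)
  refine OrderIso.withBotCongr (OrderIso.withTopCongr ?_)
  refine (RelIso.mk (Equiv.sigmaCongrLeft ε) ?_ : (Σ i, M (ε i)) ≃o (Σ i, M i)).symm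
  rintro ⟨i, x⟩ ⟨j, y⟩
  show (⟨ε i, x⟩ : Σ i, M i) ≤ ⟨ε j, y⟩ ↔ _
  rw [Sigma.le_def, Sigma.le_def]
  constructor
  · rintro ⟨h1, h2⟩
    have h1' : i = j := ε.injective h1
    subst h1'
    exact ⟨rfl, h2⟩
  · rintro ⟨h1, h2⟩
    have h1' : i = j := h1
    subst h1'
    exact ⟨rfl, h2⟩

end P183
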