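import Vale.Agent.P183.Prime4

/-!
# P183: multiplying intervals `[a, b]`, `b` a meet of meet-primes, by representable lattices
-/

namespace P183

namespace IntM

open Infl (Comp act act_none act_some)
open _root_.P183.Prime (SS SS_mono zero)

section

variable {P J I : Type} (S : J → Set P) (bd : I → J) (B : Type) (X : I → Type)

/-- ordinary tuples -/
def Ordi (u : P → Option I) : Prop := ∀ s, ∃ q, q ∉ S (bd s) ∧ u q ≠ some s

/-- the carrier: ordinary points and special points -/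
abbrev Car : Type := {u : B × (P → Option I) // Ordi S bd u.2} ⊕ (Σ s, X s)

variable {S bd B X}

/-- the base coordinate -/
def bv (a : (Σ s, X s) → B) : Car S bd B X → B
  | Sum.inl u => u.1.1
  | Sum.inr t => a t

/-- the other coordinates -/
def ev : Car S bd B X → P → Option I
  | Sum.inl u => u.1.2
  | Sum.inr t => fun _ => some t.1

/-- the point is the special point `(s, i)` -/
def IsAt (z : Car S bd B X) (s : I) (i : X s) : Prop := z = Sum.inr ⟨s, i⟩

theorem IsAt.inj {z : Car S bd B X} {s : I} {i i' : X s} (h : IsAt z s i) (h' : IsAt z s i') :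
    i = i' := by
  have h1 := Sum.inr.inj (h.symm.trans h')
  exact eq_of_heq (Sigma.mk.inj h1).2

theorem ev_at {z : Car S bd B X} {s : I} {i : X s} (h : IsAt z s i) (p : P) :
    ev z p = some s := by
  obtain rfl := h
  rfl

theorem bv_at {a : (Σ s, X s) → B} {z : Car S bd B X} {s : I} {i : X s} (h : IsAt z s i) :
    bv a z = a ⟨s, i⟩ := by
  obtain rfl := h
  rfl

theorem not_isAt_inl {u : {u : B × (P → Option I) // Ordi S bd u.2}} {s : I} {i : X s} :
    ¬ IsAt (Sum.inl u : Car S bd B X) s i := by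
  intro h
  exact absurd h (by simp [IsAt])

theorem e1 (sp2 : ∀ s, ∃ p, p ∉ S (bd s)) {z z' : Car S bd B X} {s : I} {i : X s}
    (hz : IsAt z s i) (h : ∀ p, p ∉ S (bd s) → ev z p = ev z' p) : ∃ i', IsAt z' s i' := by
  match z', h with
  | Sum.inl u, h =>
    exfalso
    obtain ⟨q, hq, hu⟩ := u.2 s
    apply hu
    have := h q hq
    rw [ev_at hz] at this
    exact this.symm
  | Sum.inr ⟨s', i'⟩, h =>
    obtain ⟨q, hq⟩ := sp2 s
    have h1 := h q hq
    rw [ev_at hz] at h1
    have h3 : s = s' := Option.some.inj h1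
    subst h3
    exact ⟨i', rfl⟩

theorem ordi_zero {u : P → Option I} (hu : Ordi S bd u) (F : Set P) :
    Ordi S bd (zero F u) := by
  classical
  intro s
  obtain ⟨q, hq, h⟩ := hu s
  refine ⟨q, hq, ?_⟩
  by_cases hF : q ∈ F
  · simp [zero, hF]
  · simpa [zero, hF] using h

theorem ordi_zero_special (sp2 : ∀ s, ∃ p, p ∉ S (bd s)) {z : Car S bd B X} {l : I} {i : X l}
    (hz : IsAt z l i) {F : Set P} (hF : ∃ p, p ∈ F ∧ p ∉ S (bd l)) :
    Ordi S bd (zero F (ev z)) := by
  classical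
  intro s
  by_cases hjl : s = l
  · subst hjl
    obtain ⟨p, hp, hp'⟩ := hF
    exact ⟨p, hp', by simp [zero, hp]⟩
  · obtain ⟨q, hq⟩ := sp2 s
    refine ⟨q, hq, ?_⟩
    by_cases hF : q ∈ F
    · simp [zero, hF]
    · simp only [zero, hF, if_false]
      rw [ev_at hz]
      intro h
      exact hjl (Option.some.inj h).symm

theorem ordi_none (sp2 : ∀ s, ∃ p, p ∉ S (bd s)) : Ordi S bd (fun _ => none) := by
  intro s
  obtain ⟨q, hq⟩ := sp2 s
  exact ⟨q, hq, by simp⟩

variable {ι : I → Type} (o : ∀ s, ι s → X s → X s)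

/-- action on the carrier -/
def oMap (g : B → B) (κ : ∀ s, Option (ι s)) : Car S bd B X → Car S bd B X
  | Sum.inl u => Sum.inl ⟨(g u.1.1, u.1.2), u.2⟩
  | Sum.inr t => Sum.inr (act o κ t)

theorem ev_oMap (g : B → B) (κ : ∀ s, Option (ι s)) (z : Car S bd B X) (p : P) :
    ev (oMap o g κ z) p = ev z p := by
  match z with
  | Sum.inl u => rfl
  | Sum.inr t => rfl

theorem bv_oMap {a : (Σ s, X s) → B} {g : B → B} {κ : ∀ s, Option (ι s)}
    (h : ∀ t, g (a t) = a (act o κ t)) (z : Car S bd B X) :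
    bv a (oMap o g κ z) = g (bv a z) := by
  match z with
  | Sum.inl u => rfl
  | Sum.inr t => exact (h t).symm

/-- the second component of `act` -/
def act2 (κ : ∀ s, Option (ι s)) (s : I) (i : X s) : X s := (act o κ ⟨s, i⟩).2

theorem isAt_oMap {g : B → B} {κ : ∀ s, Option (ι s)} {z : Car S bd B X} {s : I} {i : X s}
    (h : IsAt (oMap o g κ z) s i) : ∃ i', IsAt z s i' ∧ i = act2 o κ s i' := by
  match z, h with
  | Sum.inl u, h => exact absurd h not_isAt_inl
  | Sum.inr ⟨l, i'⟩, h =>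
    have h1 : (⟨l, act2 o κ l i'⟩ : Σ s, X s) = ⟨s, i⟩ := Sum.inr.inj h
    have h2 : l = s := congrArg Sigma.fst h1
    subst h2
    exact ⟨i', rfl, (eq_of_heq (Sigma.mk.inj h1).2).symm⟩

end

section

variable {P J I B : Type} (C : J → Setoid B) (pt : P → J) (ad bd : I → J) {X : I → Type}

/-- the congruence attached to `l` and a family `π` of equivalence relations -/
def cg (sp2 : ∀ s, ∃ p, p ∉ SS C pt (bd s)) (a : (Σ s, X s) → B) (l : J)
    (π : ∀ s, Setoid (X s)) : Setoid (Car (SS C pt) bd B X) where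
  r z z' := (C l (bv a z) (bv a z') ∧ ∀ p, p ∉ SS C pt l → ev z p = ev z' p) ∧
    ∀ s, C (ad s) ≤ C l → C l ≤ C (bd s) → ∀ i i', IsAt z s i → IsAt z' s i' → π s i i'
  iseqv := by
    refine ⟨?_, ?_, ?_⟩
    · intro z
      exact ⟨⟨(C l).refl _, fun _ _ => rfl⟩, fun s _ _ i i' h h' => by rw [h.inj h']⟩
    · rintro z z' ⟨⟨h0, h1⟩, h2⟩
      exact ⟨⟨(C l).symm h0, fun p hp => (h1 p hp).symm⟩,
        fun s g1 g2 i i' h h' => (π s).symm (h2 s g1 g2 i' i h' h)⟩
    · rintro z z' z'' ⟨⟨h0, h1⟩, h2⟩ ⟨⟨g0, g1⟩, g2⟩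
      refine ⟨⟨(C l).trans h0 g0, fun p hp => (h1 p hp).trans (g1 p hp)⟩,
        fun s k1 k2 i i'' h h'' => ?_⟩
      obtain ⟨i', h'⟩ := e1 sp2 h (fun p hp => h1 p (fun hp' => hp (SS_mono k2 hp')))
      exact (π s).trans (h2 s k1 k2 i i' h h') (g2 s k1 k2 i' i'' h' h'')

variable {ι : I → Type} (o : ∀ s, ι s → X s → X s)

/-- the family of congruences -/
def cong (sp2 : ∀ s, ∃ p, p ∉ SS C pt (bd s)) (a : (Σ s, X s) → B)
    (x : J × (∀ s, UCon (o s))) : Setoid (Car (SS C pt) bd B X) :=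
  cg C pt ad bd sp2 a x.1 (fun s => (x.2 s).1)

variable {C pt ad bd} {sp2 : ∀ s, ∃ p, p ∉ SS C pt (bd s)} {a : (Σ s, X s) → B}

theorem comp_oMap {g : B → B} {κ : ∀ s, Option (ι s)} (hg : Comp C g)
    (h : ∀ t, g (a t) = a (act o κ t)) : Comp (cong C pt ad bd o sp2 a) (oMap o g κ) := by
  rintro ⟨l, π⟩ z z' ⟨⟨h0, h1⟩, h2⟩
  refine ⟨⟨?_, fun p hp => ?_⟩, fun s k1 k2 i i' hi hi' => ?_⟩
  · rw [bv_oMap o h, bv_oMap o h]
    exact hg l _ _ h0
  · rw [ev_oMap, ev_oMap, h1 p hp]
  · obtain ⟨j, hl, rfl⟩ := isAt_oMap o hi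
    obtain ⟨j', hl', rfl⟩ := isAt_oMap o hi'
    have := h2 s k1 k2 j j' hl hl'
    show (π s).1 (act2 o κ s j) (act2 o κ s j')
    unfold act2
    cases hk : κ s with
    | none =>
      have e : ∀ i : X s, (act o κ ⟨s, i⟩).2 = i := fun i => by simp [act, hk]
      rw [e, e]
      exact this
    | some k =>
      have e : ∀ i : X s, (act o κ ⟨s, i⟩).2 = o s k i := fun i => by simp [act, hk]
      rw [e, e]
      exact (π s).2 _ _ _ this

/-- maps into ordinary points with the same coordinates -/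
theorem comp_base {u : P → Option I} (hu : Ordi (SS C pt) bd u)
    {f : Car (SS C pt) bd B X → B}
    (hf : ∀ (x : J × (∀ s, UCon (o s))) z z', cong C pt ad bd o sp2 a x z z' →
      C x.1 (f z) (f z')) :
    Comp (cong C pt ad bd o sp2 a) (fun z => Sum.inl ⟨(f z, u), hu⟩) := by
  intro x z z' h
  exact ⟨⟨hf x z z' h, fun _ _ => rfl⟩, fun s _ _ i i' hi _ => absurd hi not_isAt_inl⟩

open Classical in
/-- test of the base coordinate -/
noncomputable def tMap (a : (Σ s, X s) → B) (D : Setoid B) (x : B)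
    (z z' : Car (SS C pt) bd B X) : Car (SS C pt) bd B X → Car (SS C pt) bd B X :=
  fun u => if D (bv a u) x then z else z'

theorem comp_tMap {D : Setoid B} {x : B} {z : Car (SS C pt) bd B X}
    {u' : {u : B × (P → Option I) // Ordi (SS C pt) bd u.2}}
    (hb : bv a z = u'.1.1)
    (h : ∀ j, ¬ C j ≤ D → ∀ q, q ∉ SS C pt j → ev z q = u'.1.2 q) :
    Comp (cong C pt ad bd o sp2 a) (tMap a D x z (Sum.inl u')) := by
  classical
  rintro y u v ⟨⟨h0, h1⟩, h2⟩
  have hzz : ¬ C y.1 ≤ D → cong C pt ad bd o sp2 a y z (Sum.inl u') := by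
    intro hj
    refine ⟨⟨?_, fun q hq => h y.1 hj q hq⟩,
      fun s _ _ i i' _ hi' => absurd hi' not_isAt_inl⟩
    show C y.1 (bv a z) u'.1.1
    rw [hb]
  by_cases hj : C y.1 ≤ D
  · have hD : D (bv a u) x ↔ D (bv a v) x :=
      ⟨fun h => D.trans (D.symm (hj h0)) h, fun h => D.trans (hj h0) h⟩
    by_cases hu : D (bv a u) x
    · simp only [tMap, hu, hD.1 hu, if_true]
      exact (cong C pt ad bd o sp2 a y).refl _
    · have hv : ¬ D (bv a v) x := fun h => hu (hD.2 h)
      simp only [tMap, hu, hv, if_false]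
      exact (cong C pt ad bd o sp2 a y).refl _
  · have hz := hzz hj
    by_cases hu : D (bv a u) x
    · by_cases hv : D (bv a v) x
      · simp only [tMap, hu, hv, if_true]
        exact (cong C pt ad bd o sp2 a y).refl _
      · simp only [tMap, hu, hv, if_true, if_false]
        exact hz
    · by_cases hv : D (bv a v) x
      · simp only [tMap, hu, hv, if_true, if_false]
        exact (cong C pt ad bd o sp2 a y).symm hz
      · simp only [tMap, hu, hv, if_false]
        exact (cong C pt ad bd o sp2 a y).refl _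

/-- base data -/
structure Base (C : J → Setoid B) (pt kp : P → J) (ad bd : I → J)
    (o : ∀ s, ι s → X s → X s) (a : (Σ s, X s) → B) : Prop where
  inj : Function.Injective C
  closed : ∀ r : Setoid B, (∀ g, Comp C g → ∀ x x', r x x' → r (g x) (g x')) → ∃ j, C j = r
  prime : ∀ p j, p ∈ SS C pt j → C (kp p) ≤ C j
  prime' : ∀ p, p ∈ SS C pt (kp p)
  sp1 : ∀ s l, SS C pt l ⊆ SS C pt (bd s) → C l ≤ C (bd s)
  sp2 : ∀ s, ∃ p, p ∉ SS C pt (bd s)
  tie2 : ∀ s (i i' : X s), i ≠ i' → ∀ l, C l (a ⟨s, i⟩) (a ⟨s, i'⟩) → C (ad s) ≤ C l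
  tie1 : ∀ s (i i' : X s), C (ad s) (a ⟨s, i⟩) (a ⟨s, i'⟩)
  tie3 : ∀ κ : (∀ s, Option (ι s)), ∃ g, Comp C g ∧ ∀ t, g (a t) = a (act o κ t)

variable {kp : P → J} {o}

theorem Base.surj [Finite P] (H : Base C pt kp ad bd o a)
    (r : Setoid (Car (SS C pt) bd B X))
    (hr : ∀ g, Comp (cong C pt ad bd o H.sp2 a) g → ∀ x x', r x x' → r (g x) (g x')) :
    ∃ x, cong C pt ad bd o H.sp2 a x = r := by
  classical
  have hn : Ordi (SS C pt) bd (fun _ : P => none) := ordi_none H.sp2
  let emb : B → Car (SS C pt) bd B X := fun x => Sum.inl ⟨(x, fun _ => none), hn⟩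
  obtain ⟨j, hj⟩ := H.closed (Setoid.comap emb r) (fun g hg x x' h =>
    hr (fun z => Sum.inl ⟨(g (bv a z), fun _ => none), hn⟩)
      (comp_base o hn (f := fun z => g (bv a z)) (fun x z z' h => hg x.1 _ _ h.1.1)) _ _ h)
  have hj' : ∀ x x', C j x x' ↔ r (emb x) (emb x') := by
    intro x x'
    rw [hj]
    exact Iff.rfl
  have hb : ∀ z z', r z z' → C j (bv a z) (bv a z') := fun z z' h =>
    (hj' _ _).2 (hr (fun z => Sum.inl ⟨(bv a z, fun _ => none), hn⟩)
      (comp_base o hn (f := fun z => bv a z) (fun _ _ _ h => h.1.1)) z z' h)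
  have hoff : ∀ z z', r z z' → ∀ p, p ∉ SS C pt j → ev z p = ev z' p := by
    intro z z' h p hp
    by_contra hne
    apply hp
    intro hle
    apply H.prime' p
    refine le_trans ?_ hle
    intro x x' hx
    rw [hj']
    have h1 := hr (fun v => Sum.inl ⟨(if ev v p = ev z p then x else x', fun _ => none), hn⟩)
      (comp_base o hn (f := fun v => if ev v p = ev z p then x else x') (by
        intro y v v' hv
        by_cases hpl : p ∈ SS C pt y.1
        · have hk := H.prime p y.1 hpl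
          split_ifs
          · exact (C y.1).refl _
          · exact hk hx
          · exact (C y.1).symm (hk hx)
          · exact (C y.1).refl _
        · rw [hv.1.2 p hpl])) z z' h
    simp only [if_true, if_neg (fun e => hne e.symm : ¬ ev z' p = ev z p)] at h1
    exact h1
  have hone : ∀ p, p ∈ SS C pt j → ∀ (z : Car (SS C pt) bd B X)
      (u' : {u : B × (P → Option I) // Ordi (SS C pt) bd u.2}), bv a z = u'.1.1 →
      (∀ q, q ≠ p → ev z q = u'.1.2 q) → r z (Sum.inl u') := by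
    intro p hp z u' hbz h
    obtain ⟨x, x', hx, hx'⟩ : ∃ x x', C j x x' ∧ ¬ C (pt p) x x' := by
      by_contra hcon
      push Not at hcon
      exact hp (fun x x' hx => hcon x x' hx)
    have h1 := hr _ (comp_tMap o (D := C (pt p)) (x := x) hbz (by
      intro l hl q hq
      apply h
      rintro rfl
      exact hq hl)) (emb x) (emb x') ((hj' _ _).1 hx)
    have e1 : tMap a (C (pt p)) x z (Sum.inl u') (emb x) = z := if_pos ((C (pt p)).refl x)
    have e2 : tMap a (C (pt p)) x z (Sum.inl u') (emb x') = Sum.inl u' :=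
      if_neg (fun e => hx' ((C (pt p)).symm e))
    rw [e1, e2] at h1
    exact h1
  have hbase : ∀ (u : P → Option I) (hu : Ordi (SS C pt) bd u) b b', C j b b' →
      r (Sum.inl ⟨(b, u), hu⟩) (Sum.inl ⟨(b', u), hu⟩) := by
    intro u hu b b' h
    exact hr (fun v => Sum.inl ⟨(bv a v, u), hu⟩)
      (comp_base o hu (f := fun v => bv a v) (fun _ _ _ h => h.1.1)) (emb b) (emb b')
      ((hj' _ _).1 h)
  have hord : ∀ (F : Finset P), (↑F : Set P) ⊆ SS C pt j →
      ∀ u : {u : B × (P → Option I) // Ordi (SS C pt) bd u.2},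
      r (Sum.inl u) (Sum.inl ⟨(u.1.1, zero (↑F : Set P) u.1.2), ordi_zero u.2 _⟩) := by
    intro F
    induction F using Finset.induction_on with
    | empty =>
      intro _ u
      have e : (⟨(u.1.1, zero (↑(∅ : Finset P) : Set P) u.1.2), ordi_zero u.2 _⟩ :
          {u : B × (P → Option I) // Ordi (SS C pt) bd u.2}) = u := by
        apply Subtype.ext
        apply Prod.ext
        · rfl
        · funext p
          simp [zero]
      rw [e]
    | insert p F hp ih =>
      intro hF u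
      have hF' : (↑F : Set P) ⊆ SS C pt j := fun q hq => hF (by simp [Finset.mem_coe.1 hq])
      have hpj : p ∈ SS C pt j := hF (by simp)
      refine r.trans (ih hF' u) (hone p hpj _ _ rfl ?_)
      intro q hq
      show zero (↑F : Set P) u.1.2 q = zero (↑(insert p F) : Set P) u.1.2 q
      simp only [zero, Finset.mem_coe, Finset.mem_insert]
      by_cases hqF : q ∈ F
      · simp [hqF]
      · simp [hqF, hq]
  obtain ⟨_⟩ := nonempty_fintype P
  have hord' : ∀ u : {u : B × (P → Option I) // Ordi (SS C pt) bd u.2},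
      r (Sum.inl u) (Sum.inl ⟨(u.1.1, zero (SS C pt j) u.1.2), ordi_zero u.2 _⟩) := by
    intro u
    have := hord (SS C pt j).toFinset (by simp) u
    simpa using this
  have hcg : ∀ (z : Car (SS C pt) bd B X) (b : B) (u u' : P → Option I)
      (hu : Ordi (SS C pt) bd u) (hu' : Ordi (SS C pt) bd u'), u = u' →
      r z (Sum.inl ⟨(b, u), hu⟩) → r z (Sum.inl ⟨(b, u'), hu'⟩) := by
    rintro z b u u' hu hu' rfl h
    exact h
  have hgood : ∀ z : Car (SS C pt) bd B X, (∀ l i, IsAt z l i → ¬ C j ≤ C (bd l)) →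
      ∃ h, r z (Sum.inl ⟨(bv a z, zero (SS C pt j) (ev z)), h⟩) := by
    intro z hz
    match z, hz with
    | Sum.inl u, _ => exact ⟨_, hord' u⟩
    | Sum.inr ⟨l, i⟩, hz =>
      have hat : IsAt (Sum.inr ⟨l, i⟩ : Car (SS C pt) bd B X) l i := rfl
      obtain ⟨p, hp, hp'⟩ := Set.not_subset.1 (fun h => hz l i hat (H.sp1 l j h))
      let w : P → Option I := ev (Sum.inr ⟨l, i⟩ : Car (SS C pt) bd B X)
      have o1 : Ordi (SS C pt) bd (zero {p} w) := ordi_zero_special H.sp2 hat ⟨p, rfl, hp'⟩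
      have h1 : r (Sum.inr ⟨l, i⟩) (Sum.inl ⟨(a ⟨l, i⟩, zero {p} w), o1⟩) := by
        apply hone p hp
        · rfl
        · intro q hq
          show w q = zero {p} w q
          simp [zero, hq]
      have h2 : r (Sum.inl ⟨(a ⟨l, i⟩, zero {p} w), o1⟩)
          (Sum.inl ⟨(a ⟨l, i⟩, zero (SS C pt j) (zero {p} w)), ordi_zero o1 _⟩) :=
        hord' ⟨(a ⟨l, i⟩, zero {p} w), o1⟩
      have e : zero (SS C pt j) (zero {p} w) = zero (SS C pt j) w := by
        funext q
        by_cases hq : q ∈ SS C pt j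
        · simp [zero, hq]
        · have : q ≠ p := fun e => hq (e ▸ hp)
          simp [zero, hq, this]
      have o2 : Ordi (SS C pt) bd (zero (SS C pt j) w) := by
        rw [← e]
        exact ordi_zero o1 _
      exact ⟨o2, r.trans h1 (hcg _ _ _ _ _ _ e h2)⟩
  let π : ∀ s, Setoid (X s) := fun s =>
    { r := fun i i' => r (Sum.inr ⟨s, i⟩) (Sum.inr ⟨s, i'⟩)
      iseqv := ⟨fun i => r.refl _, fun h => r.symm h, fun h h' => r.trans h h'⟩ }
  have hπ : ∀ s (k : ι s) (i i' : X s), π s i i' → π s (o s k i) (o s k i') := by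
    intro s k i i' h
    let κ : ∀ l, Option (ι l) := Function.update (fun _ => none) s (some k)
    have hκ : κ s = some k := Function.update_self _ _ _
    obtain ⟨g, hg, hga⟩ := H.tie3 κ
    have h1 := hr _ (comp_oMap o hg hga) _ _ h
    have e : ∀ i : X s, oMap o g κ (Sum.inr ⟨s, i⟩ : Car (SS C pt) bd B X) =
        Sum.inr ⟨s, o s k i⟩ := fun i => congrArg Sum.inr (act_some o hκ i)
    rw [e, e] at h1
    exact h1
  refine ⟨⟨j, fun s => ⟨π s, hπ s⟩⟩, ?_⟩
  apply Setoid.ext
  intro z z'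
  constructor
  · rintro ⟨⟨h0, h1⟩, h2⟩
    have h0 : C j (bv a z) (bv a z') := h0
    have h1 : ∀ p, p ∉ SS C pt j → ev z p = ev z' p := h1
    by_cases hz : ∀ l i, IsAt z l i → ¬ C j ≤ C (bd l)
    · have hz' : ∀ l i, IsAt z' l i → ¬ C j ≤ C (bd l) := by
        intro l i hi hle
        obtain ⟨i', hi'⟩ := e1 H.sp2 hi
          (fun p hp => (h1 p (fun hp' => hp (SS_mono hle hp'))).symm)
        exact hz l i' hi' hle
      obtain ⟨g1, g2⟩ := hgood z hz
      obtain ⟨g1', g2'⟩ := hgood z' hz'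
      have e : zero (SS C pt j) (ev z) = zero (SS C pt j) (ev z') := by
        funext q
        by_cases hq : q ∈ SS C pt j
        · simp [zero, hq]
        · simp [zero, hq, h1 q hq]
      have h3 := hcg _ _ _ _ g1 g1' e (hbase _ g1 _ _ h0)
      exact r.trans g2 (r.trans h3 (r.symm g2'))
    · push Not at hz
      obtain ⟨l, i, hi, hle⟩ := hz
      obtain ⟨i', hi'⟩ := e1 H.sp2 hi (fun p hp => h1 p (fun hp' => hp (SS_mono hle hp')))
      by_cases hjl : C (ad l) ≤ C j
      · have h3 := h2 l hjl hle i i' hi hi'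
        obtain rfl := hi
        obtain rfl := hi'
        exact h3
      · have hii : i = i' := by
          by_contra hne
          rw [bv_at hi, bv_at hi'] at h0
          exact hjl (H.tie2 l i i' hne j h0)
        subst hii
        obtain rfl := hi
        obtain rfl := hi'
        exact r.refl _
  · intro h
    refine ⟨⟨hb z z' h, hoff z z' h⟩, ?_⟩
    rintro s _ _ i i' rfl rfl
    exact h

/-- the order of the family -/
theorem Base.cong_le (H : Base C pt kp ad bd o a) (x y : J × (∀ s, UCon (o s))) :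
    cong C pt ad bd o H.sp2 a x ≤ cong C pt ad bd o H.sp2 a y ↔
      (C x.1 ≤ C y.1 ∧ ∀ s, C (ad s) ≤ C x.1 → C y.1 ≤ C (bd s) → x.2 s ≤ y.2 s) := by
  classical
  have hn : Ordi (SS C pt) bd (fun _ : P => none) := ordi_none H.sp2
  constructor
  · intro h
    have hle : C x.1 ≤ C y.1 := by
      intro b b' hx
      have h1 : cong C pt ad bd o H.sp2 a x (Sum.inl ⟨(b, fun _ => none), hn⟩)
          (Sum.inl ⟨(b', fun _ => none), hn⟩) :=
        ⟨⟨hx, fun _ _ => rfl⟩, fun s _ _ _ _ hi _ => absurd hi not_isAt_inl⟩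
      exact (h h1).1.1
    refine ⟨hle, fun s k1 k2 => ?_⟩
    intro i i' hi
    have h1 : cong C pt ad bd o H.sp2 a x (Sum.inr ⟨s, i⟩) (Sum.inr ⟨s, i'⟩) := by
      refine ⟨⟨k1 (H.tie1 s i i'), fun p hp => rfl⟩, ?_⟩
      rintro l _ _ i1 i2 hl hl'
      have e1 : (⟨s, i⟩ : Σ s, X s) = ⟨l, i1⟩ := Sum.inr.inj hl
      have e2 : (⟨s, i'⟩ : Σ s, X s) = ⟨l, i2⟩ := Sum.inr.inj hl'
      have e3 : s = l := congrArg Sigma.fst e1
      subst e3
      have e4 : i = i1 := eq_of_heq (Sigma.mk.inj e1).2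
      have e5 : i' = i2 := eq_of_heq (Sigma.mk.inj e2).2
      subst e4 e5
      exact hi
    exact (h h1).2 s (k1.trans hle) k2 i i' rfl rfl
  · rintro ⟨hle, hs⟩ z z' ⟨⟨h0, h1⟩, h2⟩
    have h0 : C x.1 (bv a z) (bv a z') := h0
    refine ⟨⟨hle h0, fun b hb => h1 b (fun h => hb (SS_mono hle h))⟩, ?_⟩
    intro s k1 k2 i i' hi hi'
    by_cases hk : C (ad s) ≤ C x.1
    · exact hs s hk k2 (h2 s hk (hle.trans k2) i i' hi hi')
    · have hii : i = i' := by
        by_contra hne
        rw [bv_at hi, bv_at hi'] at h0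
        exact hk (H.tie2 s i i' hne x.1 h0)
      rw [hii]

end

end IntM

end P183
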