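import Vale.Agent.P183.Int1

/-!
# P183: multiplying intervals by representable lattices (the theorem)
-/

namespace P183

/-- transport along a surjection -/
theorem URep.ofSurj {P Q : Type} {le : P → P → Prop} {le' : Q → Q → Prop} (h : URep P le)
    (g : P → Q) (hg : Function.Surjective g) (he : ∀ p q, le' (g p) (g q) ↔ le p q) :
    URep Q le' := by
  obtain ⟨A, hA, hne, ι, hι, f, c, hc, hle⟩ := h
  obtain ⟨s, hs⟩ := hg.hasRightInverse
  refine ⟨A, hA, hne, ι, hι, f, fun q => c (s q), ?_, ?_⟩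
  · intro x
    obtain ⟨p, rfl⟩ := hc x
    have hpp : le' (g p) (g p) := (he p p).2 ((hle p p).1 le_rfl)
    refine ⟨g p, le_antisymm ?_ ?_⟩
    · rw [hle, ← he, hs]
      exact hpp
    · rw [hle, ← he, hs]
      exact hpp
  · intro p q
    rw [hle, ← he, hs, hs]

namespace IntM

open Infl (Comp act act_none act_some)
open _root_.P183.Prime (SS SS_mono zero)

theorem cong_congr {P J I B : Type} {C : J → Setoid B} {pt : P → J} {ad bd : I → J}
    {X ι : I → Type} {o : ∀ s, ι s → X s → X s}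
    {sp2 : ∀ s, ∃ p, p ∉ SS C pt (bd s)} {a : (Σ s, X s) → B} {l : J}
    {π ρ : ∀ s, UCon (o s)} (h : ∀ s, C (ad s) ≤ C l → C l ≤ C (bd s) → π s = ρ s) :
    cong C pt ad bd o sp2 a (l, π) = cong C pt ad bd o sp2 a (l, ρ) := by
  apply Setoid.ext
  intro z z'
  constructor
  · rintro ⟨h1, h2⟩
    refine ⟨h1, fun s k1 k2 i i' hi hi' => ?_⟩
    have := h2 s k1 k2 i i' hi hi'
    show (ρ s).1 i i'
    rw [← h s k1 k2]
    exact this
  · rintro ⟨h1, h2⟩
    refine ⟨h1, fun s k1 k2 i i' hi hi' => ?_⟩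
    have := h2 s k1 k2 i i' hi hi'
    show (π s).1 i i'
    rw [h s k1 k2]
    exact this

/-- the statement for a closed family of equivalence relations -/
theorem urep {A J P I : Type} [Finite A] [Nonempty A] [Finite J] [Finite P] [Finite I]
    {C : J → Setoid A} {pt kp : P → J} {ad bd : I → J} (inj : Function.Injective C)
    (closed : ∀ r : Setoid A, (∀ g, Comp C g → ∀ x x', r x x' → r (g x) (g x')) → ∃ j, C j = r)
    (prime : ∀ p j, ¬ C j ≤ C (pt p) → C (kp p) ≤ C j)
    (prime' : ∀ p, ¬ C (kp p) ≤ C (pt p))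
    (sp1 : ∀ s l, (∀ p, C (bd s) ≤ C (pt p) → C l ≤ C (pt p)) → C l ≤ C (bd s))
    (sp2 : ∀ s, ∃ p, C (bd s) ≤ C (pt p))
    {M : I → Type} {le : ∀ s, M s → M s → Prop} (hM : ∀ s, URep (M s) (le s)) :
    URep {x : J × (∀ s, M s) // ∀ s, (¬ C (ad s) ≤ C x.1 → ∀ m, le s (x.2 s) m) ∧
        (C (ad s) ≤ C x.1 → ¬ C x.1 ≤ C (bd s) → ∀ m, le s m (x.2 s))}
      (fun x y => C x.1.1 ≤ C y.1.1 ∧ ∀ s, le s (x.1.2 s) (y.1.2 s)) := by
  classical
  choose X hX hX0 ι hι o c hc hle using hM
  let Y : Type := Infl.Ex (fun s => C (ad s)) X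
  have ne : Nonempty Y := ⟨⟨fun _ => Classical.arbitrary A, fun _ _ _ => (C _).refl _⟩⟩
  have fin : Finite Y := inferInstanceAs (Finite (Infl.Ex (fun s => C (ad s)) X))
  have hD : ∀ j l, Infl.CP C Y j ≤ Infl.CP C Y l ↔ C j ≤ C l :=
    fun j l => Infl.CP_le C j l
  have H : Base (Infl.CP C Y) pt kp ad bd o
      (Infl.tie (C := fun s => C (ad s)) (X := X)) := by
    refine ⟨?_, Infl.CP_closed C closed, ?_, ?_, ?_, ?_, ?_, ?_, ?_⟩
    · intro j l h
      apply inj
      apply le_antisymm
      · rw [← hD, h]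
      · rw [← hD, h]
    · intro p j h
      rw [hD]
      exact prime p j (fun h' => h ((hD _ _).2 h'))
    · intro p h
      exact prime' p ((hD _ _).1 h)
    · intro s l h
      rw [hD]
      apply sp1 s l
      intro p hp
      by_contra hl
      exact h (a := p) (fun h' => hl ((hD _ _).1 h')) ((hD _ _).2 hp)
    · intro s
      obtain ⟨p, hp⟩ := sp2 s
      exact ⟨p, fun h => h ((hD _ _).2 hp)⟩
    · intro j i i' hii l h
      rw [hD]
      intro p q hpq
      have := h ⟨fun t => if t = ⟨j, i⟩ then p else q, by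
        intro l' i1 i2
        show C (ad l') (if (⟨l', i1⟩ : Σ j, X j) = ⟨j, i⟩ then p else q)
          (if (⟨l', i2⟩ : Σ j, X j) = ⟨j, i⟩ then p else q)
        split_ifs with h1 h2 h2
        · exact (C (ad l')).refl _
        · have e : l' = j := (Sigma.mk.inj h1).1
          rw [e]
          exact hpq
        · have e : l' = j := (Sigma.mk.inj h2).1
          rw [e]
          exact (C (ad j)).symm hpq
        · exact (C (ad l')).refl _⟩
      have e1 : ¬ (⟨j, i'⟩ : Σ j, X j) = ⟨j, i⟩ := by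
        intro e
        exact hii (eq_of_heq (Sigma.mk.inj e).2).symm
      simp only [Infl.tie, if_true, e1, if_false] at this
      exact this
    · intro j i i' e
      exact e.2 j i i'
    · intro κ
      refine ⟨fun x e => x ⟨fun t => e.1 (act o κ t), ?_⟩, ?_, ?_⟩
      · intro l i1 i2
        exact e.2 l _ _
      · intro l x x' h e
        exact h _
      · intro t
        rfl
  have ne2 : Nonempty (Car (SS (Infl.CP C Y) pt) bd (Y → A) X) :=
    ⟨Sum.inl ⟨(fun _ => Classical.arbitrary A, fun _ => none), ordi_none H.sp2⟩⟩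
  -- least and greatest elements
  have hbot : ∀ s, ∃ m, ∀ m', le s m m' := by
    intro s
    obtain ⟨m, hm⟩ := hc s ⟨⊥, fun k x x' h => by
      have e : x = x' := h
      show o s k x = o s k x'
      rw [e]⟩
    refine ⟨m, fun m' => ?_⟩
    rw [← hle, hm]
    intro x x' h
    have e : x = x' := h
    rw [e]
  have htop : ∀ s, ∃ m, ∀ m', le s m' m := by
    intro s
    obtain ⟨m, hm⟩ := hc s ⟨⊤, fun _ _ _ _ => trivial⟩
    refine ⟨m, fun m' => ?_⟩
    rw [← hle, hm]
    intro x x' _
    trivial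
  choose bt hbt using hbot
  choose tp htp using htop
  have hfin2 : Finite (Car (SS (Infl.CP C Y) pt) bd (Y → A) X) := inferInstance
  refine URep.ofClosed (fun x => cong (Infl.CP C Y) pt ad bd o H.sp2
    (Infl.tie (C := fun s => C (ad s)) (X := X)) (x.1.1, fun s => c s (x.1.2 s))) ?_ ?_
  · intro r hr
    have hval : ∀ (l : J) (m : ∀ s, M s), ∃ m' : ∀ s, M s,
        (∀ s, (¬ C (ad s) ≤ C l → ∀ n, le s (m' s) n) ∧
          (C (ad s) ≤ C l → ¬ C l ≤ C (bd s) → ∀ n, le s n (m' s))) ∧
        ∀ s, C (ad s) ≤ C l → C l ≤ C (bd s) → m' s = m s := by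
      intro l m
      refine ⟨fun s => if C (ad s) ≤ C l then (if C l ≤ C (bd s) then m s else tp s) else bt s,
        fun s => ⟨?_, ?_⟩, ?_⟩
      · intro h n
        simp only [h, if_false]
        exact hbt s n
      · intro h h' n
        simp only [h, h', if_true, if_false]
        exact htp s n
      · intro s h h'
        simp only [h, h', if_true]
    obtain ⟨⟨l, π⟩, hp⟩ := H.surj r (by
      intro g hg
      apply hr
      intro x z z' h
      exact hg (x.1.1, fun s => c s (x.1.2 s)) z z' h)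
    choose m hm using fun s => hc s (π s)
    obtain ⟨m', hm', hmm⟩ := hval l m
    refine ⟨⟨(l, m'), hm'⟩, ?_⟩
    rw [← hp]
    apply cong_congr
    intro s k1 k2
    show c s (m' s) = π s
    rw [hmm s ((hD _ _).1 k1) ((hD _ _).1 k2), hm]
  · rintro ⟨⟨l, m⟩, hx⟩ ⟨⟨l', m'⟩, hy⟩
    rw [H.cong_le]
    constructor
    · rintro ⟨h1, h2⟩
      have h1 : C l ≤ C l' := (hD _ _).1 h1
      refine ⟨h1, fun s => ?_⟩
      by_cases k1 : C (ad s) ≤ C l
      · by_cases k2 : C l' ≤ C (bd s)
        · exact (hle s _ _).1 (h2 s ((hD _ _).2 k1) ((hD _ _).2 k2))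
        · exact (hy s).2 (k1.trans h1) k2 _
      · exact (hx s).1 k1 _
    · rintro ⟨h1, h2⟩
      exact ⟨(hD _ _).2 h1, fun s _ _ => (hle s _ _).2 (h2 s)⟩

theorem main {K : Type} [Lattice K] (hK : Representable K) {I : Type} [Finite I] (a b : I → K)
    (hp : ∀ s x, (∀ p, InfPrime p → b s ≤ p → x ≤ p) → x ≤ b s) (M : I → Type)
    [∀ s, Lattice (M s)] (hM : ∀ s, Representable (M s)) :
    URep {x : K × (∀ s, M s) // ∀ s, (¬ a s ≤ x.1 → IsBot (x.2 s)) ∧
      (a s ≤ x.1 → ¬ x.1 ≤ b s → IsTop (x.2 s))} (fun x y => x ≤ y) := by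
  classical
  have hfin : Finite K := Prime.finite_of_representable hK
  obtain ⟨t, ht⟩ := hK.exists_top
  choose tp htp using fun s => (hM s).exists_top
  obtain ⟨A, hA, hA0, ι, hι, f, c, hc, hle⟩ := URep.optTop hK.urep
  let C : Option K → Setoid A := fun k => (c k).1
  have hC : ∀ k l, C k ≤ C l ↔ leTop (fun x x' : K => x ≤ x') k l := hle
  let Q : Type := Option {p : K // InfPrime p}
  choose kap hk1 hk2 using fun p : {p : K // InfPrime p} => Prime.exists_kappa p.2
  let pt : Q → Option K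
    | none => some t
    | some p => some p.1
  let kp : Q → Option K
    | none => none
    | some p => some (kap p)
  have h := urep (C := C) (pt := pt) (kp := kp) (ad := fun s => some (a s))
    (bd := fun s => some (b s)) (M := M) (le := fun s x y => x ≤ y) (by
      intro k l h
      have h1 := (hC k l).1 h.le
      have h2 := (hC l k).1 h.ge
      match k, l, h1, h2 with
      | none, none, _, _ => rfl
      | some x, some y, h1, h2 => exact congrArg some (le_antisymm h1 h2)) (by
      intro r hr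
      obtain ⟨k, hk⟩ := hc ⟨r, fun i x y h => hr (f i) (fun j x x' h => (c j).2 i x x' h) x y h⟩
      exact ⟨k, congrArg Subtype.val hk⟩) (by
      intro q j hj
      rw [hC] at hj ⊢
      match q, j, hj with
      | _, none, _ => simp [leTop]
      | none, some x, hj => exact absurd (ht x) hj
      | some p, some x, hj => exact hk2 p x hj) (by
      intro q h
      rw [hC] at h
      match q, h with
      | none, h => exact h
      | some p, h => exact hk1 p h) (by
      intro s l h
      rw [hC]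
      match l, h with
      | none, h =>
        have := (hC _ _).1 (h none ((hC _ _).2 (ht (b s))))
        exact this
      | some x, h =>
        apply hp s x
        intro p hp hap
        exact (hC _ _).1 (h (some ⟨p, hp⟩) ((hC _ _).2 hap))) (by
      intro s
      exact ⟨none, (hC _ _).2 (ht (b s))⟩) (fun s => (hM s).urep)
  let W : Type := {x : K × (∀ s, M s) // ∀ s, (¬ a s ≤ x.1 → IsBot (x.2 s)) ∧
      (a s ≤ x.1 → ¬ x.1 ≤ b s → IsTop (x.2 s))}
  let W' : Type := {x : Option K × (∀ s, M s) //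
    ∀ s, (¬ C (some (a s)) ≤ C x.1 → ∀ m, x.2 s ≤ m) ∧
        (C (some (a s)) ≤ C x.1 → ¬ C x.1 ≤ C (some (b s)) → ∀ m, m ≤ x.2 s)}
  have hval : ∀ (k : K) (m : ∀ s, M s),
      (∀ s, (¬ C (some (a s)) ≤ C (some k) → ∀ n, m s ≤ n) ∧
        (C (some (a s)) ≤ C (some k) → ¬ C (some k) ≤ C (some (b s)) → ∀ n, n ≤ m s)) ↔
      (∀ s, (¬ a s ≤ k → IsBot (m s)) ∧ (a s ≤ k → ¬ k ≤ b s → IsTop (m s))) := by
    intro k m
    simp only [hC]
    exact Iff.rfl
  let g : W' → Option W := fun x => match x with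
    | ⟨(none, _), _⟩ => none
    | ⟨(some k, m), hx⟩ => some ⟨(k, m), (hval k m).1 hx⟩
  have hg : Function.Surjective g := by
    intro w
    match w with
    | none =>
      refine ⟨⟨(none, fun s => tp s), fun s => ⟨fun h => ?_, fun _ _ m => htp s m⟩⟩, rfl⟩
      exact absurd ((hC _ _).2 (by simp [leTop])) h
    | some ⟨(k, m), hx⟩ => exact ⟨⟨(some k, m), (hval k m).2 hx⟩, rfl⟩
  have h2 : URep (Option W) (leTop (fun x y => x ≤ y)) := by
    refine URep.ofSurj h g hg ?_
    rintro ⟨⟨k, m⟩, hx⟩ ⟨⟨k', m'⟩, hy⟩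
    match k, k', hx, hy with
    | none, none, hx, hy =>
      refine iff_of_true trivial ⟨le_rfl, fun s => ?_⟩
      exact (hy s).2 ((hC _ _).2 (by simp [leTop])) (fun h => by
        have := (hC _ _).1 h
        exact this) _
    | some k, none, hx, hy =>
      refine iff_of_true trivial ⟨(hC _ _).2 (by simp [leTop]), fun s => ?_⟩
      exact (hy s).2 ((hC _ _).2 (by simp [leTop])) (fun h => by
        have := (hC _ _).1 h
        exact this) _
    | none, some k', hx, hy =>
      refine iff_of_false (fun h => h) ?_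
      rintro ⟨h, _⟩
      exact (hC _ _).1 h
    | some k, some k', hx, hy =>
      constructor
      · intro h
        exact ⟨(hC _ _).2 h.1, fun s => h.2 s⟩
      · rintro ⟨h1, h3⟩
        exact ⟨(hC _ _).1 h1, fun s => h3 s⟩
  refine h2.removeTop (⟨(t, fun s => tp s), fun s => ⟨fun h => ?_, fun _ _ m => htp s m⟩⟩ : W) ?_
  · exact absurd (ht _) h
  · rintro ⟨⟨k, m⟩, hx⟩
    exact ⟨ht k, fun s => htp s _⟩

theorem main' {K : Type} [Lattice K] (hK : Representable K) {I : Type} [Finite I] (a b : I → K)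
    (hp : ∀ s x, (∀ p, SupPrime p → p ≤ a s → p ≤ x) → a s ≤ x) (M : I → Type)
    [∀ s, Lattice (M s)] (hM : ∀ s, Representable (M s)) :
    URep {x : K × (∀ s, M s) // ∀ s, (¬ x.1 ≤ b s → IsTop (x.2 s)) ∧
      (x.1 ≤ b s → ¬ a s ≤ x.1 → IsBot (x.2 s))} (fun x y => x ≤ y) := by
  have h := URep.dual (main (K := Kᵒᵈ) hK.dual (fun s => OrderDual.toDual (b s))
    (fun s => OrderDual.toDual (a s)) (by
      intro s x hx
      exact hp s (OrderDual.ofDual x)
        (fun p hp hpa => hx (OrderDual.toDual p) hp.dual hpa))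
    (fun s => (M s)ᵒᵈ) (fun s => (hM s).dual))
  exact h

end IntM

/-- **Multiplication of intervals.** -/
theorem intervalMul {K : Type} [Lattice K] (hK : Representable K) {I : Type} [Finite I]
    (a b : I → K) (hp : ∀ s x, (∀ p, InfPrime p → b s ≤ p → x ≤ p) → x ≤ b s) (M : I → Type)
    [∀ s, Lattice (M s)] (hM : ∀ s, Representable (M s)) (L : Type) [Lattice L]
    (e : L ≃o {x : K × (∀ s, M s) // ∀ s, (¬ a s ≤ x.1 → IsBot (x.2 s)) ∧
      (a s ≤ x.1 → ¬ x.1 ≤ b s → IsTop (x.2 s))}) : Representable L :=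
  (IntM.main hK a b hp M hM).representable L e.symm.toEquiv (fun _ _ => e.symm.le_iff_le)

/-- **Multiplication of intervals, dual form.** -/
theorem intervalMul' {K : Type} [Lattice K] (hK : Representable K) {I : Type} [Finite I]
    (a b : I → K) (hp : ∀ s x, (∀ p, SupPrime p → p ≤ a s → p ≤ x) → a s ≤ x) (M : I → Type)
    [∀ s, Lattice (M s)] (hM : ∀ s, Representable (M s)) (L : Type) [Lattice L]
    (e : L ≃o {x : K × (∀ s, M s) // ∀ s, (¬ x.1 ≤ b s → IsTop (x.2 s)) ∧
      (x.1 ≤ b s → ¬ a s ≤ x.1 → IsBot (x.2 s))}) : Representable L :=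
  (IntM.main' hK a b hp M hM).representable L e.symm.toEquiv (fun _ _ => e.symm.le_iff_le)

end P183
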