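import Vale.Agent.P183.Defs

/-!
# P183: intervals of subgroup lattices of finite groups

The congruences of the `G`-set `G ⧸ H` form the interval of all subgroups above `H`.
-/

namespace P183

variable {G : Type} [Group G]

/-- the congruence of `G ⧸ H` that belongs to a subgroup above `H` -/
def icon (H K : Subgroup G) (h : H ≤ K) : UCon (fun (g : G) (x : G ⧸ H) => g • x) :=
  ⟨Setoid.ker (Subgroup.quotientMapOfLE h), by
    intro g x y hxy
    rw [Setoid.ker_def] at hxy ⊢
    induction x using QuotientGroup.induction_on with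
    | H a =>
    induction y using QuotientGroup.induction_on with
    | H b =>
    have h1 : ((a : G) : G ⧸ K) = ((b : G) : G ⧸ K) := hxy
    show ((g * a : G) : G ⧸ K) = ((g * b : G) : G ⧸ K)
    rw [QuotientGroup.eq] at h1 ⊢
    simpa [mul_assoc] using h1⟩

theorem icon_iff (H K : Subgroup G) (h : H ≤ K) (a b : G) :
    (icon H K h).1 (a : G ⧸ H) (b : G ⧸ H) ↔ a⁻¹ * b ∈ K := by
  show ((a : G) : G ⧸ K) = ((b : G) : G ⧸ K) ↔ _
  rw [QuotientGroup.eq]

/-- the subgroup of a congruence -/
def isub (H : Subgroup G) (r : UCon (fun (g : G) (x : G ⧸ H) => g • x)) : Subgroup G where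
  carrier := {g | r.1 ((1 : G) : G ⧸ H) (g : G ⧸ H)}
  one_mem' := r.1.refl _
  mul_mem' := by
    intro a b ha hb
    have h1 := r.2 a _ _ hb
    have h2 : r.1 (a : G ⧸ H) ((a * b : G) : G ⧸ H) := by
      simpa [MulAction.Quotient.smul_coe] using h1
    exact r.1.trans ha h2
  inv_mem' := by
    intro a ha
    have h1 := r.2 a⁻¹ _ _ ha
    have h2 : r.1 ((a⁻¹ : G) : G ⧸ H) ((1 : G) : G ⧸ H) := by
      simpa [MulAction.Quotient.smul_coe] using h1
    exact r.1.symm h2

theorem le_isub (H : Subgroup G) (r : UCon (fun (g : G) (x : G ⧸ H) => g • x)) :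
    H ≤ isub H r := by
  intro g hg
  show r.1 ((1 : G) : G ⧸ H) (g : G ⧸ H)
  have : ((1 : G) : G ⧸ H) = (g : G ⧸ H) := by
    rw [QuotientGroup.eq]; simpa using hg
  rw [this]

theorem icon_isub (H : Subgroup G) (r : UCon (fun (g : G) (x : G ⧸ H) => g • x)) :
    icon H (isub H r) (le_isub H r) = r := by
  apply Subtype.ext
  ext x y
  induction x using QuotientGroup.induction_on with
  | H a =>
  induction y using QuotientGroup.induction_on with
  | H b =>
  rw [icon_iff]
  show r.1 ((1 : G) : G ⧸ H) ((a⁻¹ * b : G) : G ⧸ H) ↔ r.1 (a : G ⧸ H) (b : G ⧸ H)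
  constructor
  · intro h
    have h1 := r.2 a _ _ h
    simpa [MulAction.Quotient.smul_coe] using h1
  · intro h
    have h1 := r.2 a⁻¹ _ _ h
    simpa [MulAction.Quotient.smul_coe] using h1

theorem icon_congr (H : Subgroup G) {K K' : Subgroup G} (e : K = K') (h : H ≤ K)
    (h' : H ≤ K') : icon H K h = icon H K' h' := by
  subst e
  rfl

theorem URep.interval {P : Type} {le : P → P → Prop} {G : Type} [Group G] [Finite G]
    (H : Subgroup G) (c : P → Subgroup G) (hc : ∀ K, H ≤ K ↔ ∃ p, c p = K)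
    (hle : ∀ p q, c p ≤ c q ↔ le p q) : URep P le := by
  refine ⟨G ⧸ H, inferInstance, ⟨((1 : G) : G ⧸ H)⟩, G, inferInstance, fun g x => g • x,
    fun p => icon H (c p) ((hc _).2 ⟨p, rfl⟩), ?_, ?_⟩
  · intro r
    obtain ⟨p, hp⟩ := (hc _).1 (le_isub H r)
    exact ⟨p, (icon_congr H hp _ _).trans (icon_isub H r)⟩
  · intro p q
    rw [← hle]
    constructor
    · intro h g hg
      have h1 : (icon H (c p) ((hc _).2 ⟨p, rfl⟩)).1 ((1 : G) : G ⧸ H) (g : G ⧸ H) := by
        rw [icon_iff]; simpa using hg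
      have h2 : (icon H (c q) ((hc _).2 ⟨q, rfl⟩)).1 ((1 : G) : G ⧸ H) (g : G ⧸ H) := h h1
      rw [icon_iff] at h2
      simpa using h2
    · intro h
      show (icon H (c p) ((hc _).2 ⟨p, rfl⟩)).1 ≤ (icon H (c q) ((hc _).2 ⟨q, rfl⟩)).1
      intro x y
      induction x using QuotientGroup.induction_on with
      | H a =>
      induction y using QuotientGroup.induction_on with
      | H b =>
      rw [icon_iff, icon_iff]
      exact fun hab => h hab

end P183
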