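import Mathlib

/-!
# P183: the congruences of the plane over a field

The equivalence relations on `K × K` preserved by all maps `x ↦ r • x + c` are equality, the
parallel classes of lines (one for every `t : Option K`) and the full relation.
-/

namespace P183

variable {K : Type} [Field K]

/-- equality, the direction `(0, 1)` (`none`) or `(1, t)` (`some t`), or the full relation -/
def C2 : WithBot (WithTop (Option K)) → Setoid (K × K)
  | none => ⊥
  | some none => ⊤
  | some (some none) => Setoid.ker (fun x => x.1)
  | some (some (some t)) => Setoid.ker (fun x => x.2 - t * x.1)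

theorem C2_none_apply (x y : K × K) : C2 (some (some none)) x y ↔ x.1 = y.1 := Iff.rfl

theorem C2_some_apply (t : K) (x y : K × K) :
    C2 (some (some (some t))) x y ↔ x.2 - t * x.1 = y.2 - t * y.1 := Iff.rfl

/-- every member is preserved by the maps `x ↦ r • x + c` -/
theorem C2_pres (j : WithBot (WithTop (Option K))) (r : K) (c x y : K × K) (h : C2 j x y) :
    C2 j (r • x + c) (r • y + c) := by
  match j, h with
  | none, h =>
    have h' : x = y := h
    rw [h']
  | some none, _ => trivial
  | some (some none), h =>
    have h' : x.1 = y.1 := h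
    show r * x.1 + c.1 = r * y.1 + c.1
    rw [h']
  | some (some (some t)), h =>
    have h' : x.2 - t * x.1 = y.2 - t * y.1 := h
    show r * x.2 + c.2 - t * (r * x.1 + c.1) = r * y.2 + c.2 - t * (r * y.1 + c.1)
    linear_combination r * h'

theorem C2_surj (E : Setoid (K × K))
    (hE : ∀ (r : K) (c x y : K × K), E x y → E (r • x + c) (r • y + c)) : ∃ j, C2 j = E := by
  have h0 : ∀ x y, E x y ↔ E (x - y) 0 := by
    intro x y
    constructor
    · intro h
      have := hE 1 (-y) x y h
      rwa [one_smul, one_smul, add_neg_cancel, ← sub_eq_add_neg] at this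
    · intro h
      have := hE 1 y (x - y) 0 h
      rwa [one_smul, one_smul, sub_add_cancel, zero_add] at this
  have hsm : ∀ (r : K) (w : K × K), E w 0 → E (r • w) 0 := by
    intro r w h
    have := hE r 0 w 0 h
    rwa [add_zero, smul_zero, add_zero] at this
  have hadd : ∀ w w' : K × K, E w 0 → E w' 0 → E (w + w') 0 := by
    intro w w' h h'
    have h1 := hE 1 w' w 0 h
    rw [one_smul, one_smul, zero_add] at h1
    exact E.trans h1 h'
  by_cases ha : ∃ u v : K × K, E u 0 ∧ E v 0 ∧ u.1 * v.2 - u.2 * v.1 ≠ 0
  · obtain ⟨u, v, hu, hv, hd⟩ := ha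
    refine ⟨some none, ?_⟩
    show (⊤ : Setoid (K × K)) = E
    symm
    rw [eq_top_iff]
    intro x y _
    rw [h0]
    have h1 : x - y = (((x - y).1 * v.2 - (x - y).2 * v.1) / (u.1 * v.2 - u.2 * v.1)) • u +
        ((u.1 * (x - y).2 - u.2 * (x - y).1) / (u.1 * v.2 - u.2 * v.1)) • v := by
      apply Prod.ext
      · show (x - y).1 = (((x - y).1 * v.2 - (x - y).2 * v.1) / (u.1 * v.2 - u.2 * v.1)) * u.1 +
          ((u.1 * (x - y).2 - u.2 * (x - y).1) / (u.1 * v.2 - u.2 * v.1)) * v.1
        rw [div_mul_eq_mul_div, div_mul_eq_mul_div, ← add_div, eq_div_iff hd]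
        ring
      · show (x - y).2 = (((x - y).1 * v.2 - (x - y).2 * v.1) / (u.1 * v.2 - u.2 * v.1)) * u.2 +
          ((u.1 * (x - y).2 - u.2 * (x - y).1) / (u.1 * v.2 - u.2 * v.1)) * v.2
        rw [div_mul_eq_mul_div, div_mul_eq_mul_div, ← add_div, eq_div_iff hd]
        ring
    rw [h1]
    exact hadd _ _ (hsm _ _ hu) (hsm _ _ hv)
  have ha' : ∀ u v : K × K, E u 0 → E v 0 → u.1 * v.2 - u.2 * v.1 = 0 := by
    intro u v hu hv
    by_contra h
    exact ha ⟨u, v, hu, hv, h⟩
  by_cases hb : ∃ w : K × K, E w 0 ∧ w.1 ≠ 0
  · obtain ⟨w, hw, hw1⟩ := hb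
    refine ⟨some (some (some (w.2 / w.1))), ?_⟩
    apply Setoid.ext
    intro x y
    rw [C2_some_apply, h0]
    constructor
    · intro h
      have h1 : x - y = ((x - y).1 / w.1) • w := by
        apply Prod.ext
        · show (x - y).1 = (x - y).1 / w.1 * w.1
          field_simp
        · show (x - y).2 = (x - y).1 / w.1 * w.2
          have h2 : (x - y).2 = w.2 / w.1 * (x - y).1 := by
            show x.2 - y.2 = w.2 / w.1 * (x.1 - y.1)
            linear_combination h
          rw [h2]
          field_simp
      rw [h1]
      exact hsm _ _ hw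
    · intro h
      have h1 := ha' w (x - y) hw h
      have h2 : w.1 * (x.2 - y.2) - w.2 * (x.1 - y.1) = 0 := h1
      field_simp
      linear_combination h2
  have hb' : ∀ w : K × K, E w 0 → w.1 = 0 := by
    intro w hw
    by_contra h
    exact hb ⟨w, hw, h⟩
  by_cases hc : ∃ w : K × K, E w 0 ∧ w.2 ≠ 0
  · obtain ⟨w, hw, hw2⟩ := hc
    refine ⟨some (some none), ?_⟩
    apply Setoid.ext
    intro x y
    rw [C2_none_apply, h0]
    constructor
    · intro h
      have h1 : x - y = ((x - y).2 / w.2) • w := by
        apply Prod.ext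
        · show x.1 - y.1 = (x - y).2 / w.2 * w.1
          rw [hb' w hw, h]
          ring
        · show (x - y).2 = (x - y).2 / w.2 * w.2
          field_simp
      rw [h1]
      exact hsm _ _ hw
    · intro h
      have h1 : x.1 - y.1 = 0 := hb' _ h
      exact sub_eq_zero.mp h1
  · refine ⟨none, ?_⟩
    show (⊥ : Setoid (K × K)) = E
    symm
    rw [eq_bot_iff]
    intro x y h
    rw [h0] at h
    have h1 : x.1 - y.1 = 0 := hb' _ h
    have h2 : x.2 - y.2 = 0 := by
      by_contra h2
      exact hc ⟨x - y, h, h2⟩
    exact Prod.ext (sub_eq_zero.mp h1) (sub_eq_zero.mp h2)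

theorem C2_le (i j : WithBot (WithTop (Option K))) :
    C2 i ≤ C2 j ↔ i = none ∨ j = some none ∨ i = j := by
  constructor
  · intro h
    match i, j, h with
    | none, _, _ => exact Or.inl rfl
    | _, some none, _ => exact Or.inr (Or.inl rfl)
    | some none, none, h =>
      exfalso
      have h1 : ((0, 0) : K × K) = (1, 0) := h (x := (0, 0)) (y := (1, 0)) trivial
      exact zero_ne_one (congrArg Prod.fst h1)
    | some none, some (some none), h =>
      exfalso
      have h1 : (0 : K) = 1 := h (x := (0, 0)) (y := (1, 0)) trivial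
      exact zero_ne_one h1
    | some none, some (some (some t)), h =>
      exfalso
      have h1 : (0 : K) - t * 0 = 1 - t * 0 := h (x := (0, 0)) (y := (0, 1)) trivial
      rw [mul_zero, sub_zero, sub_zero] at h1
      exact zero_ne_one h1
    | some (some none), none, h =>
      exfalso
      have h1 : ((0, 0) : K × K) = (0, 1) := h (x := (0, 0)) (y := (0, 1)) rfl
      exact zero_ne_one (congrArg Prod.snd h1)
    | some (some none), some (some none), _ => exact Or.inr (Or.inr rfl)
    | some (some none), some (some (some t)), h =>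
      exfalso
      have h1 : (0 : K) - t * 0 = 1 - t * 0 := h (x := (0, 0)) (y := (0, 1)) rfl
      rw [mul_zero, sub_zero, sub_zero] at h1
      exact zero_ne_one h1
    | some (some (some s)), none, h =>
      exfalso
      have h0 : C2 (some (some (some s))) (0, 0) (1, s) := by
        show (0 : K) - s * 0 = s - s * 1
        ring
      have h1 : ((0, 0) : K × K) = (1, s) := h h0
      exact zero_ne_one (congrArg Prod.fst h1)
    | some (some (some s)), some (some none), h =>
      exfalso
      have h0 : C2 (some (some (some s))) (0, 0) (1, s) := by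
        show (0 : K) - s * 0 = s - s * 1
        ring
      have h1 : (0 : K) = 1 := h h0
      exact zero_ne_one h1
    | some (some (some s)), some (some (some t)), h =>
      right; right
      have h0 : C2 (some (some (some s))) (0, 0) (1, s) := by
        show (0 : K) - s * 0 = s - s * 1
        ring
      have h1 : (0 : K) - t * 0 = s - t * 1 := h h0
      have h2 : s = t := by linear_combination -h1
      rw [h2]
  · rintro (rfl | rfl | rfl)
    · exact bot_le
    · exact le_top
    · exact le_rfl

end P183
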