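import Vale.Agent.P183.Grid3
import Vale.Agent.P183.Interval

/-!
# P183: the lattice with proper part two chains of two elements and one isolated point
-/

namespace P183

/-- The parallel sum of chains `2, 2, 1` is the interval `[Sym 17 × Sym 17, Sym 289]`, hence a
congruence lattice. -/
theorem chains221 : RepCode 7 [(1, 2), (3, 4)] := by
  obtain ⟨H, c, hc, hle⟩ := Vale.Agent.P183.interval221
  exact URep.interval H c hc hle

end P183
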