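import Vale.Agent.P183.Infl5

/-!
# P183: lexicographic sums over finite distributive lattices (main construction)
-/

namespace P183

/-- a closed family of equivalence relations is a congruence lattice -/
theorem URep.ofClosed {Z : Type} [Finite Z] [Nonempty Z] {P : Type} {le : P → P → Prop}
    (c : P → Setoid Z)
    (closed : ∀ r : Setoid Z, (∀ g, Infl.Comp c g → ∀ x x', r x x' → r (g x) (g x')) →
      ∃ p, c p = r)
    (hle : ∀ p q, c p ≤ c q ↔ le p q) : URep P le := by
  refine ⟨Z, inferInstance, inferInstance, {g : Z → Z // Infl.Comp c g}, inferInstance,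
    fun g => g.1, fun p => ⟨c p, fun g x x' h => g.2 p x x' h⟩, ?_, ?_⟩
  · rintro ⟨r, hr⟩
    obtain ⟨p, hp⟩ := closed r (fun g hg x x' h => hr ⟨g, hg⟩ x x' h)
    exact ⟨p, Subtype.ext hp⟩
  · intro p q
    exact hle p q

namespace Lex

section

variable {P J : Type} (S : J → Set P) (X : J → Type)

/-- symbols -/
abbrev Sym (X : J → Type) : Type := Bool ⊕ (Σ j, Option (X j))

/-- ordinary tuples -/
def Ordi (u : P → Sym X) : Prop :=
  ∀ j, S j ≠ Set.univ → ∃ q, q ∉ S j ∧ u q ≠ Sum.inr ⟨j, none⟩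

/-- the carrier: ordinary tuples and special points -/
abbrev Car : Type := {u : P → Sym X // Ordi S X u} ⊕ {t : Σ j, X j // S t.1 ≠ Set.univ}

variable {S X}

open Classical in
/-- coordinates -/
noncomputable def ev : Car S X → P → Sym X
  | Sum.inl u => u.1
  | Sum.inr t => fun p => if p ∈ S t.1.1 then Sum.inr ⟨t.1.1, some t.1.2⟩
      else Sum.inr ⟨t.1.1, none⟩

/-- the point is the special point `(j, i)` -/
def IsAt (z : Car S X) (j : J) (i : X j) : Prop := ∃ h, z = Sum.inr ⟨⟨j, i⟩, h⟩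

theorem IsAt.inj {z : Car S X} {j : J} {i i' : X j} (h : IsAt z j i) (h' : IsAt z j i') :
    i = i' := by
  obtain ⟨_, h⟩ := h
  obtain ⟨_, h'⟩ := h'
  rw [h] at h'
  have h1 := congrArg Subtype.val (Sum.inr.inj h')
  exact eq_of_heq (Sigma.mk.inj h1).2

theorem ev_out {z : Car S X} {j : J} {i : X j} (h : IsAt z j i) {p : P} (hp : p ∉ S j) :
    ev z p = Sum.inr ⟨j, none⟩ := by
  obtain ⟨_, rfl⟩ := h
  simp [ev, hp]

theorem ev_in {z : Car S X} {j : J} {i : X j} (h : IsAt z j i) {p : P} (hp : p ∈ S j) :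
    ev z p = Sum.inr ⟨j, some i⟩ := by
  obtain ⟨_, rfl⟩ := h
  simp [ev, hp]

theorem e1 {z z' : Car S X} {j : J} {i : X j} (hz : IsAt z j i)
    (h : ∀ p, p ∉ S j → ev z p = ev z' p) : ∃ i', IsAt z' j i' := by
  have hj : S j ≠ Set.univ := by
    obtain ⟨h, _⟩ := hz
    exact h
  match z', h with
  | Sum.inl u, h =>
    exfalso
    obtain ⟨q, hq, hu⟩ := u.2 j hj
    apply hu
    have := h q hq
    rw [ev_out hz hq] at this
    exact this.symm
  | Sum.inr ⟨⟨j', i'⟩, h'⟩, h =>
    obtain ⟨q, hq⟩ := (Set.ne_univ_iff_exists_notMem _).1 hj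
    have h1 := h q hq
    rw [ev_out hz hq] at h1
    by_cases hq' : q ∈ S j'
    · simp only [ev, hq', if_true] at h1
      have h2 := Sum.inr.inj h1
      have h3 : j = j' := congrArg Sigma.fst h2
      subst h3
      exact absurd (eq_of_heq (Sigma.mk.inj h2).2) (by simp)
    · simp only [ev, hq', if_false] at h1
      have h2 := Sum.inr.inj h1
      have h3 : j = j' := congrArg Sigma.fst h2
      subst h3
      exact ⟨i', h', rfl⟩

theorem e2 {z z' : Car S X} {j l : J} {i : X l} (hz : IsAt z l i) (hle : S j ⊆ S l)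
    (h : ∀ p, p ∉ S j → ev z p = ev z' p) :
    ∃ i', IsAt z' l i' ∧ (S j ≠ S l → i' = i) := by
  obtain ⟨i', hi'⟩ := e1 hz (fun p hp => h p (fun h' => hp (hle h')))
  refine ⟨i', hi', fun hne => ?_⟩
  obtain ⟨p, hp, hp'⟩ := Set.exists_of_ssubset (lt_of_le_of_ne hle hne)
  have h1 := h p hp'
  rw [ev_in hz hp, ev_in hi' hp] at h1
  have h2 := (Sigma.mk.inj (Sum.inr.inj h1)).2
  exact (Option.some.inj (eq_of_heq h2)).symm

theorem IsAt.unique {z z' : Car S X} {j : J} {i : X j} (h : IsAt z j i) (h' : IsAt z' j i) :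
    z = z' := by
  obtain ⟨_, rfl⟩ := h
  obtain ⟨_, rfl⟩ := h'
  rfl

/-- the congruence attached to `j` and an equivalence relation `π` on `X j` -/
def cg (j : J) (π : Setoid (X j)) : Setoid (Car S X) where
  r z z' := (∀ p, p ∉ S j → ev z p = ev z' p) ∧
    ∀ i i', IsAt z j i → IsAt z' j i' → π i i'
  iseqv := by
    refine ⟨?_, ?_, ?_⟩
    · intro z
      exact ⟨fun _ _ => rfl, fun i i' h h' => by rw [h.inj h']⟩
    · rintro z z' ⟨h1, h2⟩
      exact ⟨fun p hp => (h1 p hp).symm, fun i i' h h' => π.symm (h2 i' i h' h)⟩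
    · rintro z z' z'' ⟨h1, h2⟩ ⟨g1, g2⟩
      refine ⟨fun p hp => (h1 p hp).trans (g1 p hp), fun i i'' h h'' => ?_⟩
      obtain ⟨i', h'⟩ := e1 h h1
      exact π.trans (h2 i i' h h') (g2 i' i'' h' h'')

theorem cg_iff {j : J} {π : Setoid (X j)} {z z' : Car S X} : cg j π z z' ↔
    (∀ p, p ∉ S j → ev z p = ev z' p) ∧ ∀ i i', IsAt z j i → IsAt z' j i' → π i i' := Iff.rfl

theorem not_isAt_inl {u : {u : P → Sym X // Ordi S X u}} {j : J} {i : X j} :
    ¬ IsAt (Sum.inl u : Car S X) j i := by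
  rintro ⟨_, h⟩
  exact absurd h (by simp)

open Classical in
/-- set the coordinates in `F` to `0` -/
noncomputable def zero (F : Set P) (u : P → Sym X) : P → Sym X :=
  fun p => if p ∈ F then Sum.inl false else u p

theorem ordi_zero {u : P → Sym X} (hu : Ordi S X u) (F : Set P) : Ordi S X (zero F u) := by
  classical
  intro j hj
  obtain ⟨q, hq, h⟩ := hu j hj
  refine ⟨q, hq, ?_⟩
  by_cases hF : q ∈ F
  · simp [zero, hF]
  · simpa [zero, hF] using h

theorem ordi_zero_special {z : Car S X} {l : J} {i : X l} (hz : IsAt z l i) {F : Set P} (hF : ∃ p, p ∈ F ∧ p ∉ S l) :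
    Ordi S X (zero F (ev z)) := by
  classical
  intro j hj
  by_cases hjl : j = l
  · subst hjl
    obtain ⟨p, hp, hp'⟩ := hF
    exact ⟨p, hp', by simp [zero, hp]⟩
  · obtain ⟨q, hq⟩ := (Set.ne_univ_iff_exists_notMem _).1 hj
    refine ⟨q, hq, ?_⟩
    by_cases hF : q ∈ F
    · simp [zero, hF]
    · simp only [zero, hF, if_false]
      by_cases hql : q ∈ S l
      · rw [ev_in hz hql]
        intro h
        exact hjl (congrArg Sigma.fst (Sum.inr.inj h)).symm
      · rw [ev_out hz hql]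
        intro h
        exact hjl (congrArg Sigma.fst (Sum.inr.inj h)).symm

/-- symbolwise action -/
def symW (w : ∀ j, X j → X j) : Sym X → Sym X
  | Sum.inl b => Sum.inl b
  | Sum.inr ⟨j, none⟩ => Sum.inr ⟨j, none⟩
  | Sum.inr ⟨j, some i⟩ => Sum.inr ⟨j, some (w j i)⟩

theorem symW_eq {w : ∀ j, X j → X j} {s : Sym X} {j : J} (h : symW w s = Sum.inr ⟨j, none⟩) :
    s = Sum.inr ⟨j, none⟩ := by
  match s, h with
  | Sum.inr ⟨l, none⟩, h => exact h
  | Sum.inr ⟨l, some i⟩, h =>
    have h2 := Sum.inr.inj h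
    have h3 : l = j := congrArg Sigma.fst h2
    subst h3
    exact absurd (eq_of_heq (Sigma.mk.inj h2).2) (by simp)

/-- action on the carrier -/
def oMap (w : ∀ j, X j → X j) : Car S X → Car S X
  | Sum.inl u => Sum.inl ⟨fun p => symW w (u.1 p), fun j hj => by
      obtain ⟨q, hq, h⟩ := u.2 j hj
      exact ⟨q, hq, fun h' => h (symW_eq h')⟩⟩
  | Sum.inr t => Sum.inr ⟨⟨t.1.1, w t.1.1 t.1.2⟩, t.2⟩

theorem ev_oMap (w : ∀ j, X j → X j) (z : Car S X) (p : P) :
    ev (oMap w z) p = symW w (ev z p) := by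
  classical
  match z with
  | Sum.inl u => rfl
  | Sum.inr ⟨⟨j, i⟩, h⟩ =>
    by_cases hp : p ∈ S j
    · simp [ev, oMap, hp, symW]
    · simp [ev, oMap, hp, symW]

theorem isAt_oMap {w : ∀ j, X j → X j} {z : Car S X} {j : J} {i : X j}
    (h : IsAt (oMap w z) j i) : ∃ i', IsAt z j i' ∧ i = w j i' := by
  match z, h with
  | Sum.inl u, h => exact absurd h not_isAt_inl
  | Sum.inr ⟨⟨l, i'⟩, hl⟩, h =>
    obtain ⟨hj, h⟩ := h
    have h1 : (⟨l, w l i'⟩ : Σ j, X j) = ⟨j, i⟩ := congrArg Subtype.val (Sum.inr.inj h)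
    have h2 : l = j := congrArg Sigma.fst h1
    subst h2
    exact ⟨i', ⟨hl, rfl⟩, (eq_of_heq (Sigma.mk.inj h1).2).symm⟩

theorem oMap_isAt {w : ∀ j, X j → X j} {z : Car S X} {j : J} {i : X j}
    (h : IsAt z j i) : IsAt (oMap w z) j (w j i) := by
  obtain ⟨hj, rfl⟩ := h
  exact ⟨hj, rfl⟩

variable {ι : J → Type} (o : ∀ j, ι j → X j → X j)

/-- the family of congruences -/
def cong (p : Σ j, UCon (o j)) : Setoid (Car S X) := cg p.1 p.2.1

theorem comp_oMap {w : ∀ j, X j → X j} (hw : ∀ j (π : UCon (o j)) x x', π.1 x x' →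
    π.1 (w j x) (w j x')) : Infl.Comp (cong (S := S) o) (oMap w) := by
  rintro ⟨j, π⟩ z z' ⟨h1, h2⟩
  refine ⟨fun p hp => ?_, fun i i' h h' => ?_⟩
  · rw [ev_oMap, ev_oMap, h1 p hp]
  · obtain ⟨l, hl, rfl⟩ := isAt_oMap h
    obtain ⟨l', hl', rfl⟩ := isAt_oMap h'
    exact hw j π _ _ (h2 l l' hl hl')

open Classical in
/-- test of one coordinate -/
noncomputable def tMap (p' : P) (s : Sym X) (z z' : Car S X) : Car S X → Car S X :=
  fun u => if ev u p' = s then z else z'

theorem comp_tMap [Preorder P] (low : ∀ j (p p' : P), p ≤ p' → p' ∈ S j → p ∈ S j)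
    {p p' : P} (hp : p ≤ p') (s : Sym X) {z : Car S X} {u' : {u : P → Sym X // Ordi S X u}}
    (h : ∀ q, q ≠ p → ev z q = ev (Sum.inl u' : Car S X) q) :
    Infl.Comp (cong (S := S) o) (tMap p' s z (Sum.inl u')) := by
  classical
  rintro ⟨j, π⟩ u v ⟨h1, h2⟩
  have hzz : p' ∈ S j → cong (S := S) o ⟨j, π⟩ z (Sum.inl u') := by
    intro hp'
    refine ⟨fun q hq => h q (fun e => hq ?_), fun i i' _ hi' => absurd hi' not_isAt_inl⟩
    rw [e]
    exact low j p p' hp hp'
  by_cases hu : ev u p' = s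
  · by_cases hv : ev v p' = s
    · simp only [tMap, hu, hv, if_true]
      exact (cong o ⟨j, π⟩).refl _
    · simp only [tMap, hu, hv, if_true, if_false]
      apply hzz
      by_contra hj
      exact hv (by rw [← h1 p' hj, hu])
  · by_cases hv : ev v p' = s
    · simp only [tMap, hu, hv, if_true, if_false]
      apply (cong o ⟨j, π⟩).symm
      apply hzz
      by_contra hj
      exact hu (by rw [h1 p' hj, hv])
    · simp only [tMap, hu, hv, if_false]
      exact (cong o ⟨j, π⟩).refl _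

theorem closed [Preorder P] [Finite P] (hS : Function.Injective S)
    (low : ∀ j (p p' : P), p ≤ p' → p' ∈ S j → p ∈ S j)
    (ex : ∀ T : Set P, (∀ p p', p ≤ p' → p' ∈ T → p ∈ T) → ∃ j, S j = T)
    (r : Setoid (Car S X))
    (hr : ∀ g, Infl.Comp (cong (S := S) o) g → ∀ x x', r x x' → r (g x) (g x')) :
    ∃ p, cong o p = r := by
  classical
  obtain ⟨j, hj⟩ := ex {p | ∃ p', p ≤ p' ∧ ∃ u v, r u v ∧ ev u p' ≠ ev v p'} (by
    rintro p p' hp ⟨p'', hp'', h⟩
    exact ⟨p'', hp.trans hp'', h⟩)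
  have hmem : ∀ p, p ∈ S j ↔ ∃ p', p ≤ p' ∧ ∃ u v, r u v ∧ ev u p' ≠ ev v p' := by
    intro p
    rw [hj]
    exact Iff.rfl
  have hoff : ∀ z z', r z z' → ∀ p, p ∉ S j → ev z p = ev z' p := by
    intro z z' h p hp
    by_contra hne
    exact hp ((hmem p).2 ⟨p, le_refl _, z, z', h, hne⟩)
  -- changing one coordinate
  have hone : ∀ p, p ∈ S j → ∀ (z : Car S X) (u' : {u : P → Sym X // Ordi S X u}),
      (∀ q, q ≠ p → ev z q = ev (Sum.inl u' : Car S X) q) → r z (Sum.inl u') := by
    intro p hp z u' h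
    obtain ⟨p', hpp, u, v, huv, hne⟩ := (hmem p).1 hp
    have h1 := hr _ (comp_tMap o low hpp (ev u p') h) u v huv
    have e1 : tMap p' (ev u p') z (Sum.inl u') u = z := by simp [tMap]
    have e2 : tMap p' (ev u p') z (Sum.inl u') v = Sum.inl u' := by
      simp only [tMap]
      rw [if_neg (fun e => hne e.symm)]
    rw [e1, e2] at h1
    exact h1
  -- setting coordinates of an ordinary tuple to zero
  have hord : ∀ (F : Finset P), (↑F : Set P) ⊆ S j → ∀ u : {u : P → Sym X // Ordi S X u},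
      r (Sum.inl u) (Sum.inl ⟨zero (↑F : Set P) u.1, ordi_zero u.2 _⟩) := by
    intro F
    induction F using Finset.induction_on with
    | empty =>
      intro _ u
      have e : (⟨zero (↑(∅ : Finset P) : Set P) u.1, ordi_zero u.2 _⟩ :
          {u : P → Sym X // Ordi S X u}) = u := by
        apply Subtype.ext
        funext p
        simp [zero]
      rw [e]
    | insert p F hp ih =>
      intro hF u
      have hF' : (↑F : Set P) ⊆ S j := fun q hq => hF (by simp [Finset.mem_coe.1 hq])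
      have hpj : p ∈ S j := hF (by simp)
      refine r.trans (ih hF' u) (hone p hpj _ _ ?_)
      intro q hq
      show zero (↑F : Set P) u.1 q = zero (↑(insert p F) : Set P) u.1 q
      simp only [zero, Finset.mem_coe, Finset.mem_insert]
      by_cases hqF : q ∈ F
      · simp [hqF]
      · simp [hqF, hq]
  obtain ⟨_⟩ := nonempty_fintype P
  have hord' : ∀ u : {u : P → Sym X // Ordi S X u},
      r (Sum.inl u) (Sum.inl ⟨zero (S j) u.1, ordi_zero u.2 _⟩) := by
    intro u
    have := hord (S j).toFinset (by simp) u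
    simpa using this
  have hgood : ∀ z : Car S X, (∀ l i, IsAt z l i → ¬ S j ⊆ S l) →
      ∃ h, r z (Sum.inl ⟨zero (S j) (ev z), h⟩) := by
    intro z hz
    match z, hz with
    | Sum.inl u, _ => exact ⟨_, hord' u⟩
    | Sum.inr t, hz =>
      obtain ⟨⟨l, i⟩, hl⟩ := t
      have hat : IsAt (Sum.inr ⟨⟨l, i⟩, hl⟩ : Car S X) l i := ⟨hl, rfl⟩
      obtain ⟨p, hp, hp'⟩ := Set.not_subset.1 (hz l i hat)
      have o1 : Ordi S X (zero {p} (ev (Sum.inr ⟨⟨l, i⟩, hl⟩ : Car S X))) :=
        ordi_zero_special hat ⟨p, rfl, hp'⟩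
      have h1 : r (Sum.inr ⟨⟨l, i⟩, hl⟩) (Sum.inl ⟨_, o1⟩) := by
        apply hone p hp
        intro q hq
        show _ = zero {p} _ q
        simp [zero, hq]
      have h2 := hord' ⟨_, o1⟩
      have e : zero (S j) (zero {p} (ev (Sum.inr ⟨⟨l, i⟩, hl⟩ : Car S X))) =
          zero (S j) (ev (Sum.inr ⟨⟨l, i⟩, hl⟩ : Car S X)) := by
        funext q
        by_cases hq : q ∈ S j
        · simp [zero, hq]
        · have : q ≠ p := fun e => hq (e ▸ hp)
          simp [zero, hq, this]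
      have o2 : Ordi S X (zero (S j) (ev (Sum.inr ⟨⟨l, i⟩, hl⟩ : Car S X))) := by
        rw [← e]
        exact ordi_zero o1 _
      refine ⟨o2, r.trans h1 ?_⟩
      have e' : (⟨zero (S j) (zero {p} (ev (Sum.inr ⟨⟨l, i⟩, hl⟩ : Car S X))),
          ordi_zero o1 _⟩ : {u : P → Sym X // Ordi S X u}) = ⟨_, o2⟩ := Subtype.ext e
      rw [← e']
      exact h2
  -- the index congruence
  by_cases hju : S j = Set.univ
  · -- everything is related
    refine ⟨⟨j, ⊤, fun _ _ _ _ => trivial⟩, ?_⟩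
    apply Setoid.ext
    intro z z'
    constructor
    · intro _
      have hno : ∀ z : Car S X, ∀ l i, IsAt z l i → ¬ S j ⊆ S l := by
        rintro z l i ⟨hl, _⟩ h
        exact hl (Set.eq_univ_of_univ_subset (hju ▸ h))
      obtain ⟨h1, h2⟩ := hgood z (hno z)
      obtain ⟨h1', h2'⟩ := hgood z' (hno z')
      have e : (⟨zero (S j) (ev z), h1⟩ : {u : P → Sym X // Ordi S X u}) = ⟨_, h1'⟩ := by
        apply Subtype.ext
        funext q
        simp [zero, hju]
      rw [e] at h2
      exact r.trans h2 (r.symm h2')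
    · intro h
      exact ⟨hoff z z' h, fun _ _ _ _ => trivial⟩
  · let π : Setoid (X j) :=
      { r := fun i i' => r (Sum.inr ⟨⟨j, i⟩, hju⟩) (Sum.inr ⟨⟨j, i'⟩, hju⟩)
        iseqv := ⟨fun i => r.refl _, fun h => r.symm h, fun h h' => r.trans h h'⟩ }
    have hπ : ∀ (k : ι j) (i i' : X j), π i i' → π (o j k i) (o j k i') := by
      intro k i i' h
      have hw : ∀ l (ρ : UCon (o l)) x x', ρ.1 x x' →
          ρ.1 (Function.update (fun l => (id : X l → X l)) j (o j k) l x)
            (Function.update (fun l => (id : X l → X l)) j (o j k) l x') := by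
        intro l ρ x x' hx
        by_cases hl : l = j
        · subst hl
          rw [Function.update_self]
          exact ρ.2 k x x' hx
        · rw [Function.update_of_ne hl]
          exact hx
      have h1 := hr _ (comp_oMap o hw) _ _ h
      simp only [oMap, Function.update_self] at h1
      exact h1
    refine ⟨⟨j, π, hπ⟩, ?_⟩
    apply Setoid.ext
    intro z z'
    constructor
    · rintro ⟨h1, h2⟩
      by_cases hz : ∀ l i, IsAt z l i → ¬ S j ⊆ S l
      · have hz' : ∀ l i, IsAt z' l i → ¬ S j ⊆ S l := by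
          intro l i hi hle
          obtain ⟨i', hi', _⟩ := e2 hi hle (fun p hp => (h1 p hp).symm)
          exact hz l i' hi' hle
        obtain ⟨g1, g2⟩ := hgood z hz
        obtain ⟨g1', g2'⟩ := hgood z' hz'
        have e : (⟨zero (S j) (ev z), g1⟩ : {u : P → Sym X // Ordi S X u}) = ⟨_, g1'⟩ := by
          apply Subtype.ext
          funext q
          by_cases hq : q ∈ S j
          · simp [zero, hq]
          · simp [zero, hq, h1 q hq]
        rw [e] at g2
        exact r.trans g2 (r.symm g2')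
      · push Not at hz
        obtain ⟨l, i, hi, hle⟩ := hz
        obtain ⟨i', hi', hne⟩ := e2 hi hle h1
        by_cases hjl : S j = S l
        · have hjl' : j = l := hS hjl
          subst hjl'
          obtain ⟨_, rfl⟩ := hi
          obtain ⟨_, rfl⟩ := hi'
          exact h2 i i' ⟨hju, rfl⟩ ⟨hju, rfl⟩
        · rw [hne hjl] at hi'
          rw [hi.unique hi']
    · intro h
      refine ⟨hoff z z' h, ?_⟩
      rintro i i' ⟨_, rfl⟩ ⟨_, rfl⟩
      exact h

/-- the order of the family -/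
theorem cong_le (hS : Function.Injective S)
    (htop : ∀ j, S j = Set.univ → Subsingleton (X j)) (p q : Σ j, UCon (o j)) :
    cong (S := S) o p ≤ cong o q ↔ (S p.1 ⊂ S q.1 ∨ ∃ (j : J) (x x' : UCon (o j)),
      p = ⟨j, x⟩ ∧ q = ⟨j, x'⟩ ∧ x ≤ x') := by
  classical
  constructor
  · intro h
    have hle : S p.1 ⊆ S q.1 := by
      intro a ha
      by_contra hq
      have o1 : Ordi S X (fun _ : P => (Sum.inl false : Sym X)) := by
        intro j hj
        obtain ⟨q, hq⟩ := (Set.ne_univ_iff_exists_notMem _).1 hj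
        exact ⟨q, hq, by simp⟩
      have o2 : Ordi S X (fun b : P => if b = a then (Sum.inl true : Sym X)
          else Sum.inl false) := by
        intro j hj
        obtain ⟨q, hq⟩ := (Set.ne_univ_iff_exists_notMem _).1 hj
        refine ⟨q, hq, ?_⟩
        by_cases hqa : q = a
        · simp [hqa]
        · simp [hqa]
      have h1 : cong (S := S) o p (Sum.inl ⟨_, o1⟩) (Sum.inl ⟨_, o2⟩) := by
        refine ⟨fun b hb => ?_, fun _ _ hi _ => absurd hi not_isAt_inl⟩
        have : b ≠ a := fun e => hb (e ▸ ha)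
        simp [ev, this]
      have h2 := (h h1).1 a hq
      simp [ev] at h2
    by_cases hlt : S p.1 ⊂ S q.1
    · exact Or.inl hlt
    · right
      have heq : p.1 = q.1 := hS (by
        by_contra hne
        exact hlt (lt_of_le_of_ne hle hne))
      obtain ⟨j, π⟩ := p
      obtain ⟨l, ρ⟩ := q
      have heq : j = l := heq
      subst heq
      refine ⟨j, π, ρ, rfl, rfl, ?_⟩
      intro i i' hi
      by_cases hju : S j = Set.univ
      · have := htop j hju
        rw [Subsingleton.elim i i']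
      · have h1 : cong (S := S) o ⟨j, π⟩ (Sum.inr ⟨⟨j, i⟩, hju⟩) (Sum.inr ⟨⟨j, i'⟩, hju⟩) := by
          refine ⟨fun p hp => ?_, ?_⟩
          · simp [ev, hp]
          · rintro l l' hl hl'
            have e1 : i = l := IsAt.inj ⟨hju, rfl⟩ hl
            have e2 : i' = l' := IsAt.inj ⟨hju, rfl⟩ hl'
            subst e1 e2
            exact hi
        exact (h h1).2 i i' ⟨hju, rfl⟩ ⟨hju, rfl⟩
  · rintro (hlt | ⟨j, π, ρ, rfl, rfl, hle⟩)
    · rintro z z' ⟨h1, h2⟩
      refine ⟨fun a ha => h1 a (fun h => ha (hlt.1 h)), ?_⟩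
      intro i i' hi hi'
      obtain ⟨l, hl, hne⟩ := e2 hi hlt.1 h1
      have : l = i := hne (fun e => (ne_of_lt hlt) e)
      subst this
      rw [hl.inj hi']
    · rintro z z' ⟨h1, h2⟩
      exact ⟨h1, fun i i' hi hi' => hle (h2 i i' hi hi')⟩

/-- lexicographic sums over lattices of lower sets, trivial top -/
theorem urep [Preorder P] [Finite P] [Finite J] (hS : Function.Injective S)
    (low : ∀ j (p p' : P), p ≤ p' → p' ∈ S j → p ∈ S j)
    (ex : ∀ T : Set P, (∀ p p', p ≤ p' → p' ∈ T → p ∈ T) → ∃ j, S j = T)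
    {M : J → Type} {le : ∀ j, M j → M j → Prop} (hM : ∀ j, URep (M j) (le j))
    (hsub : ∀ j, S j = Set.univ → Subsingleton (M j)) :
    URep (Σ j, M j) (fun p q => S p.1 ⊂ S q.1 ∨ ∃ (j : J) (x x' : M j),
      p = ⟨j, x⟩ ∧ q = ⟨j, x'⟩ ∧ le j x x') := by
  classical
  choose X hX hX0 ι hι o c hc hle using hM
  have htop : ∀ j, S j = Set.univ → Subsingleton (X j) := by
    intro j hj
    refine ⟨fun i i' => ?_⟩
    obtain ⟨m, hm⟩ := hc j ⟨⊤, fun _ _ _ _ => trivial⟩
    obtain ⟨m', hm'⟩ := hc j ⟨⊥, fun k x x' h => by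
      have e : x = x' := h
      show o j k x = o j k x'
      rw [e]⟩
    have : m = m' := (hsub j hj).allEq m m'
    rw [this, hm'] at hm
    have h1 : (⊥ : Setoid (X j)) = ⊤ := congrArg Subtype.val hm
    have h2 : (⊥ : Setoid (X j)) i i' := by
      rw [h1]
      trivial
    exact h2
  have ne : Nonempty (Car S X) := ⟨Sum.inl ⟨fun _ => Sum.inl false, by
    intro j hj
    obtain ⟨q, hq⟩ := (Set.ne_univ_iff_exists_notMem _).1 hj
    exact ⟨q, hq, by simp⟩⟩⟩
  refine URep.ofClosed (fun p : Σ j, M j => cong (S := S) o ⟨p.1, c p.1 p.2⟩) ?_ ?_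
  · intro r hr
    obtain ⟨⟨j, π⟩, hp⟩ := closed o hS low ex r (by
      intro g hg
      apply hr
      intro p x x' h
      exact hg ⟨p.1, c p.1 p.2⟩ x x' h)
    obtain ⟨m, hm⟩ := hc j π
    exact ⟨⟨j, m⟩, by rw [← hp, ← hm]⟩
  · intro p q
    rw [cong_le o hS htop]
    constructor
    · rintro (h | ⟨j, π, ρ, h1, h2, h3⟩)
      · exact Or.inl h
      · right
        obtain ⟨p1, p2⟩ := p
        obtain ⟨q1, q2⟩ := q
        have e1 : p1 = j := congrArg Sigma.fst h1
        have e2 : q1 = j := congrArg Sigma.fst h2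
        subst e1 e2
        have e3 : c q1 p2 = π := eq_of_heq (Sigma.mk.inj h1).2
        have e4 : c q1 q2 = ρ := eq_of_heq (Sigma.mk.inj h2).2
        refine ⟨q1, p2, q2, rfl, rfl, ?_⟩
        rw [← hle, e3, e4]
        exact h3
    · rintro (h | ⟨j, m, m', h1, h2, h3⟩)
      · exact Or.inl h
      · subst h1 h2
        exact Or.inr ⟨j, c j m, c j m', rfl, rfl, (hle j m m').2 h3⟩

end

end Lex

end P183
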