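import Vale.Agent.P183.Infl
import Vale.Agent.P183.Dual

/-!
# P183: removing a new bottom or a new top
-/

namespace P183

/-- remove a bottom with a unique cover -/
theorem URep.removeBot {P : Type} {le : P → P → Prop} (h : URep (Option P) (leBot le)) (a : P)
    (ha : ∀ p, le a p) : URep P le := by
  obtain ⟨A, hA, hne, ι, hι, f, c, hc, hle⟩ := h
  refine URep.ofAbove f (c (some a)).1 (c (some a)).2 (fun p => (c (some p)).1) ?_ ?_ ?_ ?_
  · intro p
    exact (hle (some a) (some p)).2 (ha p)
  · intro p i x y hxy
    exact (c (some p)).2 i x y hxy
  · intro r hr hcl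
    obtain ⟨q, hq⟩ := hc ⟨r, hcl⟩
    match q, hq with
    | some p, hq => exact ⟨p, congrArg Subtype.val hq⟩
    | none, hq =>
      exfalso
      have h1 : c (some a) ≤ c none := by
        rw [hq]
        exact hr
      exact (hle (some a) none).1 h1
  · intro p q
    exact hle (some p) (some q)

/-- remove a top with a unique lower cover -/
theorem URep.removeTop {P : Type} {le : P → P → Prop} (h : URep (Option P) (leTop le)) (a : P)
    (ha : ∀ p, le p a) : URep P le := by
  have h1 := URep.dual h
  have h2 : (fun p q : Option P => leTop le q p) = leBot (fun p q => le q p) := by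
    funext p q
    match p, q with
    | none, none => rfl
    | none, some q => rfl
    | some p, none => rfl
    | some p, some q => rfl
  rw [h2] at h1
  exact URep.dual (URep.removeBot h1 a ha)

end P183
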