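import Vale.Agent.P183.Lex
import Vale.Agent.P183.Infl7
import Vale.Agent.P183.Remove

/-!
# P183: lexicographic sums over finite distributive lattices
-/

namespace P183

/-- a representable lattice has a largest element -/
theorem Representable.exists_top {L : Type} [Lattice L] (h : Representable L) :
    ∃ t : L, ∀ x, x ≤ t := by
  obtain ⟨A, hA, hA0, k, ar, op, ⟨Φ⟩⟩ := h
  refine ⟨Φ ⟨⊤, fun _ _ _ _ => trivial⟩, fun x => ?_⟩
  rw [← Φ.apply_symm_apply x, Φ.le_iff_le]
  intro a b _
  trivial

/-- a representable lattice has a least element -/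
theorem Representable.exists_bot {L : Type} [Lattice L] (h : Representable L) :
    ∃ t : L, ∀ x, t ≤ x := by
  obtain ⟨A, hA, hA0, k, ar, op, ⟨Φ⟩⟩ := h
  refine ⟨Φ ⟨⊥, fun i x y hxy => ?_⟩, fun x => ?_⟩
  · have e : x = y := funext hxy
    rw [e]
  · rw [← Φ.apply_symm_apply x, Φ.le_iff_le]
    intro a b hab
    have e : a = b := hab
    rw [e]

namespace Lex

/-- the order of a lexicographic sum, written out -/
def leX {D : Type} [PartialOrder D] {M : D → Type} (le : ∀ d, M d → M d → Prop)
    (p q : Σ d, M d) : Prop :=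
  p.1 < q.1 ∨ ∃ (d : D) (x x' : M d), p = ⟨d, x⟩ ∧ q = ⟨d, x'⟩ ∧ le d x x'

/-- fibres over a new top -/
def MT {D : Type} (M : D → Type) : Option D → Type
  | none => Unit
  | some d => M d

/-- fibre orders over a new top -/
def leT {D : Type} {M : D → Type} (le : ∀ d, M d → M d → Prop) :
    ∀ d : Option D, MT M d → MT M d → Prop
  | none => fun _ _ => True
  | some d => fun x y => le d x y

/-- the sum over `D` with a new top -/
def toO {D : Type} (M : D → Type) : (Σ j : WithTop D, MT M j) → Option (Σ d, M d)
  | ⟨none, _⟩ => none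
  | ⟨some d, m⟩ => some ⟨d, m⟩

theorem toO_bij {D : Type} (M : D → Type) : Function.Bijective (toO M) := by
  constructor
  · rintro ⟨j, m⟩ ⟨l, n⟩ h
    match j, m, l, n, h with
    | none, m, none, n, _ => rfl
    | none, m, some l, n, h => exact absurd h (by simp [toO])
    | some j, m, none, n, h => exact absurd h (by simp [toO])
    | some j, m, some l, n, h =>
      have h1 : (⟨j, m⟩ : Σ d, M d) = ⟨l, n⟩ := Option.some.inj h
      have h2 : j = l := congrArg Sigma.fst h1
      subst h2
      have h3 : m = n := eq_of_heq (Sigma.mk.inj h1).2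
      subst h3
      rfl
  · intro z
    match z with
    | none => exact ⟨⟨none, ()⟩, rfl⟩
    | some z => exact ⟨⟨some z.1, z.2⟩, rfl⟩

theorem toO_le {D : Type} [PartialOrder D] {M : D → Type} (le : ∀ d, M d → M d → Prop)
    (p q : Σ j : WithTop D, MT M j) :
    leTop (leX le) (toO M p) (toO M q) ↔ leX (D := WithTop D) (M := MT M) (leT le) p q := by
  obtain ⟨j, m⟩ := p
  obtain ⟨l, n⟩ := q
  match j, m, l, n with
  | none, m, none, n =>
    exact ⟨fun _ => Or.inr ⟨none, m, n, rfl, rfl, trivial⟩, fun _ => trivial⟩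
  | some j, m, none, n =>
    exact ⟨fun _ => Or.inl (WithTop.coe_lt_top j), fun _ => trivial⟩
  | none, m, some l, n =>
    constructor
    · intro h
      exact absurd h (by simp [toO, leTop])
    · rintro (h | ⟨j, x, x', h1, h2, h3⟩)
      · exact absurd h (not_lt_of_ge (le_top (α := WithTop D)))
      · have e1 : (none : WithTop D) = j := congrArg Sigma.fst h1
        have e2 : (some l : WithTop D) = j := congrArg Sigma.fst h2
        rw [← e1] at e2
        exact absurd e2 (by simp)
  | some j, m, some l, n =>
    constructor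
    · rintro (h | ⟨d, x, x', h1, h2, h3⟩)
      · exact Or.inl (WithTop.coe_lt_coe.2 h)
      · have e1 : j = d := congrArg Sigma.fst h1
        have e2 : l = d := congrArg Sigma.fst h2
        subst e1 e2
        have e3 : m = x := eq_of_heq (Sigma.mk.inj h1).2
        have e4 : n = x' := eq_of_heq (Sigma.mk.inj h2).2
        subst e3 e4
        exact Or.inr ⟨some l, m, n, rfl, rfl, h3⟩
    · rintro (h | ⟨d, x, x', h1, h2, h3⟩)
      · exact Or.inl (WithTop.coe_lt_coe.1 h)
      · have e1 : (some j : WithTop D) = d := congrArg Sigma.fst h1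
        have e2 : (some l : WithTop D) = d := congrArg Sigma.fst h2
        subst e1
        have e2' : l = j := Option.some.inj e2
        subst e2'
        have e3 : m = x := eq_of_heq (Sigma.mk.inj h1).2
        have e4 : n = x' := eq_of_heq (Sigma.mk.inj h2).2
        subst e3 e4
        exact Or.inr ⟨l, m, n, rfl, rfl, h3⟩

/-- lexicographic sums over a finite distributive lattice with trivial top fibre -/
theorem urep_distrib (D : Type) [DistribLattice D] [Finite D] [Nonempty D] {M : D → Type}
    {le : ∀ d, M d → M d → Prop} (hM : ∀ d, URep (M d) (le d))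
    (hsub : ∀ d : D, (∀ x, x ≤ d) → Subsingleton (M d)) :
    URep (Σ d, M d) (leX le) := by
  classical
  obtain ⟨_⟩ := nonempty_fintype D
  let _ : OrderBot D := Fintype.toOrderBot D
  let P := {a : D // SupIrred a}
  let E : D ≃o LowerSet P := OrderIso.lowerSetSupIrred
  let S : D → Set P := fun d => (E d : Set P)
  have hle : ∀ d d', S d ⊆ S d' ↔ d ≤ d' := by
    intro d d'
    rw [← E.le_iff_le]
    exact Iff.rfl
  have hS : Function.Injective S := by
    intro d d' h
    apply le_antisymm
    · rw [← hle, h]
    · rw [← hle, h]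
  have hlt : ∀ d d', S d ⊂ S d' ↔ d < d' := by
    intro d d'
    rw [lt_iff_le_not_ge (a := d)]
    rw [← hle, ← hle]
    exact Iff.rfl
  have low : ∀ d (p p' : P), p ≤ p' → p' ∈ S d → p ∈ S d := by
    intro d p p' hp hp'
    exact (E d).lower hp hp'
  have ex : ∀ T : Set P, (∀ p p', p ≤ p' → p' ∈ T → p ∈ T) → ∃ d, S d = T := by
    intro T hT
    refine ⟨E.symm ⟨T, fun p' p hp hp' => hT p p' hp hp'⟩, ?_⟩
    show ((E (E.symm _) : LowerSet P) : Set P) = T
    rw [E.apply_symm_apply]
    rfl
  have h := Lex.urep (P := P) (J := D) hS low ex hM (by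
    intro d hd
    apply hsub
    intro x
    rw [← hle, hd]
    exact Set.subset_univ _)
  refine h.congr (Equiv.refl _) ?_
  intro p q
  show leX le p q ↔ _
  rw [hlt]
  exact Iff.rfl

/-- lexicographic sums over a finite distributive lattice -/
theorem urep_distrib' (D : Type) [DistribLattice D] [Finite D] [Nonempty D] {M : D → Type}
    {le : ∀ d, M d → M d → Prop} (hM : ∀ d, URep (M d) (le d))
    (htop : ∀ d, ∃ t, ∀ x, le d x t) : URep (Σ d, M d) (leX le) := by
  classical
  obtain ⟨_⟩ := nonempty_fintype D
  let _ : OrderTop D := Fintype.toOrderTop D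
  have : Finite (WithTop D) := inferInstanceAs (Finite (Option D))
  have h := urep_distrib (WithTop D) (M := MT M) (le := leT le) (by
    intro d
    match d with
    | none => exact Par.urep_unit
    | some d => exact hM d) (by
    intro d hd
    match d, hd with
    | none, _ => exact inferInstanceAs (Subsingleton Unit)
    | some d, hd => exact absurd (hd ⊤) (not_le_of_gt (WithTop.coe_lt_top d)))
  have h2 : URep (Option (Σ d, M d)) (leTop (leX le)) :=
    h.congr (Equiv.ofBijective _ (toO_bij M)) (fun p q => toO_le le p q)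
  obtain ⟨t, ht⟩ := htop ⊤
  refine h2.removeTop ⟨⊤, t⟩ ?_
  rintro ⟨d, x⟩
  by_cases hd : d = ⊤
  · subst hd
    exact Or.inr ⟨⊤, x, t, rfl, rfl, ht x⟩
  · exact Or.inl (lt_top_iff_ne_top.2 hd)

end Lex

/-- **Lexicographic sums over finite distributive lattices.** -/
theorem lexSum (D : Type) [DistribLattice D] [Finite D] [Nonempty D] (M : D → Type)
    [∀ d, Lattice (M d)] (hM : ∀ d, Representable (M d)) (L : Type) [Lattice L]
    (e : L ≃o Σₗ d, M d) : Representable L := by
  have h := Lex.urep_distrib' D (M := M) (le := fun d x y => x ≤ y) (fun d => (hM d).urep)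
    (fun d => (hM d).exists_top)
  refine h.representable L (Equiv.trans toLex e.symm.toEquiv) ?_
  rintro ⟨r, x⟩ ⟨s, x'⟩
  show e.symm (toLex _) ≤ e.symm (toLex _) ↔ _
  rw [e.symm.le_iff_le]
  constructor
  · intro hle
    rcases Sigma.Lex.le_def.1 hle with hlt | ⟨heq, hle⟩
    · exact Or.inl hlt
    · have heq : r = s := heq
      subst heq
      exact Or.inr ⟨r, x, x', rfl, rfl, hle⟩
  · rintro (hlt | ⟨j, y, y', h1, h2, h3⟩)
    · exact Sigma.Lex.left _ _ hlt
    · have e1 : r = j := congrArg Sigma.fst h1
      have e2 : s = j := congrArg Sigma.fst h2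
      subst e1 e2
      have e3 : x = y := eq_of_heq (Sigma.mk.inj h1).2
      have e4 : x' = y' := eq_of_heq (Sigma.mk.inj h2).2
      subst e3 e4
      exact Sigma.Lex.right _ _ h3

end P183
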