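import Vale.Agent.P183.Lex2

/-!
# P183: inflating meets of meet-prime elements of an arbitrary representable lattice
-/

namespace P183

namespace Prime

open Infl (Comp act act_none act_some)

section

variable {P J : Type} (S : J → Set P) (Sp : J → Prop) (B : Type) (X : J → Type)

/-- ordinary tuples -/
def Ordi (u : P → Option J) : Prop :=
  ∀ j, Sp j → ∃ q, q ∉ S j ∧ u q ≠ some j

/-- the carrier: ordinary points and special points -/
abbrev Car : Type := {u : B × (P → Option J) // Ordi S Sp u.2} ⊕ {t : Σ j, X j // Sp t.1}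

variable {S Sp B X}

/-- the base coordinate -/
def bv (a : (Σ j, X j) → B) : Car S Sp B X → B
  | Sum.inl u => u.1.1
  | Sum.inr t => a t.1

/-- the other coordinates -/
def ev : Car S Sp B X → P → Option J
  | Sum.inl u => u.1.2
  | Sum.inr t => fun _ => some t.1.1

/-- the point is the special point `(j, i)` -/
def IsAt (z : Car S Sp B X) (j : J) (i : X j) : Prop := ∃ h, z = Sum.inr ⟨⟨j, i⟩, h⟩

theorem IsAt.inj {z : Car S Sp B X} {j : J} {i i' : X j} (h : IsAt z j i) (h' : IsAt z j i') :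
    i = i' := by
  obtain ⟨_, h⟩ := h
  obtain ⟨_, h'⟩ := h'
  rw [h] at h'
  have h1 := congrArg Subtype.val (Sum.inr.inj h')
  exact eq_of_heq (Sigma.mk.inj h1).2

theorem IsAt.unique {z z' : Car S Sp B X} {j : J} {i : X j} (h : IsAt z j i)
    (h' : IsAt z' j i) : z = z' := by
  obtain ⟨_, rfl⟩ := h
  obtain ⟨_, rfl⟩ := h'
  rfl

theorem IsAt.sp {z : Car S Sp B X} {j : J} {i : X j} (h : IsAt z j i) : Sp j := by
  obtain ⟨h, _⟩ := h
  exact h

theorem ev_at {z : Car S Sp B X} {j : J} {i : X j} (h : IsAt z j i) (p : P) :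
    ev z p = some j := by
  obtain ⟨_, rfl⟩ := h
  rfl

theorem bv_at {a : (Σ j, X j) → B} {z : Car S Sp B X} {j : J} {i : X j} (h : IsAt z j i) :
    bv a z = a ⟨j, i⟩ := by
  obtain ⟨_, rfl⟩ := h
  rfl

theorem not_isAt_inl {u : {u : B × (P → Option J) // Ordi S Sp u.2}} {j : J} {i : X j} :
    ¬ IsAt (Sum.inl u : Car S Sp B X) j i := by
  rintro ⟨_, h⟩
  exact absurd h (by simp)

theorem e1 (sp2 : ∀ j, Sp j → ∃ p, p ∉ S j) {z z' : Car S Sp B X} {j : J} {i : X j}
    (hz : IsAt z j i) (h : ∀ p, p ∉ S j → ev z p = ev z' p) : ∃ i', IsAt z' j i' := by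
  have hj : Sp j := hz.sp
  match z', h with
  | Sum.inl u, h =>
    exfalso
    obtain ⟨q, hq, hu⟩ := u.2 j hj
    apply hu
    have := h q hq
    rw [ev_at hz] at this
    exact this.symm
  | Sum.inr ⟨⟨j', i'⟩, h'⟩, h =>
    obtain ⟨q, hq⟩ := sp2 j hj
    have h1 := h q hq
    rw [ev_at hz] at h1
    have h3 : j = j' := Option.some.inj h1
    subst h3
    exact ⟨i', h', rfl⟩

theorem e2 {C : J → Setoid B} {a : (Σ j, X j) → B}
    (tie2 : ∀ j (i i' : X j), i ≠ i' → ∀ l, C l (a ⟨j, i⟩) (a ⟨j, i'⟩) → C j ≤ C l)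
    (sp2 : ∀ j, Sp j → ∃ p, p ∉ S j) {z z' : Car S Sp B X} {j l : J} {i : X l}
    (hz : IsAt z l i) (hle : S j ⊆ S l) (hb : C j (bv a z) (bv a z'))
    (h : ∀ p, p ∉ S j → ev z p = ev z' p) :
    ∃ i', IsAt z' l i' ∧ (¬ C l ≤ C j → i' = i) := by
  obtain ⟨i', hi'⟩ := e1 sp2 hz (fun p hp => h p (fun h' => hp (hle h')))
  refine ⟨i', hi', fun hne => ?_⟩
  by_contra hii
  rw [bv_at hz, bv_at hi'] at hb
  exact hne (tie2 l i i' (fun e => hii e.symm) j hb)

/-- the congruence attached to `j` and an equivalence relation `π` on `X j` -/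
def cg (sp2 : ∀ j, Sp j → ∃ p, p ∉ S j) (C : J → Setoid B) (a : (Σ j, X j) → B) (j : J)
    (π : Setoid (X j)) : Setoid (Car S Sp B X) where
  r z z' := (C j (bv a z) (bv a z') ∧ ∀ p, p ∉ S j → ev z p = ev z' p) ∧
    ∀ i i', IsAt z j i → IsAt z' j i' → π i i'
  iseqv := by
    refine ⟨?_, ?_, ?_⟩
    · intro z
      exact ⟨⟨(C j).refl _, fun _ _ => rfl⟩, fun i i' h h' => by rw [h.inj h']⟩
    · rintro z z' ⟨⟨h0, h1⟩, h2⟩
      exact ⟨⟨(C j).symm h0, fun p hp => (h1 p hp).symm⟩, fun i i' h h' => π.symm (h2 i' i h' h)⟩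
    · rintro z z' z'' ⟨⟨h0, h1⟩, h2⟩ ⟨⟨g0, g1⟩, g2⟩
      refine ⟨⟨(C j).trans h0 g0, fun p hp => (h1 p hp).trans (g1 p hp)⟩, fun i i'' h h'' => ?_⟩
      obtain ⟨i', h'⟩ := e1 sp2 h h1
      exact π.trans (h2 i i' h h') (g2 i' i'' h' h'')

open Classical in
/-- set the coordinates in `F` to `0` -/
noncomputable def zero (F : Set P) (u : P → Option J) : P → Option J :=
  fun p => if p ∈ F then none else u p

theorem ordi_zero {u : P → Option J} (hu : Ordi S Sp u) (F : Set P) :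
    Ordi S Sp (zero F u) := by
  classical
  intro j hj
  obtain ⟨q, hq, h⟩ := hu j hj
  refine ⟨q, hq, ?_⟩
  by_cases hF : q ∈ F
  · simp [zero, hF]
  · simpa [zero, hF] using h

theorem ordi_zero_special (sp2 : ∀ j, Sp j → ∃ p, p ∉ S j) {z : Car S Sp B X} {l : J} {i : X l}
    (hz : IsAt z l i) {F : Set P} (hF : ∃ p, p ∈ F ∧ p ∉ S l) : Ordi S Sp (zero F (ev z)) := by
  classical
  intro j hj
  by_cases hjl : j = l
  · subst hjl
    obtain ⟨p, hp, hp'⟩ := hF
    exact ⟨p, hp', by simp [zero, hp]⟩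
  · obtain ⟨q, hq⟩ := sp2 j hj
    refine ⟨q, hq, ?_⟩
    by_cases hF : q ∈ F
    · simp [zero, hF]
    · simp only [zero, hF, if_false]
      rw [ev_at hz]
      intro h
      exact hjl (Option.some.inj h).symm

theorem ordi_none (sp2 : ∀ j, Sp j → ∃ p, p ∉ S j) : Ordi S Sp (fun _ => none) := by
  intro j hj
  obtain ⟨q, hq⟩ := sp2 j hj
  exact ⟨q, hq, by simp⟩

variable {ι : J → Type} (o : ∀ j, ι j → X j → X j)

/-- action on the carrier -/
def oMap (g : B → B) (κ : ∀ j, Option (ι j)) : Car S Sp B X → Car S Sp B X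
  | Sum.inl u => Sum.inl ⟨(g u.1.1, u.1.2), u.2⟩
  | Sum.inr t => Sum.inr ⟨act o κ t.1, t.2⟩

theorem ev_oMap (g : B → B) (κ : ∀ j, Option (ι j)) (z : Car S Sp B X) (p : P) :
    ev (oMap o g κ z) p = ev z p := by
  match z with
  | Sum.inl u => rfl
  | Sum.inr t => rfl

theorem bv_oMap {a : (Σ j, X j) → B} {g : B → B} {κ : ∀ j, Option (ι j)}
    (h : ∀ t, g (a t) = a (act o κ t)) (z : Car S Sp B X) :
    bv a (oMap o g κ z) = g (bv a z) := by
  match z with
  | Sum.inl u => rfl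
  | Sum.inr t => exact (h t.1).symm

/-- the second component of `act` -/
def act2 (κ : ∀ j, Option (ι j)) (j : J) (i : X j) : X j :=
  (act o κ ⟨j, i⟩).2

theorem act_mk (κ : ∀ j, Option (ι j)) (j : J) (i : X j) :
    act o κ ⟨j, i⟩ = ⟨j, act2 o κ j i⟩ := rfl

theorem isAt_oMap {g : B → B} {κ : ∀ j, Option (ι j)} {z : Car S Sp B X} {j : J} {i : X j}
    (h : IsAt (oMap o g κ z) j i) : ∃ i', IsAt z j i' ∧ i = act2 o κ j i' := by
  match z, h with
  | Sum.inl u, h => exact absurd h not_isAt_inl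
  | Sum.inr ⟨⟨l, i'⟩, hl⟩, h =>
    obtain ⟨hj, h⟩ := h
    have h1 : (⟨l, act2 o κ l i'⟩ : Σ j, X j) = ⟨j, i⟩ := congrArg Subtype.val (Sum.inr.inj h)
    have h2 : l = j := congrArg Sigma.fst h1
    subst h2
    exact ⟨i', ⟨hl, rfl⟩, (eq_of_heq (Sigma.mk.inj h1).2).symm⟩

/-- the family of congruences -/
def cong (sp2 : ∀ j, Sp j → ∃ p, p ∉ S j) (C : J → Setoid B) (a : (Σ j, X j) → B)
    (p : Σ j, UCon (o j)) : Setoid (Car S Sp B X) := cg sp2 C a p.1 p.2.1

variable {sp2 : ∀ j, Sp j → ∃ p, p ∉ S j} {C : J → Setoid B} {a : (Σ j, X j) → B}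

theorem comp_oMap {g : B → B} {κ : ∀ j, Option (ι j)} (hg : Comp C g)
    (h : ∀ t, g (a t) = a (act o κ t)) : Comp (cong o sp2 C a) (oMap o g κ) := by
  rintro ⟨j, π⟩ z z' ⟨⟨h0, h1⟩, h2⟩
  refine ⟨⟨?_, fun p hp => ?_⟩, fun i i' hi hi' => ?_⟩
  · rw [bv_oMap o h, bv_oMap o h]
    exact hg j _ _ h0
  · rw [ev_oMap, ev_oMap, h1 p hp]
  · obtain ⟨l, hl, rfl⟩ := isAt_oMap o hi
    obtain ⟨l', hl', rfl⟩ := isAt_oMap o hi'
    have := h2 l l' hl hl'
    show π.1 (act2 o κ j l) (act2 o κ j l')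
    unfold act2
    cases hk : κ j with
    | none =>
      have e : ∀ i : X j, (act o κ ⟨j, i⟩).2 = i := fun i => by simp [act, hk]
      rw [e, e]
      exact this
    | some k =>
      have e : ∀ i : X j, (act o κ ⟨j, i⟩).2 = o j k i := fun i => by simp [act, hk]
      rw [e, e]
      exact π.2 _ _ _ this

/-- maps into ordinary points with the same coordinates -/
theorem comp_base {u : P → Option J} (hu : Ordi S Sp u) {f : Car S Sp B X → B}
    (hf : ∀ (j : J) (π : UCon (o j)) z z', cong o sp2 C a ⟨j, π⟩ z z' → C j (f z) (f z')) :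
    Comp (cong o sp2 C a) (fun z => Sum.inl ⟨(f z, u), hu⟩) := by
  rintro ⟨j, π⟩ z z' h
  exact ⟨⟨hf j π z z' h, fun _ _ => rfl⟩, fun i i' hi _ => absurd hi not_isAt_inl⟩

open Classical in
/-- test of the base coordinate -/
noncomputable def tMap (a : (Σ j, X j) → B) (D : Setoid B) (x : B) (z z' : Car S Sp B X) :
    Car S Sp B X → Car S Sp B X :=
  fun u => if D (bv a u) x then z else z'

theorem comp_tMap {D : Setoid B} {x : B} {z : Car S Sp B X}
    {u' : {u : B × (P → Option J) // Ordi S Sp u.2}}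
    (hb : bv a z = u'.1.1)
    (h : ∀ j, ¬ C j ≤ D → ∀ q, q ∉ S j → ev z q = u'.1.2 q) :
    Comp (cong o sp2 C a) (tMap a D x z (Sum.inl u')) := by
  classical
  rintro ⟨j, π⟩ u v ⟨⟨h0, h1⟩, h2⟩
  have hzz : ¬ C j ≤ D → cong o sp2 C a ⟨j, π⟩ z (Sum.inl u') := by
    intro hj
    refine ⟨⟨?_, fun q hq => h j hj q hq⟩, fun i i' _ hi' => absurd hi' not_isAt_inl⟩
    show C j (bv a z) u'.1.1
    rw [hb]
  by_cases hj : C j ≤ D
  · have hD : D (bv a u) x ↔ D (bv a v) x :=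
      ⟨fun h => D.trans (D.symm (hj h0)) h, fun h => D.trans (hj h0) h⟩
    by_cases hu : D (bv a u) x
    · simp only [tMap, hu, hD.1 hu, if_true]
      exact (cong o sp2 C a ⟨j, π⟩).refl _
    · have hv : ¬ D (bv a v) x := fun h => hu (hD.2 h)
      simp only [tMap, hu, hv, if_false]
      exact (cong o sp2 C a ⟨j, π⟩).refl _
  · have hz := hzz hj
    by_cases hu : D (bv a u) x
    · by_cases hv : D (bv a v) x
      · simp only [tMap, hu, hv, if_true]
        exact (cong o sp2 C a ⟨j, π⟩).refl _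
      · simp only [tMap, hu, hv, if_true, if_false]
        exact hz
    · by_cases hv : D (bv a v) x
      · simp only [tMap, hu, hv, if_true, if_false]
        exact (cong o sp2 C a ⟨j, π⟩).symm hz
      · simp only [tMap, hu, hv, if_false]
        exact (cong o sp2 C a ⟨j, π⟩).refl _

end

end Prime

end P183
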