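import Vale.Agent.P183.Prime

/-!
# P183: inflating meets of meet-prime elements (closedness of the family)
-/

namespace P183

namespace Prime

open Infl (Comp act act_none act_some)

/-- the primes not above `j` -/
def SS {B J P : Type} (C : J → Setoid B) (pt : P → J) (j : J) : Set P :=
  {p | ¬ C j ≤ C (pt p)}

/-- base data -/
structure Base {B J P : Type} (C : J → Setoid B) (pt kp : P → J) (Sp : J → Prop)
    {X : J → Type} {ι : J → Type} (o : ∀ j, ι j → X j → X j) (a : (Σ j, X j) → B) : Prop where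
  inj : Function.Injective C
  closed : ∀ r : Setoid B, (∀ g, Comp C g → ∀ x x', r x x' → r (g x) (g x')) → ∃ j, C j = r
  prime : ∀ p j, p ∈ SS C pt j → C (kp p) ≤ C j
  prime' : ∀ p, p ∈ SS C pt (kp p)
  sp1 : ∀ j, Sp j → ∀ l, SS C pt l ⊆ SS C pt j → C l ≤ C j
  sp2 : ∀ j, Sp j → ∃ p, p ∉ SS C pt j
  tie2 : ∀ j (i i' : X j), i ≠ i' → ∀ l, C l (a ⟨j, i⟩) (a ⟨j, i'⟩) → C j ≤ C l
  tie1 : ∀ j (i i' : X j), C j (a ⟨j, i⟩) (a ⟨j, i'⟩)
  tie3 : ∀ κ : (∀ j, Option (ι j)), ∃ g, Comp C g ∧ ∀ t, g (a t) = a (act o κ t)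

section

variable {B J P : Type} {C : J → Setoid B} {pt kp : P → J} {Sp : J → Prop}
    {X : J → Type} {ι : J → Type} {o : ∀ j, ι j → X j → X j} {a : (Σ j, X j) → B}

theorem SS_mono {j l : J} (h : C j ≤ C l) : SS C pt j ⊆ SS C pt l := by
  intro p hp hl
  exact hp (h.trans hl)

theorem Base.surj [Finite P] (H : Base C pt kp Sp o a) (r : Setoid (Car (SS C pt) Sp B X))
    (hr : ∀ g, Comp (cong o H.sp2 C a) g → ∀ x x', r x x' → r (g x) (g x')) :
    ∃ p, cong o H.sp2 C a p = r := by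
  classical
  have hn : Ordi (SS C pt) Sp (fun _ : P => none) := ordi_none H.sp2
  let emb : B → Car (SS C pt) Sp B X := fun x => Sum.inl ⟨(x, fun _ => none), hn⟩
  obtain ⟨j, hj⟩ := H.closed (Setoid.comap emb r) (fun g hg x x' h =>
    hr (fun z => Sum.inl ⟨(g (bv a z), fun _ => none), hn⟩)
      (comp_base o hn (f := fun z => g (bv a z)) (fun j π z z' h => hg j _ _ h.1.1)) _ _ h)
  have hj' : ∀ x x', C j x x' ↔ r (emb x) (emb x') := by
    intro x x'
    rw [hj]
    exact Iff.rfl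
  have hb : ∀ z z', r z z' → C j (bv a z) (bv a z') := fun z z' h =>
    (hj' _ _).2 (hr (fun z => Sum.inl ⟨(bv a z, fun _ => none), hn⟩)
      (comp_base o hn (f := fun z => bv a z) (fun _ _ _ _ h => h.1.1)) z z' h)
  have hoff : ∀ z z', r z z' → ∀ p, p ∉ SS C pt j → ev z p = ev z' p := by
    intro z z' h p hp
    by_contra hne
    apply hp
    intro hle
    apply H.prime' p
    refine le_trans ?_ hle
    intro x x' hx
    rw [hj']
    have h1 := hr (fun v => Sum.inl ⟨(if ev v p = ev z p then x else x', fun _ => none), hn⟩)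
      (comp_base o hn (f := fun v => if ev v p = ev z p then x else x') (by
        intro l π v v' hv
        by_cases hpl : p ∈ SS C pt l
        · have hk := H.prime p l hpl
          split_ifs
          · exact (C l).refl _
          · exact hk hx
          · exact (C l).symm (hk hx)
          · exact (C l).refl _
        · rw [hv.1.2 p hpl])) z z' h
    simp only [if_true, if_neg (fun e => hne e.symm : ¬ ev z' p = ev z p)] at h1
    exact h1
  have hone : ∀ p, p ∈ SS C pt j → ∀ (z : Car (SS C pt) Sp B X)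
      (u' : {u : B × (P → Option J) // Ordi (SS C pt) Sp u.2}), bv a z = u'.1.1 →
      (∀ q, q ≠ p → ev z q = u'.1.2 q) → r z (Sum.inl u') := by
    intro p hp z u' hbz h
    obtain ⟨x, x', hx, hx'⟩ : ∃ x x', C j x x' ∧ ¬ C (pt p) x x' := by
      by_contra hcon
      push Not at hcon
      exact hp (fun x x' hx => hcon x x' hx)
    have h1 := hr _ (comp_tMap o (D := C (pt p)) (x := x) hbz (by
      intro l hl q hq
      apply h
      rintro rfl
      exact hq hl)) (emb x) (emb x') ((hj' _ _).1 hx)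
    have e1 : tMap a (C (pt p)) x z (Sum.inl u') (emb x) = z := if_pos ((C (pt p)).refl x)
    have e2 : tMap a (C (pt p)) x z (Sum.inl u') (emb x') = Sum.inl u' :=
      if_neg (fun e => hx' ((C (pt p)).symm e))
    rw [e1, e2] at h1
    exact h1
  have hbase : ∀ (u : P → Option J) (hu : Ordi (SS C pt) Sp u) b b', C j b b' →
      r (Sum.inl ⟨(b, u), hu⟩) (Sum.inl ⟨(b', u), hu⟩) := by
    intro u hu b b' h
    exact hr (fun v => Sum.inl ⟨(bv a v, u), hu⟩)
      (comp_base o hu (f := fun v => bv a v) (fun _ _ _ _ h => h.1.1)) (emb b) (emb b')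
      ((hj' _ _).1 h)
  have hord : ∀ (F : Finset P), (↑F : Set P) ⊆ SS C pt j →
      ∀ u : {u : B × (P → Option J) // Ordi (SS C pt) Sp u.2},
      r (Sum.inl u) (Sum.inl ⟨(u.1.1, zero (↑F : Set P) u.1.2), ordi_zero u.2 _⟩) := by
    intro F
    induction F using Finset.induction_on with
    | empty =>
      intro _ u
      have e : (⟨(u.1.1, zero (↑(∅ : Finset P) : Set P) u.1.2), ordi_zero u.2 _⟩ :
          {u : B × (P → Option J) // Ordi (SS C pt) Sp u.2}) = u := by
        apply Subtype.ext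
        apply Prod.ext
        · rfl
        · funext p
          simp [zero]
      rw [e]
    | insert p F hp ih =>
      intro hF u
      have hF' : (↑F : Set P) ⊆ SS C pt j := fun q hq => hF (by simp [Finset.mem_coe.1 hq])
      have hpj : p ∈ SS C pt j := hF (by simp)
      refine r.trans (ih hF' u) (hone p hpj _ _ rfl ?_)
      intro q hq
      show zero (↑F : Set P) u.1.2 q = zero (↑(insert p F) : Set P) u.1.2 q
      simp only [zero, Finset.mem_coe, Finset.mem_insert]
      by_cases hqF : q ∈ F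
      · simp [hqF]
      · simp [hqF, hq]
  obtain ⟨_⟩ := nonempty_fintype P
  have hord' : ∀ u : {u : B × (P → Option J) // Ordi (SS C pt) Sp u.2},
      r (Sum.inl u) (Sum.inl ⟨(u.1.1, zero (SS C pt j) u.1.2), ordi_zero u.2 _⟩) := by
    intro u
    have := hord (SS C pt j).toFinset (by simp) u
    simpa using this
  have hcg : ∀ (z : Car (SS C pt) Sp B X) (b : B) (u u' : P → Option J)
      (hu : Ordi (SS C pt) Sp u) (hu' : Ordi (SS C pt) Sp u'), u = u' →
      r z (Sum.inl ⟨(b, u), hu⟩) → r z (Sum.inl ⟨(b, u'), hu'⟩) := by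
    rintro z b u u' hu hu' rfl h
    exact h
  have hgood : ∀ z : Car (SS C pt) Sp B X, (∀ l i, IsAt z l i → ¬ C j ≤ C l) →
      ∃ h, r z (Sum.inl ⟨(bv a z, zero (SS C pt j) (ev z)), h⟩) := by
    intro z hz
    match z, hz with
    | Sum.inl u, _ => exact ⟨_, hord' u⟩
    | Sum.inr ⟨⟨l, i⟩, hl⟩, hz =>
      have hat : IsAt (Sum.inr ⟨⟨l, i⟩, hl⟩ : Car (SS C pt) Sp B X) l i := ⟨hl, rfl⟩
      obtain ⟨p, hp, hp'⟩ := Set.not_subset.1 (fun h => hz l i hat (H.sp1 l hl j h))
      let w : P → Option J := ev (Sum.inr ⟨⟨l, i⟩, hl⟩ : Car (SS C pt) Sp B X)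
      have o1 : Ordi (SS C pt) Sp (zero {p} w) := ordi_zero_special H.sp2 hat ⟨p, rfl, hp'⟩
      have h1 : r (Sum.inr ⟨⟨l, i⟩, hl⟩) (Sum.inl ⟨(a ⟨l, i⟩, zero {p} w), o1⟩) := by
        apply hone p hp
        · rfl
        · intro q hq
          show w q = zero {p} w q
          simp [zero, hq]
      have h2 : r (Sum.inl ⟨(a ⟨l, i⟩, zero {p} w), o1⟩)
          (Sum.inl ⟨(a ⟨l, i⟩, zero (SS C pt j) (zero {p} w)), ordi_zero o1 _⟩) :=
        hord' ⟨(a ⟨l, i⟩, zero {p} w), o1⟩
      have e : zero (SS C pt j) (zero {p} w) = zero (SS C pt j) w := by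
        funext q
        by_cases hq : q ∈ SS C pt j
        · simp [zero, hq]
        · have : q ≠ p := fun e => hq (e ▸ hp)
          simp [zero, hq, this]
      have o2 : Ordi (SS C pt) Sp (zero (SS C pt j) w) := by
        rw [← e]
        exact ordi_zero o1 _
      exact ⟨o2, r.trans h1 (hcg _ _ _ _ _ _ e h2)⟩
  let π : Setoid (X j) :=
    { r := fun i i' => ∀ h : Sp j, r (Sum.inr ⟨⟨j, i⟩, h⟩) (Sum.inr ⟨⟨j, i'⟩, h⟩)
      iseqv := ⟨fun i h => r.refl _, fun h hs => r.symm (h hs),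
        fun h h' hs => r.trans (h hs) (h' hs)⟩ }
  have hπ : ∀ (k : ι j) (i i' : X j), π i i' → π (o j k i) (o j k i') := by
    intro k i i' h hs
    let κ : ∀ l, Option (ι l) := Function.update (fun _ => none) j (some k)
    have hκ : κ j = some k := Function.update_self _ _ _
    obtain ⟨g, hg, hga⟩ := H.tie3 κ
    have h1 := hr _ (comp_oMap o hg hga) _ _ (h hs)
    have e : ∀ i : X j, oMap o g κ (Sum.inr ⟨⟨j, i⟩, hs⟩ : Car (SS C pt) Sp B X) =
        Sum.inr ⟨⟨j, o j k i⟩, hs⟩ := fun i =>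
      congrArg Sum.inr (Subtype.ext (act_some o hκ i))
    rw [e, e] at h1
    exact h1
  refine ⟨⟨j, π, hπ⟩, ?_⟩
  apply Setoid.ext
  intro z z'
  constructor
  · rintro ⟨⟨h0, h1⟩, h2⟩
    have h0 : C j (bv a z) (bv a z') := h0
    have h1 : ∀ p, p ∉ SS C pt j → ev z p = ev z' p := h1
    by_cases hz : ∀ l i, IsAt z l i → ¬ C j ≤ C l
    · have hz' : ∀ l i, IsAt z' l i → ¬ C j ≤ C l := by
        intro l i hi hle
        obtain ⟨i', hi', _⟩ := e2 H.tie2 H.sp2 hi (SS_mono hle) ((C j).symm h0)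
          (fun p hp => (h1 p hp).symm)
        exact hz l i' hi' hle
      obtain ⟨g1, g2⟩ := hgood z hz
      obtain ⟨g1', g2'⟩ := hgood z' hz'
      have e : zero (SS C pt j) (ev z) = zero (SS C pt j) (ev z') := by
        funext q
        by_cases hq : q ∈ SS C pt j
        · simp [zero, hq]
        · simp [zero, hq, h1 q hq]
      have h3 := hcg _ _ _ _ g1 g1' e (hbase _ g1 _ _ h0)
      exact r.trans g2 (r.trans h3 (r.symm g2'))
    · push Not at hz
      obtain ⟨l, i, hi, hle⟩ := hz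
      obtain ⟨i', hi', hne⟩ := e2 H.tie2 H.sp2 hi (SS_mono hle) h0 h1
      by_cases hjl : C l ≤ C j
      · have hjl' : j = l := H.inj (le_antisymm hle hjl)
        subst hjl'
        obtain ⟨hs, rfl⟩ := hi
        obtain ⟨_, rfl⟩ := hi'
        exact h2 i i' ⟨hs, rfl⟩ ⟨hs, rfl⟩ hs
      · rw [hne hjl] at hi'
        rw [hi.unique hi']
  · intro h
    refine ⟨⟨hb z z' h, hoff z z' h⟩, ?_⟩
    rintro i i' ⟨_, rfl⟩ ⟨_, rfl⟩ _
    exact h

/-- the order of the family -/
theorem Base.cong_le (H : Base C pt kp Sp o a) (hsub : ∀ j, ¬ Sp j → Subsingleton (X j))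
    (p q : Σ j, UCon (o j)) :
    cong o H.sp2 C a p ≤ cong o H.sp2 C a q ↔ Infl.lexLe C (fun _ x x' => x ≤ x') p q := by
  classical
  have hn : Ordi (SS C pt) Sp (fun _ : P => none) := ordi_none H.sp2
  constructor
  · intro h
    have hle : C p.1 ≤ C q.1 := by
      intro x x' hx
      have h1 : cong o H.sp2 C a p (Sum.inl ⟨(x, fun _ => none), hn⟩)
          (Sum.inl ⟨(x', fun _ => none), hn⟩) :=
        ⟨⟨hx, fun _ _ => rfl⟩, fun _ _ hi _ => absurd hi not_isAt_inl⟩
      exact (h h1).1.1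
    by_cases hlt : C p.1 < C q.1
    · exact Or.inl hlt
    · right
      have heq : p.1 = q.1 := H.inj (by
        by_contra hne
        exact hlt (lt_of_le_of_ne hle hne))
      obtain ⟨j, π⟩ := p
      obtain ⟨l, ρ⟩ := q
      have heq : j = l := heq
      subst heq
      refine ⟨j, π, ρ, rfl, rfl, ?_⟩
      intro i i' hi
      by_cases hs : Sp j
      · have h1 : cong o H.sp2 C a ⟨j, π⟩ (Sum.inr ⟨⟨j, i⟩, hs⟩) (Sum.inr ⟨⟨j, i'⟩, hs⟩) := by
          refine ⟨⟨H.tie1 j i i', fun p hp => rfl⟩, ?_⟩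
          rintro l l' hl hl'
          have e1 : i = l := IsAt.inj ⟨hs, rfl⟩ hl
          have e2 : i' = l' := IsAt.inj ⟨hs, rfl⟩ hl'
          subst e1 e2
          exact hi
        exact (h h1).2 i i' ⟨hs, rfl⟩ ⟨hs, rfl⟩
      · have := hsub j hs
        rw [Subsingleton.elim i i']
  · rintro (hlt | ⟨j, π, ρ, rfl, rfl, hle⟩)
    · rintro z z' ⟨⟨h0, h1⟩, h2⟩
      have h0 : C p.1 (bv a z) (bv a z') := h0
      refine ⟨⟨hlt.1 h0, fun b hb => h1 b (fun h => hb (SS_mono hlt.1 h))⟩, ?_⟩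
      intro i i' hi hi'
      obtain ⟨l, hl, hne⟩ := e2 H.tie2 H.sp2 hi (SS_mono hlt.1) h0 h1
      have : l = i := hne (not_le_of_gt hlt)
      subst this
      rw [hl.inj hi']
    · rintro z z' ⟨h1, h2⟩
      exact ⟨h1, fun i i' hi hi' => hle (h2 i i' hi hi')⟩

end

end Prime

end P183
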