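import Vale.Agent.P183.Prime2

/-!
# P183: inflating meets of meet-prime elements (the theorem)
-/

namespace P183

namespace Prime

open Infl (Comp act act_none act_some)

/-- the statement for a closed family of equivalence relations -/
theorem urep {A J P : Type} [Finite A] [Nonempty A] [Finite J] [Finite P] {C : J → Setoid A}
    {pt kp : P → J} {Sp : J → Prop} (inj : Function.Injective C)
    (closed : ∀ r : Setoid A, (∀ g, Comp C g → ∀ x x', r x x' → r (g x) (g x')) → ∃ j, C j = r)
    (prime : ∀ p j, ¬ C j ≤ C (pt p) → C (kp p) ≤ C j)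
    (prime' : ∀ p, ¬ C (kp p) ≤ C (pt p))
    (sp1 : ∀ j, Sp j → ∀ l, (∀ p, C j ≤ C (pt p) → C l ≤ C (pt p)) → C l ≤ C j)
    (sp2 : ∀ j, Sp j → ∃ p, C j ≤ C (pt p))
    {M : J → Type} {le : ∀ j, M j → M j → Prop} (hM : ∀ j, URep (M j) (le j))
    (hsub : ∀ j, Sp j ∨ Subsingleton (M j)) : URep (Σ j, M j) (Infl.lexLe C le) := by
  classical
  choose X hX hX0 ι hι o c hc hle using hM
  have hXs : ∀ j, ¬ Sp j → Subsingleton (X j) := by
    intro j hj
    refine ⟨fun i i' => ?_⟩
    obtain ⟨m, hm⟩ := hc j ⟨⊤, fun _ _ _ _ => trivial⟩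
    obtain ⟨m', hm'⟩ := hc j ⟨⊥, fun k x x' h => by
      have e : x = x' := h
      show o j k x = o j k x'
      rw [e]⟩
    have : m = m' := ((hsub j).resolve_left hj).allEq m m'
    rw [this, hm'] at hm
    have h1 : (⊥ : Setoid (X j)) = ⊤ := congrArg Subtype.val hm
    have h2 : (⊥ : Setoid (X j)) i i' := by
      rw [h1]
      trivial
    exact h2
  have ne : Nonempty (Infl.Ex C X) :=
    ⟨⟨fun _ => Classical.arbitrary A, fun _ _ _ => (C _).refl _⟩⟩
  have fin : Finite (Infl.Ex C X) := inferInstance
  have hD : ∀ j l, Infl.CP C (Infl.Ex C X) j ≤ Infl.CP C (Infl.Ex C X) l ↔ C j ≤ C l :=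
    fun j l => Infl.CP_le C j l
  have H : Base (Infl.CP C (Infl.Ex C X)) pt kp Sp o (Infl.tie (C := C) (X := X)) := by
    refine ⟨?_, Infl.CP_closed C closed, ?_, ?_, ?_, ?_, ?_, ?_, ?_⟩
    · intro j l h
      apply inj
      apply le_antisymm
      · rw [← hD, h]
      · rw [← hD, h]
    · intro p j h
      rw [hD]
      exact prime p j (fun h' => h ((hD _ _).2 h'))
    · intro p h
      exact prime' p ((hD _ _).1 h)
    · intro j hj l h
      rw [hD]
      apply sp1 j hj l
      intro p hp
      by_contra hl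
      exact h (a := p) (fun h' => hl ((hD _ _).1 h')) ((hD _ _).2 hp)
    · intro j hj
      obtain ⟨p, hp⟩ := sp2 j hj
      exact ⟨p, fun h => h ((hD _ _).2 hp)⟩
    · intro j i i' hii l h
      rw [hD]
      intro p q hpq
      have := h ⟨fun t => if t = ⟨j, i⟩ then p else q, by
        intro l' i1 i2
        show C l' (if (⟨l', i1⟩ : Σ j, X j) = ⟨j, i⟩ then p else q)
          (if (⟨l', i2⟩ : Σ j, X j) = ⟨j, i⟩ then p else q)
        split_ifs with h1 h2 h2
        · exact (C l').refl _
        · have e : l' = j := (Sigma.mk.inj h1).1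
          rw [e]
          exact hpq
        · have e : l' = j := (Sigma.mk.inj h2).1
          rw [e]
          exact (C j).symm hpq
        · exact (C l').refl _⟩
      have e1 : ¬ (⟨j, i'⟩ : Σ j, X j) = ⟨j, i⟩ := by
        intro e
        exact hii (eq_of_heq (Sigma.mk.inj e).2).symm
      simp only [Infl.tie, if_true, e1, if_false] at this
      exact this
    · intro j i i' e
      exact e.2 j i i'
    · intro κ
      refine ⟨fun x e => x ⟨fun t => e.1 (act o κ t), ?_⟩, ?_, ?_⟩
      · intro l i1 i2
        exact e.2 l _ _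
      · intro l x x' h e
        exact h _
      · intro t
        rfl
  have ne2 : Nonempty (Car (SS (Infl.CP C (Infl.Ex C X)) pt) Sp (Infl.Ex C X → A) X) :=
    ⟨Sum.inl ⟨(fun _ => Classical.arbitrary A, fun _ => none), ordi_none H.sp2⟩⟩
  refine URep.ofClosed (fun p : Σ j, M j => cong o H.sp2 (Infl.CP C (Infl.Ex C X))
    (Infl.tie (C := C) (X := X)) ⟨p.1, c p.1 p.2⟩) ?_ ?_
  · intro r hr
    obtain ⟨⟨j, π⟩, hp⟩ := H.surj r (by
      intro g hg
      apply hr
      intro p x x' h
      exact hg ⟨p.1, c p.1 p.2⟩ x x' h)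
    obtain ⟨m, hm⟩ := hc j π
    exact ⟨⟨j, m⟩, by rw [← hp, ← hm]⟩
  · intro p q
    rw [H.cong_le hXs]
    have hlt : Infl.CP C (Infl.Ex C X) p.1 < Infl.CP C (Infl.Ex C X) q.1 ↔ C p.1 < C q.1 := by
      rw [lt_iff_le_not_ge, lt_iff_le_not_ge, hD, hD]
    constructor
    · rintro (h | ⟨j, π, ρ, h1, h2, h3⟩)
      · exact Or.inl (hlt.1 h)
      · right
        obtain ⟨p1, p2⟩ := p
        obtain ⟨q1, q2⟩ := q
        have e1 : p1 = j := congrArg Sigma.fst h1
        have e2 : q1 = j := congrArg Sigma.fst h2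
        subst e1 e2
        have e3 : c q1 p2 = π := eq_of_heq (Sigma.mk.inj h1).2
        have e4 : c q1 q2 = ρ := eq_of_heq (Sigma.mk.inj h2).2
        refine ⟨q1, p2, q2, rfl, rfl, ?_⟩
        rw [← hle, e3, e4]
        exact h3
    · rintro (h | ⟨j, m, m', h1, h2, h3⟩)
      · exact Or.inl (hlt.2 h)
      · subst h1 h2
        exact Or.inr ⟨j, c j m, c j m', rfl, rfl, (hle j m m').2 h3⟩

theorem finite_of_representable {K : Type} [Lattice K] (h : Representable K) : Finite K := by
  obtain ⟨A, hA, hA0, k, ar, op, ⟨e⟩⟩ := h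
  have : Finite (Setoid A) := Finite.of_injective (fun r : Setoid A => fun a b : A => r a b) (by
    intro r s h
    apply Setoid.ext
    intro a b
    exact iff_of_eq (congrFun (congrFun h a) b))
  exact Finite.of_equiv _ e.toEquiv

/-- the least element not below a meet-prime element -/
theorem exists_kappa {K : Type} [Lattice K] [Finite K] {p : K} (hp : InfPrime p) :
    ∃ k, ¬ k ≤ p ∧ ∀ x, ¬ x ≤ p → k ≤ x := by
  have h0 : {x : K | ¬ x ≤ p}.Nonempty := by
    by_contra hcon
    apply hp.1
    intro x _
    by_contra hx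
    exact hcon ⟨x, hx⟩
  obtain ⟨k, hk⟩ := (Set.toFinite {x : K | ¬ x ≤ p}).exists_minimal h0
  refine ⟨k, hk.1, fun x hx => ?_⟩
  have h1 : ¬ k ⊓ x ≤ p := by
    intro h
    rcases hp.2 h with h | h
    · exact hk.1 h
    · exact hx h
  exact (hk.2 h1 inf_le_left).trans inf_le_right

/-- the special elements with a new top -/
def SpO {K : Type} [Lattice K] : Option K → Prop
  | none => False
  | some a => ∀ b, (∀ p, InfPrime p → a ≤ p → b ≤ p) → b ≤ a

theorem main {K : Type} [Lattice K] (hK : Representable K) (M : K → Type)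
    [∀ a, Lattice (M a)] (hM : ∀ a, Representable (M a))
    (hp : ∀ a, Subsingleton (M a) ∨ ∀ b, (∀ p, InfPrime p → a ≤ p → b ≤ p) → b ≤ a) :
    URep (Σ a, M a) (Lex.leX (fun _ x y => x ≤ y)) := by
  classical
  have hfin : Finite K := finite_of_representable hK
  obtain ⟨t, ht⟩ := hK.exists_top
  obtain ⟨s, hs⟩ := (hM t).exists_top
  obtain ⟨A, hA, hA0, ι, hι, f, c, hc, hle⟩ := URep.optTop hK.urep
  let C : Option K → Setoid A := fun k => (c k).1
  have hC : ∀ k l, C k ≤ C l ↔ leTop (fun x x' : K => x ≤ x') k l := hle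
  have hW : ∀ k l : Option K, leTop (fun x x' : K => x ≤ x') k l ↔
      @LE.le (WithTop K) _ k l := by
    intro k l
    match k, l with
    | _, none => exact ⟨fun _ => le_top (α := WithTop K), fun _ => by simp [leTop]⟩
    | none, some y =>
      exact ⟨fun h => absurd h (by simp [leTop]),
        fun h => absurd h (not_le_of_gt (WithTop.coe_lt_top y))⟩
    | some x, some y => exact (WithTop.coe_le_coe (a := y) (b := x)).symm
  have hlt : ∀ k l : Option K, C k < C l ↔ @LT.lt (WithTop K) _ k l := by
    intro k l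
    have h1 : C k < C l ↔ C k ≤ C l ∧ ¬ C l ≤ C k := lt_iff_le_not_ge
    have h2 : @LT.lt (WithTop K) _ k l ↔ @LE.le (WithTop K) _ k l ∧
        ¬ @LE.le (WithTop K) _ l k := lt_iff_le_not_ge (α := WithTop K)
    exact h1.trans ((and_congr ((hC k l).trans (hW k l))
      (not_congr ((hC l k).trans (hW l k)))).trans h2.symm)
  let Q : Type := Option {p : K // InfPrime p}
  choose kap hk1 hk2 using fun p : {p : K // InfPrime p} => exists_kappa p.2
  let pt : Q → Option K
    | none => some t
    | some p => some p.1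
  let kp : Q → Option K
    | none => none
    | some p => some (kap p)
  have h := urep (C := C) (pt := pt) (kp := kp) (Sp := SpO) (M := Lex.MT M)
    (le := Lex.leT (fun _ x y => x ≤ y)) (by
      intro k l h
      apply le_antisymm (α := WithTop K)
      · rw [← hW, ← hC, h]
      · rw [← hW, ← hC, h]) (by
      intro r hr
      obtain ⟨k, hk⟩ := hc ⟨r, fun i x y h => hr (f i) (fun j x x' h => (c j).2 i x x' h) x y h⟩
      exact ⟨k, congrArg Subtype.val hk⟩) (by
      intro q j hj
      rw [hC] at hj ⊢
      match q, j, hj with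
      | _, none, _ => simp [leTop]
      | none, some x, hj => exact absurd (ht x) hj
      | some p, some x, hj => exact hk2 p x hj) (by
      intro q h
      rw [hC] at h
      match q, h with
      | none, h => exact h
      | some p, h => exact hk1 p h) (by
      intro j hj l h
      rw [hC]
      match j, l, hj, h with
      | some a, none, hj, h =>
        have := (hC _ _).1 (h none ((hC _ _).2 (ht a)))
        exact this
      | some a, some b, hj, h =>
        apply hj b
        intro p hp hap
        exact (hC _ _).1 (h (some ⟨p, hp⟩) ((hC _ _).2 hap))) (by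
      intro j hj
      match j, hj with
      | some a, hj => exact ⟨none, (hC _ _).2 (ht a)⟩) (by
      intro j
      match j with
      | none => exact Par.urep_unit
      | some d => exact (hM d).urep) (by
      intro j
      match j with
      | none => exact Or.inr (inferInstanceAs (Subsingleton Unit))
      | some d => exact (hp d).symm)
  have h2 : URep (Option (Σ d, M d)) (leTop (Lex.leX (fun _ x y => x ≤ y))) := by
    refine h.congr (Equiv.ofBijective _ (Lex.toO_bij M)) ?_
    intro p q
    refine (Lex.toO_le (fun _ x y => x ≤ y) p q).trans ?_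
    constructor
    · rintro (h | h)
      · exact Or.inl ((hlt p.1 q.1).2 h)
      · exact Or.inr h
    · rintro (h | h)
      · exact Or.inl ((hlt p.1 q.1).1 h)
      · exact Or.inr h
  refine h2.removeTop ⟨t, s⟩ ?_
  rintro ⟨d, x⟩
  by_cases hd : d = t
  · subst hd
    exact Or.inr ⟨d, x, s, rfl, rfl, hs x⟩
  · exact Or.inl (lt_of_le_of_ne (ht d) hd)

end Prime

/-- the last step: from the lexicographic sum written out to a lattice -/
theorem URep.ofSigmaLex {K : Type} [PartialOrder K] (M : K → Type) [∀ a, Lattice (M a)]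
    (h : URep (Σ a, M a) (Lex.leX (fun _ x y => x ≤ y))) (L : Type) [Lattice L]
    (e : L ≃o Σₗ a, M a) : Representable L := by
  refine h.representable L (Equiv.trans toLex e.symm.toEquiv) ?_
  rintro ⟨r, x⟩ ⟨s, x'⟩
  show e.symm (toLex _) ≤ e.symm (toLex _) ↔ _
  rw [e.symm.le_iff_le]
  constructor
  · intro hle
    rcases Sigma.Lex.le_def.1 hle with hlt | ⟨heq, hle⟩
    · exact Or.inl hlt
    · have heq : r = s := heq
      subst heq
      exact Or.inr ⟨r, x, x', rfl, rfl, hle⟩
  · rintro (hlt | ⟨j, y, y', h1, h2, h3⟩)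
    · exact Sigma.Lex.left _ _ hlt
    · have e1 : r = j := congrArg Sigma.fst h1
      have e2 : s = j := congrArg Sigma.fst h2
      subst e1 e2
      have e3 : x = y := eq_of_heq (Sigma.mk.inj h1).2
      have e4 : x' = y' := eq_of_heq (Sigma.mk.inj h2).2
      subst e3 e4
      exact Sigma.Lex.right _ _ h3

/-- **Inflation at meets of meet-prime elements.** -/
theorem primeSum {K : Type} [Lattice K] (hK : Representable K) (M : K → Type)
    [∀ a, Lattice (M a)] (hM : ∀ a, Representable (M a))
    (hp : ∀ a, Subsingleton (M a) ∨ ∀ b, (∀ p, InfPrime p → a ≤ p → b ≤ p) → b ≤ a)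
    (L : Type) [Lattice L] (e : L ≃o Σₗ a, M a) : Representable L :=
  URep.ofSigmaLex M (Prime.main hK M hM hp) L e

end P183
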