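import Vale.Agent.P183.Prime3

/-!
# P183: inflation at joins of join-prime elements
-/

namespace P183

theorem Representable.dual {L : Type} [Lattice L] (h : Representable L) :
    Representable Lᵒᵈ :=
  (URep.dual h.urep).representable Lᵒᵈ OrderDual.toDual (fun _ _ => Iff.rfl)

theorem Prime.main' {K : Type} [Lattice K] (hK : Representable K) (M : K → Type)
    [∀ a, Lattice (M a)] (hM : ∀ a, Representable (M a))
    (hp : ∀ a, Subsingleton (M a) ∨ ∀ b, (∀ p, SupPrime p → p ≤ a → p ≤ b) → a ≤ b) :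
    URep (Σ a, M a) (Lex.leX (fun _ x y => x ≤ y)) := by
  have h := URep.dual (Prime.main (K := Kᵒᵈ) hK.dual (fun a => (M (OrderDual.ofDual a))ᵒᵈ)
    (fun a => (hM (OrderDual.ofDual a)).dual) (by
      intro a
      rcases hp (OrderDual.ofDual a) with h | h
      · exact Or.inl h
      · right
        intro b hb
        exact h (OrderDual.ofDual b) (fun p hp hpa => hb (OrderDual.toDual p) hp.dual hpa)))
  refine h.congr (P := Σ a : Kᵒᵈ, (M (OrderDual.ofDual a))ᵒᵈ) (Q := Σ a, M a)
    (Equiv.refl (Σ a, M a)) ?_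
  intro p q
  show Lex.leX (D := K) (M := M) (fun d x y => @LE.le (M d) _ x y) p q ↔
    Lex.leX (D := Kᵒᵈ) (M := fun a => (M (OrderDual.ofDual a))ᵒᵈ)
      (fun a x y => @LE.le ((M (OrderDual.ofDual a))ᵒᵈ) _ x y) q p
  constructor
  · rintro (h | ⟨d, x, x', h1, h2, h3⟩)
    · exact Or.inl h
    · exact Or.inr ⟨d, x', x, h2, h1, h3⟩
  · rintro (h | ⟨d, x, x', h1, h2, h3⟩)
    · exact Or.inl h
    · exact Or.inr ⟨d, x', x, h2, h1, h3⟩

/-- **Inflation at joins of join-prime elements.** -/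
theorem primeSum' {K : Type} [Lattice K] (hK : Representable K) (M : K → Type)
    [∀ a, Lattice (M a)] (hM : ∀ a, Representable (M a))
    (hp : ∀ a, Subsingleton (M a) ∨ ∀ b, (∀ p, SupPrime p → p ≤ a → p ≤ b) → a ≤ b)
    (L : Type) [Lattice L] (e : L ≃o Σₗ a, M a) : Representable L :=
  URep.ofSigmaLex M (Prime.main' hK M hM hp) L e

end P183
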