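import Vale.Agent.P183.SLDefs

/-! P183, row SL, algebra half: a `Setup` exists. The ring `R = F_2[X]/(X^6+X+1)` is used only to
prove the identities of the code multiplication; the group is the group of all permutations of the
4096 vector codes which respect xor, scalar multiplication and the symplectic form. -/

namespace Vale.Agent.P183.SL

open Polynomial Finset

noncomputable section

/-- the polynomial `X^6 + X + 1` -/
def fp : (ZMod 2)[X] := X ^ 6 + X + 1

/-- the ring -/
abbrev R : Type := AdjoinRoot fp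

/-- the generator -/
def al : R := AdjoinRoot.root fp

theorem two_R : (2 : R) = 0 := by
  have h := map_ofNat (algebraMap (ZMod 2) R) 2
  have h2 : (OfNat.ofNat 2 : ZMod 2) = 0 := by decide
  rw [h2, map_zero] at h
  exact h.symm

theorem add_self_R (t : R) : t + t = 0 := by
  rw [← two_mul, two_R, zero_mul]

theorem al6 : al ^ 6 = al + 1 := by
  have h : AdjoinRoot.mk fp fp = 0 := AdjoinRoot.mk_self
  have h2 : AdjoinRoot.mk fp (X ^ 6 + X + 1) = al ^ 6 + al + 1 := by
    rw [map_add, map_add, map_pow, map_one, AdjoinRoot.mk_X]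
    rfl
  have h4 : AdjoinRoot.mk fp fp = AdjoinRoot.mk fp (X ^ 6 + X + 1) := rfl
  rw [h4, h2] at h
  have h3 := add_self_R (al + 1)
  calc al ^ 6 = al ^ 6 + ((al + 1) + (al + 1)) := by rw [h3, add_zero]
    _ = (al ^ 6 + al + 1) + (al + 1) := by ring
    _ = al + 1 := by rw [h, zero_add]

/-- value of the bits -/
def bt (n i : ℕ) : R := if n.testBit i then al ^ i else 0

/-- partial value of a code -/
def cs (n k : ℕ) : R := ∑ i ∈ range k, bt n i

/-- the element with a given code -/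
def c (n : ℕ) : R := cs n 6

theorem bt_xor (a b i : ℕ) : bt (a ^^^ b) i = bt a i + bt b i := by
  unfold bt
  rw [Nat.testBit_xor]
  cases a.testBit i <;> cases b.testBit i <;> simp [add_self_R]

theorem c_xor (a b : ℕ) : c (a ^^^ b) = c a + c b := by
  unfold c cs
  rw [← sum_add_distrib]
  exact sum_congr rfl fun i _ => bt_xor a b i

theorem c_zero : c 0 = 0 := by
  simp [c, cs, bt]

theorem xt_bits : ∀ n < 64, (xt n < 64) ∧ (xt n).testBit 0 = n.testBit 5 ∧
    (xt n).testBit 1 = (n.testBit 0 ^^ n.testBit 5) ∧ (xt n).testBit 2 = n.testBit 1 ∧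
    (xt n).testBit 3 = n.testBit 2 ∧ (xt n).testBit 4 = n.testBit 3 ∧
    (xt n).testBit 5 = n.testBit 4 := by
  decide

theorem c_xt {n : ℕ} (hn : n < 64) : c (xt n) = al * c n := by
  obtain ⟨_, h0, h1, h2, h3, h4, h5⟩ := xt_bits n hn
  unfold c cs bt
  simp only [sum_range_succ, range_zero, sum_empty, zero_add, h0, h1, h2, h3, h4, h5]
  have e6 := al6
  cases n.testBit 0 <;> cases n.testBit 1 <;> cases n.testBit 2 <;> cases n.testBit 3 <;>
    cases n.testBit 4 <;> cases n.testBit 5 <;> simp only [if_true, if_false, Bool.xor_false,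
      Bool.xor_true, Bool.not_true, Bool.not_false, Bool.false_eq_true] <;>
    first
    | ring1
    | (linear_combination (-1 : R) * e6)
    | (linear_combination (-1 : R) * e6 - al * two_R)

theorem mulk_lt {a : ℕ} (ha : a < 64) (k : ℕ) : ∀ b, mulk a b k < 64 := by
  induction k with
  | zero => intro b; unfold mulk; norm_num
  | succ k ih =>
    intro b
    unfold mulk
    have h1 : a * (b % 2) < 2 ^ 6 := by
      have := Nat.mod_lt b (show 0 < 2 by norm_num)
      nlinarith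
    have h2 : xt (mulk a (b / 2) k) < 2 ^ 6 := (xt_bits _ (ih (b / 2))).1
    exact Nat.xor_lt_two_pow h1 h2

theorem c_mulk {a : ℕ} (ha : a < 64) (k : ℕ) : ∀ b, c (mulk a b k) = c a * cs b k := by
  induction k with
  | zero => intro b; unfold mulk cs; simp [c_zero]
  | succ k ih =>
    intro b
    unfold mulk
    rw [c_xor, c_xt (mulk_lt ha k _), ih (b / 2)]
    unfold cs
    rw [sum_range_succ']
    have h0 : c (a * (b % 2)) = c a * bt b 0 := by
      unfold bt
      rw [Nat.testBit_zero]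
      rcases Nat.mod_two_eq_zero_or_one b with h | h
      · rw [h]; simp [c_zero]
      · rw [h]; simp
    have h1 : ∀ i, bt b (i + 1) = al * bt (b / 2) i := by
      intro i
      unfold bt
      rw [Nat.testBit_succ]
      split_ifs
      · ring
      · ring
    rw [h0, mul_add, mul_sum, mul_sum, mul_sum, add_comm]
    congr 1
    refine sum_congr rfl fun i _ => ?_
    rw [h1]
    ring

theorem mul_lt {a b : ℕ} (ha : a < 64) (hb : b < 64) : mul a b < 64 := by
  rw [mul_eq ha hb]; exact mulk_lt ha 6 b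

theorem c_mul {a b : ℕ} (ha : a < 64) (hb : b < 64) : c (mul a b) = c a * c b := by
  rw [mul_eq ha hb]; exact c_mulk ha 6 b

theorem fp_monic : fp.Monic := by
  unfold fp
  monicity!

theorem fp_natDegree : fp.natDegree = 6 := by
  unfold fp
  compute_degree!

theorem c_eq_zero {n : ℕ} (hn : n < 64) (h : c n = 0) : n = 0 := by
  set p : (ZMod 2)[X] := ∑ i ∈ range 6, if n.testBit i then X ^ i else 0 with hp
  have h1 : AdjoinRoot.mk fp p = c n := by
    rw [hp, map_sum]
    unfold c cs bt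
    refine sum_congr rfl fun i _ => ?_
    split_ifs
    · rw [map_pow, AdjoinRoot.mk_X]; rfl
    · rw [map_zero]
  rw [h, AdjoinRoot.mk_eq_zero] at h1
  have hdeg : p.degree < 6 := by
    rw [hp]
    refine lt_of_le_of_lt (degree_sum_le _ _) ?_
    rw [Finset.sup_lt_iff (by decide)]
    intro i hi
    rw [mem_range] at hi
    split_ifs
    · rw [degree_X_pow]; exact_mod_cast hi
    · rw [degree_zero]; exact WithBot.bot_lt_coe _
  have hp0 : p = 0 := by
    by_contra hne
    have h2 := degree_le_of_dvd h1 hne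
    have h3 : fp.degree = 6 := by
      rw [degree_eq_natDegree fp_monic.ne_zero, fp_natDegree]; rfl
    rw [h3] at h2
    exact absurd (lt_of_le_of_lt h2 hdeg) (lt_irrefl _)
  have hbit : ∀ i < 6, n.testBit i = false := by
    intro i hi
    have h4 : p.coeff i = 0 := by rw [hp0, coeff_zero]
    rw [hp, finsetSum_coeff] at h4
    rw [sum_eq_single i] at h4
    · by_contra hb
      rw [Bool.not_eq_false] at hb
      rw [hb] at h4
      simp at h4
    · intro j _ hj
      split_ifs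
      · rw [coeff_X_pow, if_neg (Ne.symm hj)]
      · rw [coeff_zero]
    · intro hh
      exact absurd (mem_range.mpr hi) hh
  apply Nat.eq_of_testBit_eq
  intro i
  rw [Nat.zero_testBit]
  rcases Nat.lt_or_ge i 6 with hi | hi
  · exact hbit i hi
  · apply Nat.testBit_lt_two_pow
    calc n < 2 ^ 6 := hn
      _ ≤ 2 ^ i := Nat.pow_le_pow_right (by norm_num) hi

theorem c_inj {a b : ℕ} (ha : a < 64) (hb : b < 64) (h : c a = c b) : a = b := by
  have h1 : c (a ^^^ b) = 0 := by rw [c_xor, h, add_self_R]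
  have h2 : a ^^^ b < 64 := Nat.xor_lt_two_pow (n := 6) ha hb
  have h3 := c_eq_zero h2 h1
  exact Nat.xor_eq_zero_iff.mp h3

/-! vector codes -/

/-- first coordinate -/
def cl (u : ℕ) : R := c (u % 64)

/-- second coordinate -/
def ch (u : ℕ) : R := c (u / 64)

/-- scalar multiplication on vector codes -/
def sm (l u : ℕ) : ℕ := mul l (u % 64) + 64 * mul l (u / 64)

theorem lo_lt (u : ℕ) : u % 64 < 64 := Nat.mod_lt _ (by norm_num)

theorem hi_lt {u : ℕ} (hu : u < 4096) : u / 64 < 64 := by omega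

theorem xor_lo (u v : ℕ) : (u ^^^ v) % 64 = (u % 64) ^^^ (v % 64) := by
  have := Nat.xor_mod_two_pow (a := u) (b := v) (n := 6)
  simpa using this

theorem xor_hi (u v : ℕ) : (u ^^^ v) / 64 = (u / 64) ^^^ (v / 64) := by
  have := Nat.xor_div_two_pow (a := u) (b := v) (n := 6)
  simpa using this

theorem xor_lt {u v : ℕ} (hu : u < 4096) (hv : v < 4096) : u ^^^ v < 4096 :=
  Nat.xor_lt_two_pow (n := 12) hu hv

theorem cl_xor (u v : ℕ) : cl (u ^^^ v) = cl u + cl v := by
  unfold cl; rw [xor_lo, c_xor]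

theorem ch_xor (u v : ℕ) : ch (u ^^^ v) = ch u + ch v := by
  unfold ch; rw [xor_hi, c_xor]

theorem ext_c {u v : ℕ} (hu : u < 4096) (hv : v < 4096) (h1 : cl u = cl v) (h2 : ch u = ch v) :
    u = v := by
  have e1 := c_inj (lo_lt u) (lo_lt v) h1
  have e2 := c_inj (hi_lt hu) (hi_lt hv) h2
  omega

theorem mk_lo {a b : ℕ} (ha : a < 64) : (a + 64 * b) % 64 = a := by omega

theorem mk_hi {a b : ℕ} (ha : a < 64) : (a + 64 * b) / 64 = b := by omega

theorem sm_lt {l u : ℕ} (hl : l < 64) (hu : u < 4096) : sm l u < 4096 := by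
  have h1 := mul_lt hl (lo_lt u)
  have h2 := mul_lt hl (hi_lt hu)
  unfold sm
  omega

theorem cl_sm {l u : ℕ} (hl : l < 64) (hu : u < 4096) : cl (sm l u) = c l * cl u := by
  have h1 := mul_lt hl (lo_lt u)
  unfold cl sm
  rw [mk_lo h1, c_mul hl (lo_lt u)]

theorem ch_sm {l u : ℕ} (hl : l < 64) (hu : u < 4096) : ch (sm l u) = c l * ch u := by
  have h1 := mul_lt hl (lo_lt u)
  unfold ch sm
  rw [mk_hi h1, c_mul hl (hi_lt hu)]

theorem omc_lt {u v : ℕ} (hu : u < 4096) (hv : v < 4096) : omc u v < 64 := by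
  unfold omc
  exact Nat.xor_lt_two_pow (n := 6) (mul_lt (lo_lt u) (hi_lt hv)) (mul_lt (hi_lt hu) (lo_lt v))

theorem c_omc {u v : ℕ} (hu : u < 4096) (hv : v < 4096) :
    c (omc u v) = cl u * ch v + ch u * cl v := by
  unfold omc cl ch
  rw [c_xor, c_mul (lo_lt u) (hi_lt hv), c_mul (hi_lt hu) (lo_lt v)]

theorem tc_eq (u x : ℕ) : tc u x = x ^^^ sm (omc u x) u := rfl

theorem tc_lt {u x : ℕ} (hu : u < 4096) (hx : x < 4096) : tc u x < 4096 := by
  rw [tc_eq]
  exact xor_lt hx (sm_lt (omc_lt hu hx) hu)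

theorem cl_tc {u x : ℕ} (hu : u < 4096) (hx : x < 4096) :
    cl (tc u x) = cl x + (cl u * ch x + ch u * cl x) * cl u := by
  rw [tc_eq, cl_xor, cl_sm (omc_lt hu hx) hu, c_omc hu hx]

theorem ch_tc {u x : ℕ} (hu : u < 4096) (hx : x < 4096) :
    ch (tc u x) = ch x + (cl u * ch x + ch u * cl x) * ch u := by
  rw [tc_eq, ch_xor, ch_sm (omc_lt hu hx) hu, c_omc hu hx]

theorem tc_tc {u x : ℕ} (hu : u < 4096) (hx : x < 4096) : tc u (tc u x) = x := by
  have h1 := tc_lt hu hx
  apply ext_c (tc_lt hu h1) hx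
  · rw [cl_tc hu h1, cl_tc hu hx, ch_tc hu hx]
    linear_combination ((cl u * ch x + ch u * cl x) * cl u
      + (cl u * ch x + ch u * cl x) * cl u * ch u * cl u) * two_R
  · rw [ch_tc hu h1, cl_tc hu hx, ch_tc hu hx]
    linear_combination ((cl u * ch x + ch u * cl x) * ch u
      + (cl u * ch x + ch u * cl x) * cl u * ch u * ch u) * two_R

/-! the group -/

/-- a permutation of `Fin 4096` as a map on `ℕ` -/
def ap (g : Equiv.Perm (Fin 4096)) (u : ℕ) : ℕ := if h : u < 4096 then (g ⟨u, h⟩ : ℕ) else u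

theorem ap_lt (g : Equiv.Perm (Fin 4096)) {u : ℕ} (hu : u < 4096) : ap g u < 4096 := by
  unfold ap; rw [dif_pos hu]; exact (g _).2

theorem ap_one (u : ℕ) : ap 1 u = u := by
  unfold ap; split_ifs <;> rfl

theorem ap_mul (g h : Equiv.Perm (Fin 4096)) {u : ℕ} (hu : u < 4096) :
    ap (g * h) u = ap g (ap h u) := by
  have h1 := ap_lt h hu
  unfold ap at h1 ⊢
  rw [dif_pos hu] at h1 ⊢
  rw [dif_pos hu, dif_pos h1]
  rfl

theorem ap_ext {g h : Equiv.Perm (Fin 4096)} (H : ∀ u < 4096, ap g u = ap h u) : g = h := by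
  apply Equiv.ext
  intro x
  have := H x.1 x.2
  unfold ap at this
  rw [dif_pos x.2, dif_pos x.2] at this
  exact Fin.ext this

theorem ap_inv_self (g : Equiv.Perm (Fin 4096)) {u : ℕ} (hu : u < 4096) :
    ap g (ap g⁻¹ u) = u := by
  rw [← ap_mul _ _ hu, mul_inv_cancel, ap_one]

theorem ap_self_inv (g : Equiv.Perm (Fin 4096)) {u : ℕ} (hu : u < 4096) :
    ap g⁻¹ (ap g u) = u := by
  rw [← ap_mul _ _ hu, inv_mul_cancel, ap_one]

/-- structure preserving permutations -/
structure Pres (g : Equiv.Perm (Fin 4096)) : Prop where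
  add : ∀ u < 4096, ∀ v < 4096, ap g (u ^^^ v) = ap g u ^^^ ap g v
  sml : ∀ l < 64, ∀ u < 4096, ap g (sm l u) = sm l (ap g u)
  om : ∀ u < 4096, ∀ v < 4096, omc (ap g u) (ap g v) = omc u v

theorem Pres.one : Pres 1 := by
  refine ⟨?_, ?_, ?_⟩
  · intro u _ v _; simp only [ap_one]
  · intro l _ u _; simp only [ap_one]
  · intro u _ v _; simp only [ap_one]

theorem Pres.mul {g h : Equiv.Perm (Fin 4096)} (hg : Pres g) (hh : Pres h) : Pres (g * h) := by
  refine ⟨?_, ?_, ?_⟩
  · intro u hu v hv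
    rw [ap_mul _ _ (xor_lt hu hv), ap_mul _ _ hu, ap_mul _ _ hv, hh.add u hu v hv,
      hg.add _ (ap_lt h hu) _ (ap_lt h hv)]
  · intro l hl u hu
    rw [ap_mul _ _ (sm_lt hl hu), ap_mul _ _ hu, hh.sml l hl u hu, hg.sml l hl _ (ap_lt h hu)]
  · intro u hu v hv
    rw [ap_mul _ _ hu, ap_mul _ _ hv, hg.om _ (ap_lt h hu) _ (ap_lt h hv), hh.om u hu v hv]

theorem Pres.inv {g : Equiv.Perm (Fin 4096)} (hg : Pres g) : Pres g⁻¹ := by
  refine ⟨?_, ?_, ?_⟩
  · intro u hu v hv
    have h1 := ap_lt g⁻¹ hu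
    have h2 := ap_lt g⁻¹ hv
    have h3 := hg.add _ h1 _ h2
    rw [ap_inv_self g hu, ap_inv_self g hv] at h3
    rw [← h3, ap_self_inv g (xor_lt h1 h2)]
  · intro l hl u hu
    have h1 := ap_lt g⁻¹ hu
    have h3 := hg.sml l hl _ h1
    rw [ap_inv_self g hu] at h3
    rw [← h3, ap_self_inv g (sm_lt hl h1)]
  · intro u hu v hv
    have h3 := hg.om _ (ap_lt g⁻¹ hu) _ (ap_lt g⁻¹ hv)
    rw [ap_inv_self g hu, ap_inv_self g hv] at h3
    exact h3.symm

/-- the group -/
def GG : Subgroup (Equiv.Perm (Fin 4096)) where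
  carrier := {g | Pres g}
  one_mem' := Pres.one
  mul_mem' := fun hg hh => hg.mul hh
  inv_mem' := fun hg => hg.inv

/-- the transvection as a permutation -/
def tp (u : ℕ) (hu : u < 4096) : Equiv.Perm (Fin 4096) where
  toFun x := ⟨tc u x, tc_lt hu x.2⟩
  invFun x := ⟨tc u x, tc_lt hu x.2⟩
  left_inv x := by apply Fin.ext; exact tc_tc hu x.2
  right_inv x := by apply Fin.ext; exact tc_tc hu x.2

theorem ap_tp {u x : ℕ} (hu : u < 4096) (hx : x < 4096) : ap (tp u hu) x = tc u x := by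
  unfold ap
  rw [dif_pos hx]
  rfl

theorem pres_tp {u : ℕ} (hu : u < 4096) : Pres (tp u hu) := by
  refine ⟨?_, ?_, ?_⟩
  · intro v hv w hw
    rw [ap_tp hu (xor_lt hv hw), ap_tp hu hv, ap_tp hu hw]
    apply ext_c (tc_lt hu (xor_lt hv hw)) (xor_lt (tc_lt hu hv) (tc_lt hu hw))
    · rw [cl_tc hu (xor_lt hv hw), cl_xor, cl_xor, ch_xor, cl_tc hu hv, cl_tc hu hw]
      ring
    · rw [ch_tc hu (xor_lt hv hw), ch_xor, ch_xor, cl_xor, ch_tc hu hv, ch_tc hu hw]
      ring
  · intro l hl v hv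
    rw [ap_tp hu (sm_lt hl hv), ap_tp hu hv]
    apply ext_c (tc_lt hu (sm_lt hl hv)) (sm_lt hl (tc_lt hu hv))
    · rw [cl_tc hu (sm_lt hl hv), cl_sm hl hv, ch_sm hl hv, cl_sm hl (tc_lt hu hv), cl_tc hu hv]
      ring
    · rw [ch_tc hu (sm_lt hl hv), cl_sm hl hv, ch_sm hl hv, ch_sm hl (tc_lt hu hv), ch_tc hu hv]
      ring
  · intro v hv w hw
    rw [ap_tp hu hv, ap_tp hu hw]
    apply c_inj (omc_lt (tc_lt hu hv) (tc_lt hu hw)) (omc_lt hv hw)
    rw [c_omc (tc_lt hu hv) (tc_lt hu hw), c_omc hv hw, cl_tc hu hv, cl_tc hu hw, ch_tc hu hv,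
      ch_tc hu hw]
    have e := two_R
    linear_combination (cl u * ch u * (cl v * ch w + ch v * cl w)
      + cl u ^ 2 * ch v * ch w + ch u ^ 2 * cl v * cl w
      + cl u * ch u * (cl u * ch v + ch u * cl v) * (cl u * ch w + ch u * cl w)) * e

/-- the transvection in the group -/
def TT (u : ℕ) : GG := if hu : u < 4096 then ⟨tp u hu, pres_tp hu⟩ else 1

theorem ap_TT {u x : ℕ} (hu : u < 4096) (hx : x < 4096) : ap (TT u).1 x = tc u x := by
  unfold TT
  rw [dif_pos hu]
  exact ap_tp hu hx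

theorem conj_TT (g : GG) {u : ℕ} (hu : u < 4096) : g * TT u * g⁻¹ = TT (ap g.1 u) := by
  have hgu := ap_lt g.1 hu
  apply Subtype.ext
  apply ap_ext
  intro x hx
  have hP : Pres g.1 := g.2
  have hx' := ap_lt (g.1)⁻¹ hx
  change ap (g.1 * (TT u).1 * (g.1)⁻¹) x = ap (TT (ap g.1 u)).1 x
  rw [ap_mul _ _ hx, ap_mul _ _ hx', ap_TT hu hx', ap_TT hgu hx, tc_eq, tc_eq]
  rw [hP.add _ hx' _ (sm_lt (omc_lt hu hx') hu), hP.sml _ (omc_lt hu hx') _ hu, ap_inv_self _ hx]
  have h1 := hP.om _ hu _ hx'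
  rw [ap_inv_self _ hx] at h1
  rw [h1]

theorem c_one : c 1 = 1 := by
  have b1 : Nat.testBit 1 0 = true := by decide
  have b2 : Nat.testBit 1 1 = false := by decide
  have b3 : Nat.testBit 1 2 = false := by decide
  have b4 : Nat.testBit 1 3 = false := by decide
  have b5 : Nat.testBit 1 4 = false := by decide
  have b6 : Nat.testBit 1 5 = false := by decide
  unfold c cs bt
  simp only [sum_range_succ, range_zero, sum_empty, b1, b2, b3, b4, b5, b6, if_true,
    Bool.false_eq_true, if_false, pow_zero, zero_add, add_zero]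

theorem vec_eq {u : ℕ} (hu : u < 4096) : u = sm (u % 64) 1 ^^^ sm (u / 64) 64 := by
  have h1 : (1 : ℕ) < 4096 := by norm_num
  have h2 : (64 : ℕ) < 4096 := by norm_num
  have c1 := c_one
  have e1 : cl 1 = 1 := by unfold cl; exact c1
  have e2 : ch 1 = 0 := by unfold ch; exact c_zero
  have e3 : cl 64 = 0 := by unfold cl; exact c_zero
  have e4 : ch 64 = 1 := by unfold ch; exact c1
  apply ext_c hu (xor_lt (sm_lt (lo_lt u) h1) (sm_lt (hi_lt hu) h2))
  · rw [cl_xor, cl_sm (lo_lt u) h1, cl_sm (hi_lt hu) h2, e1, e3, mul_one, mul_zero, add_zero]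
    rfl
  · rw [ch_xor, ch_sm (lo_lt u) h1, ch_sm (hi_lt hu) h2, e2, e4, mul_one, mul_zero, zero_add]
    rfl

/-- the setup -/
def theSetup : Setup GG where
  act g u := ap g.1 u
  T := TT
  act_lt g u hu := ap_lt g.1 hu
  act_one u _ := ap_one u
  act_mul g h u hu := ap_mul g.1 h.1 hu
  act_T u x hu hx := ap_TT hu hx
  conj g u hu := conj_TT g hu
  faithful g h1 h64 := by
    have hP : Pres g.1 := g.2
    apply Subtype.ext
    apply ap_ext
    intro u hu
    have hs1 := sm_lt (lo_lt u) (show 1 < 4096 by norm_num)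
    have hs2 := sm_lt (hi_lt hu) (show 64 < 4096 by norm_num)
    have e : ap g.1 u = u := by
      conv_lhs => rw [vec_eq hu]
      rw [hP.add _ hs1 _ hs2, hP.sml _ (lo_lt u) _ (by norm_num), hP.sml _ (hi_lt hu) _ (by norm_num),
        h1, h64, ← vec_eq hu]
    rw [e]
    exact (ap_one u).symm
  om g u v hu hv := by
    have hP : Pres g.1 := g.2
    exact hP.om u hu v hv

end

/-- Row S, algebra half. -/
theorem exists_setup : ∃ (G : Type) (_ : Group G) (_ : Finite G), Nonempty (Setup G) :=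
  ⟨GG, inferInstance, inferInstance, ⟨theSetup⟩⟩

end Vale.Agent.P183.SL
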