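import Vale.Agent.P183.SLComb
import Vale.Agent.P183.SLAlg
import Vale.Agent.P183.Interval

/-!
# P183: the winged 2 x 3 lattice is the interval `[SL(2,2), SL(2,64)]`

Its proper part is the N-shape `4 < 2 > 1 < 3` (`1` = `D18`, `2` = `D126`, `3` = `SL(2,8)`, `4` = `D42`)
and one isolated point `5` = `SL(2,4)`.
-/

namespace P183

open Vale.Agent.P183.SL

theorem le7_iff (i j : Fin 7) : le7 i j = true ↔ leOf 7 [(1, 2), (1, 3), (4, 2)] i j := by
  revert i j; decide

/-- The lattice with proper part `4 < 2 > 1 < 3` and an isolated point is a congruence lattice. -/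
theorem winged : RepCode 7 [(1, 2), (1, 3), (4, 2)] := by
  obtain ⟨G, hG, hfin, ⟨S⟩⟩ := exists_setup
  refine URep.interval (S.sub 0) (fun p : Fin 7 => S.sub p) ?_ ?_
  · intro K
    rw [S.ge_iff]
    constructor
    · rintro ⟨j, hj, h⟩; exact ⟨⟨j, hj⟩, h⟩
    · rintro ⟨p, h⟩; exact ⟨p, p.2, h⟩
  · intro p q
    rw [S.sub_le_iff p.2 q.2, le7_iff]

end P183
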