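import Vale.Agent.P183.SLTables

/-! P183, row SL: the subgroups containing `SL(2,2)`: combinatorial part. -/

namespace Vale.Agent.P183.SL

theorem tbl_lt (a b : ℕ) : mul a b < 64 := Nat.mod_lt _ (by norm_num)

theorem tcl {u x : ℕ} (hx : x < 4096) : tc u x < 4096 := by
  have h1 := tbl_lt (omc u x) (u % 64)
  have h2 := tbl_lt (omc u x) (u / 64)
  have h3 : mul (omc u x) (u % 64) + 64 * mul (omc u x) (u / 64) < 2 ^ 12 := by norm_num; omega
  exact Nat.xor_lt_two_pow (n := 12) (by norm_num; exact hx) h3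

variable {G : Type} [Group G] (S : Setup G)

namespace Setup

include S

theorem T_tc {u x : ℕ} (hu : u < 4096) (hx : x < 4096) :
    S.T (tc u x) = S.T u * S.T x * (S.T u)⁻¹ := by
  rw [S.conj _ _ hx, S.act_T _ _ hu hx]

theorem mem_tc {K : Subgroup G} {u x : ℕ} (hu : u < 4096) (hx : x < 4096) (h1 : S.T u ∈ K)
    (h2 : S.T x ∈ K) : S.T (tc u x) ∈ K := by
  rw [S.T_tc hu hx]
  exact K.mul_mem (K.mul_mem h1 h2) (K.inv_mem h1)

theorem T_zero : S.T 0 = 1 := by
  apply S.faithful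
  · rw [S.act_T _ _ (by norm_num) (by norm_num)]; decide +kernel
  · rw [S.act_T _ _ (by norm_num) (by norm_num)]; decide +kernel

/-- the seven subgroups -/
def sub (j : ℕ) : Subgroup G := Subgroup.closure {S.T 1, S.T 64, S.T (root j)}

omit S in
theorem root_facts {j : ℕ} (hj : j < 7) : ty (root j) = j ∧ root j < 4096 ∧
    tc (root j) (tc (root j) 1) = 1 ∧ tc (root j) (tc (root j) 64) = 64 := by
  have h := chk_spec chk7 j hj
  simp only [f7, Bool.and_eq_true, beq_iff_eq, Nat.blt_eq] at h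
  exact ⟨h.1.1.1, h.1.1.2, h.1.2, h.2⟩

omit S in
theorem ty_lt {v : ℕ} (hv : v < 4096) : ty v < 7 := by
  have h := chk_spec chkT v hv
  simpa using h

omit S in
theorem move_lt {v : ℕ} (hv : v < 4096) : move v < 4096 := by
  unfold move
  split
  · exact tcl (by norm_num)
  · exact tcl (by norm_num)
  · exact tcl hv
  · exact tcl hv
  · exact tcl (tcl hv)
  · exact tcl (tcl hv)

theorem mem_move {K : Subgroup G} (h1 : S.T 1 ∈ K) (h64 : S.T 64 ∈ K) {v : ℕ} (hv : v < 4096)
    (h : S.T v ∈ K) : S.T (move v) ∈ K := by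
  have n1 : 1 < 4096 := by norm_num
  have n64 : 64 < 4096 := by norm_num
  unfold move
  split
  · exact S.mem_tc hv n1 h h1
  · exact S.mem_tc hv n64 h h64
  · exact S.mem_tc n1 hv h1 h
  · exact S.mem_tc n64 hv h64 h
  · exact S.mem_tc hv (tcl hv) h (S.mem_tc n1 hv h1 h)
  · exact S.mem_tc hv (tcl hv) h (S.mem_tc n64 hv h64 h)

theorem descent {K : Subgroup G} (h1 : S.T 1 ∈ K) (h64 : S.T 64 ∈ K) (n : ℕ) :
    ∀ v < 4096, rk v ≤ n → S.T v ∈ K → S.T (root (ty v)) ∈ K := by
  induction n with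
  | zero =>
    intro v hv hr h
    have hc := chk_spec chkD v hv
    simp only [fD, Bool.or_eq_true, Bool.and_eq_true, beq_iff_eq, Nat.blt_eq] at hc
    rcases hc with (h0 | h0) | h0
    · rw [h0]; exact h1
    · rw [← h0]; exact h
    · omega
  | succ n ih =>
    intro v hv hr h
    have hc := chk_spec chkD v hv
    simp only [fD, Bool.or_eq_true, Bool.and_eq_true, beq_iff_eq, Nat.blt_eq] at hc
    rcases hc with (h0 | h0) | h0
    · rw [h0]; exact h1
    · rw [← h0]; exact h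
    · rw [← h0.1]
      exact ih (move v) (move_lt hv) (by omega) (S.mem_move h1 h64 hv h)

theorem T1_mem (j : ℕ) : S.T 1 ∈ S.sub j := Subgroup.subset_closure (by simp)

theorem T64_mem (j : ℕ) : S.T 64 ∈ S.sub j := Subgroup.subset_closure (by simp)

theorem Troot_mem (j : ℕ) : S.T (root j) ∈ S.sub j := Subgroup.subset_closure (by simp)

theorem sub_le {j : ℕ} {K : Subgroup G} (h1 : S.T 1 ∈ K) (h64 : S.T 64 ∈ K)
    (hr : S.T (root j) ∈ K) : S.sub j ≤ K := by
  rw [sub, Subgroup.closure_le]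
  rintro x (rfl | rfl | rfl)
  · exact h1
  · exact h64
  · exact hr

omit S in
theorem chkO {j : ℕ} (hj : j < 7) : chk (fO j) 4096 = true := by
  interval_cases j
  · exact chkO0
  · exact chkO1
  · exact chkO2
  · exact chkO3
  · exact chkO4
  · exact chkO5
  · exact chkO6

omit S in
theorem gn_cases (j v : ℕ) : gn j v = 1 ∨ gn j v = 64 ∨ gn j v = root j := by
  unfold gn
  split
  · exact Or.inl rfl
  · exact Or.inr (Or.inl rfl)
  · exact Or.inr (Or.inr rfl)

theorem gn_mem {j : ℕ} (hj : j < 7) (v : ℕ) : gn j v < 4096 ∧ S.T (gn j v) ∈ S.sub j := by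
  rcases gn_cases j v with h | h | h
  · rw [h]; exact ⟨by norm_num, S.T1_mem j⟩
  · rw [h]; exact ⟨by norm_num, S.T64_mem j⟩
  · rw [h]; exact ⟨(root_facts hj).2.1, S.Troot_mem j⟩

/-- every vector of the `j`-th closed set lies in the `j`-th subgroup, and is conjugate to `e1` -/
theorem orbit {j : ℕ} (hj : j < 7) (n : ℕ) : ∀ v < 4096, mem j v = true → od j v ≤ n →
    S.T v ∈ S.sub j ∧ (v ≠ 0 → ∃ g ∈ S.sub j, S.act g v = 1) := by
  induction n with
  | zero =>
    intro v hv hm ho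
    by_cases h0 : v = 0
    · subst h0; rw [S.T_zero]; exact ⟨Subgroup.one_mem _, fun h => absurd rfl h⟩
    by_cases h1 : v = 1
    · subst h1; exact ⟨S.T1_mem j, fun _ => ⟨1, Subgroup.one_mem _, S.act_one _ (by norm_num)⟩⟩
    have hc := chk_spec (chkO hj) v hv
    simp only [fO, hm, h0, h1, Bool.or_eq_true, Bool.and_eq_true, beq_iff_eq, Nat.blt_eq,
      Bool.not_eq_true', Bool.true_eq_false, false_or, bne_iff_ne, ne_eq] at hc
    omega
  | succ n ih =>
    intro v hv hm ho
    by_cases h0 : v = 0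
    · subst h0; rw [S.T_zero]; exact ⟨Subgroup.one_mem _, fun h => absurd rfl h⟩
    by_cases h1 : v = 1
    · subst h1; exact ⟨S.T1_mem j, fun _ => ⟨1, Subgroup.one_mem _, S.act_one _ (by norm_num)⟩⟩
    have hc := chk_spec (chkO hj) v hv
    simp only [fO, hm, h0, h1, Bool.or_eq_true, Bool.and_eq_true, beq_iff_eq, Nat.blt_eq,
      Bool.not_eq_true', Bool.true_eq_false, false_or, bne_iff_ne, ne_eq] at hc
    obtain ⟨⟨⟨c1, c2⟩, c3⟩, c4⟩ := hc
    obtain ⟨g1, g2⟩ := S.gn_mem hj v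
    obtain ⟨i1, i2⟩ := ih (tc (gn j v) v) (tcl hv) c1 (by omega)
    constructor
    · have := S.mem_tc g1 (tcl hv) g2 i1
      rwa [c4] at this
    · intro _
      obtain ⟨g, hg, hg1⟩ := i2 c2
      refine ⟨g * S.T (gn j v), Subgroup.mul_mem _ hg g2, ?_⟩
      rw [S.act_mul _ _ _ hv, S.act_T _ _ g1 hv, hg1]

theorem gen {j : ℕ} (hj : j < 7) {v : ℕ} (hv : v < 4096) (hm : mem j v = true) :
    S.T v ∈ S.sub j := (S.orbit hj _ v hv hm le_rfl).1

theorem trans {j : ℕ} (hj : j < 7) {v : ℕ} (hv : v < 4096) (hm : mem j v = true) (h0 : v ≠ 0) :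
    ∃ g ∈ S.sub j, S.act g v = 1 := (S.orbit hj _ v hv hm le_rfl).2 h0

/-- the set of vectors of an intermediate subgroup is one of the seven closed sets -/
theorem classify_set {K : Subgroup G} (h1 : S.T 1 ∈ K) (h64 : S.T 64 ∈ K) :
    ∃ m < 7, S.T (root m) ∈ K ∧ ∀ v < 4096, S.T v ∈ K ↔ mem m v = true := by
  classical
  let Q : Finset ℕ := (Finset.range 7).filter (fun j => S.T (root j) ∈ K)
  have h0 : 0 ∈ Q := by
    simp only [Q, Finset.mem_filter, Finset.mem_range]
    exact ⟨by norm_num, h1⟩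
  obtain ⟨m, hm, hmax⟩ := Finset.exists_max_image Q rkk ⟨0, h0⟩
  simp only [Q, Finset.mem_filter, Finset.mem_range] at hm
  refine ⟨m, hm.1, hm.2, fun v hv => ⟨fun hT => ?_, fun hM => ?_⟩⟩
  · have hr := S.descent h1 h64 _ v hv le_rfl hT
    have ht := ty_lt hv
    have hQ : ty v ∈ Q := by simp [Q, ht, hr]
    have hle := hmax _ hQ
    have hc := chk_spec (chk_spec chk6 (ty v) ht) m hm.1
    simp only [f6, Bool.or_eq_true, Nat.blt_eq] at hc
    rcases hc with (hc | hc) | hc
    · exact hc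
    · exact absurd hc (by omega)
    · exfalso
      have r1 := (root_facts ht).2.1
      have r2 := (root_facts hm.1).2.1
      have hj : S.T (tc (root (ty v)) (root m)) ∈ K := S.mem_tc r1 r2 hr hm.2
      have hr' := S.descent h1 h64 _ _ (tcl r2) le_rfl hj
      have hQ' : ty (tc (root (ty v)) (root m)) ∈ Q := by
        simp [Q, ty_lt (tcl (u := root (ty v)) r2), hr']
      have := hmax _ hQ'
      omega
  · exact S.sub_le h1 h64 hm.2 (S.gen hm.1 hv hM)

/-- an intermediate subgroup is determined by its vectors -/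
theorem classify {K : Subgroup G} (h1 : S.T 1 ∈ K) (h64 : S.T 64 ∈ K) :
    ∃ m < 7, K = S.sub m ∧ ∀ v < 4096, S.T v ∈ K ↔ mem m v = true := by
  obtain ⟨m, hm, hr, hV⟩ := S.classify_set h1 h64
  refine ⟨m, hm, le_antisymm ?_ (S.sub_le h1 h64 hr), hV⟩
  intro g hg
  have n1 : 1 < 4096 := by norm_num
  have n64 : 64 < 4096 := by norm_num
  have hu : S.T (S.act g 1) ∈ K := by
    rw [← S.conj _ _ n1]; exact K.mul_mem (K.mul_mem hg h1) (K.inv_mem hg)
  have hu' := (hV _ (S.act_lt g 1 n1)).mp hu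
  have hne : S.act g 1 ≠ 0 := by
    intro h0
    have ho := S.om g 1 64 n1 n64
    rw [h0] at ho
    have hz := chk_spec chkZ (S.act g 64) (S.act_lt g 64 n64)
    simp only [beq_iff_eq] at hz
    rw [hz] at ho
    exact absurd ho (by decide +kernel)
  obtain ⟨n, hn, hn1⟩ := S.trans hm (S.act_lt g 1 n1) hu' hne
  have hnK : n ∈ K := S.sub_le h1 h64 hr hn
  set w := S.act (n * g) 64 with hw
  have hwlt : w < 4096 := S.act_lt _ _ n64
  have e1 : S.act (n * g) 1 = 1 := by rw [S.act_mul _ _ _ n1, hn1]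
  have how : omc 1 w = 1 := by
    have := S.om (n * g) 1 64 n1 n64
    rw [e1, ← hw] at this
    rw [this]; decide +kernel
  have hW := chk_spec chkW w hwlt
  simp only [beq_iff_eq] at hW
  rw [how] at hW
  have hwK : S.T w ∈ K := by
    rw [hw, ← S.conj _ _ n64]
    exact K.mul_mem (K.mul_mem (K.mul_mem hnK hg) h64) (K.inv_mem (K.mul_mem hnK hg))
  have hwm := (hV w hwlt).mp hwK
  have hc := chk_spec (chk_spec chk3 m hm) (w % 64) (Nat.mod_lt _ (by norm_num))
  have ew : w % 64 + 64 = w := by omega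
  simp only [f3, ew, hwm, Bool.or_eq_true, Bool.and_eq_true, beq_iff_eq,
    Bool.not_eq_true', Bool.true_eq_false, false_or] at hc
  obtain ⟨⟨c1, c2⟩, c3⟩ := hc
  have hsq : sq (w % 64) < 4096 := lt_of_lt_of_le (Nat.mod_lt _ (by norm_num)) (by norm_num)
  have hT : S.T (sq (w % 64)) ∈ S.sub m := S.gen hm hsq c1
  have hone : S.T (sq (w % 64)) * (n * g) = 1 := by
    apply S.faithful
    · rw [S.act_mul _ _ _ n1, e1, S.act_T _ _ hsq n1, c3]
    · rw [S.act_mul _ _ _ n64, ← hw, S.act_T _ _ hsq hwlt, c2]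
  have : g = (S.T (sq (w % 64)) * n)⁻¹ := by
    rw [← mul_assoc] at hone
    exact eq_inv_of_mul_eq_one_right hone
  rw [this]
  exact Subgroup.inv_mem _ (Subgroup.mul_mem _ hT hn)

theorem invol {u : ℕ} (hu : u < 4096) (h1 : tc u (tc u 1) = 1) (h64 : tc u (tc u 64) = 64) :
    S.T u * S.T u = 1 := by
  have n1 : 1 < 4096 := by norm_num
  have n64 : 64 < 4096 := by norm_num
  apply S.faithful
  · rw [S.act_mul _ _ _ n1, S.act_T u 1 hu n1, S.act_T u _ hu (tcl n1), h1]
  · rw [S.act_mul _ _ _ n64, S.act_T u 64 hu n64, S.act_T u _ hu (tcl n64), h64]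

theorem tc_tc {u : ℕ} (hu : u < 4096) (h1 : tc u (tc u 1) = 1) (h64 : tc u (tc u 64) = 64)
    {v : ℕ} (hv : v < 4096) : tc u (tc u v) = v := by
  have h := S.invol hu h1 h64
  have e : S.act (S.T u * S.T u) v = v := by rw [h, S.act_one _ hv]
  rwa [S.act_mul _ _ _ hv, S.act_T _ _ hu hv, S.act_T _ _ hu (tcl hv)] at e

omit S in
theorem mem6 (v : ℕ) : mem 6 v = true := by simp [mem, le7]

omit S in
theorem chk4' {j : ℕ} (hj : j < 7) {v : ℕ} (hv : v < 4096) (hm : mem j v = true) :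
    mem j (tc 1 v) = true ∧ mem j (tc 64 v) = true ∧ mem j (tc (root j) v) = true := by
  by_cases h6 : j = 6
  · subst h6; exact ⟨mem6 _, mem6 _, mem6 _⟩
  have hc := chk_spec (chk_spec chk4 j (by omega)) v hv
  simp only [f4, hm, Bool.or_eq_true, Bool.and_eq_true,
    Bool.not_eq_true', Bool.true_eq_false, false_or] at hc
  exact ⟨hc.1.1, hc.1.2, hc.2⟩

/-- the `j`-th subgroup preserves the `j`-th closed set -/
theorem stab {j : ℕ} (hj : j < 7) {g : G} (hg : g ∈ S.sub j) :
    ∀ v < 4096, (mem j v = true ↔ mem j (S.act g v) = true) := by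
  have hgen : ∀ u < 4096, tc u (tc u 1) = 1 → tc u (tc u 64) = 64 →
      (∀ v < 4096, mem j v = true → mem j (tc u v) = true) →
      ∀ v < 4096, (mem j v = true ↔ mem j (S.act (S.T u) v) = true) := by
    intro u hu h1 h64 hp v hv
    rw [S.act_T _ _ hu hv]
    refine ⟨hp v hv, fun h => ?_⟩
    have := hp _ (tcl hv) h
    rwa [S.tc_tc hu h1 h64 hv] at this
  induction hg using Subgroup.closure_induction with
  | mem x hx =>
    rcases hx with rfl | rfl | rfl
    · exact hgen 1 (by norm_num) (by decide +kernel) (by decide +kernel)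
        (fun v hv hm => (chk4' hj hv hm).1)
    · exact hgen 64 (by norm_num) (by decide +kernel) (by decide +kernel)
        (fun v hv hm => (chk4' hj hv hm).2.1)
    · have hr := root_facts hj
      exact hgen _ hr.2.1 hr.2.2.1 hr.2.2.2 (fun v hv hm => (chk4' hj hv hm).2.2)
  | one => intro v hv; rw [S.act_one _ hv]
  | mul x y _ _ hx hy =>
    intro v hv
    rw [S.act_mul _ _ _ hv, hy v hv, hx _ (S.act_lt _ _ hv)]
  | inv x _ hx =>
    intro v hv
    have := hx (S.act x⁻¹ v) (S.act_lt _ _ hv)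
    rw [← S.act_mul _ _ _ hv, mul_inv_cancel, S.act_one _ hv] at this
    exact this.symm

/-- the vectors of the `j`-th subgroup are exactly the `j`-th closed set -/
theorem mem_sub_iff {j : ℕ} (hj : j < 7) {v : ℕ} (hv : v < 4096) :
    S.T v ∈ S.sub j ↔ mem j v = true := by
  refine ⟨fun h => ?_, S.gen hj hv⟩
  obtain ⟨k, hk, -, hV⟩ := S.classify (S.T1_mem j) (S.T64_mem j)
  have hr := root_facts hj
  have hrk := root_facts hk
  have hle : le7 j k = true := by
    have := (hV _ hr.2.1).mp (S.Troot_mem j)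
    rwa [mem, hr.1] at this
  have hmk := (hV v hv).mp h
  by_cases hjk : j = k
  · rw [hjk]; exact hmk
  exfalso
  have hTk : S.T (root k) ∈ S.sub j := by
    apply (hV _ hrk.2.1).mpr
    rw [mem, hrk.1]; simp [le7]
  have h1 : mem j 1 = true := by
    have : ty 1 = 0 := by decide +kernel
    rw [mem, this]; simp [le7]
  have hs := (S.stab hj hTk 1 (by norm_num)).mp h1
  rw [S.act_T _ _ hrk.2.1 (by norm_num)] at hs
  have hc := chk_spec (chk_spec chk5 j hj) k hk
  simp only [f5, hle, hs, Bool.or_eq_true, beq_iff_eq, Bool.not_eq_true', Bool.true_eq_false,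
    or_false] at hc
  exact hjk hc

theorem sub_le_iff {i j : ℕ} (hi : i < 7) (hj : j < 7) :
    S.sub i ≤ S.sub j ↔ le7 i j = true := by
  have hr := root_facts hi
  constructor
  · intro h
    have := (S.mem_sub_iff hj hr.2.1).mp (h (S.Troot_mem i))
    rwa [mem, hr.1] at this
  · intro h
    refine S.sub_le (S.T1_mem j) (S.T64_mem j) ((S.mem_sub_iff hj hr.2.1).mpr ?_)
    rwa [mem, hr.1]

theorem ge_iff (K : Subgroup G) : S.sub 0 ≤ K ↔ ∃ j < 7, S.sub j = K := by
  constructor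
  · intro h
    obtain ⟨m, hm, hK, -⟩ := S.classify (h (S.T1_mem 0)) (h (S.T64_mem 0))
    exact ⟨m, hm, hK.symm⟩
  · rintro ⟨j, hj, rfl⟩
    rw [S.sub_le_iff (by norm_num) hj]
    simp [le7]

end Setup

end Vale.Agent.P183.SL
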