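import Vale.Agent.P183.Dual

/-!
# P183: filter and ideal (Snow's lemma)

If `a`, `b` are congruences of a finite unary algebra, then the congruences `r` with `a ≤ r` or
`r ≤ b` are exactly the congruences of a finite unary algebra.
-/

namespace P183

section snow

variable {A ι : Type}

open Classical in
/-- the additional operations -/
noncomputable def opSnow (f : ι → A → A) (a b : UCon f) : ι ⊕ (A × A × A) → A → A
  | Sum.inl i, z => f i z
  | Sum.inr (x, y, v), z => if a.1 x y ∧ b.1 v z then y else x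

/-- Snow's filter and ideal lemma. -/
theorem URep.snow {P : Type} {le : P → P → Prop} [Finite A] [Nonempty A] [Finite ι]
    (f : ι → A → A) (a b : UCon f) (c : P → UCon f)
    (hc : ∀ r : UCon f, (a ≤ r ∨ r ≤ b) ↔ ∃ p, c p = r)
    (hle : ∀ p q, c p ≤ c q ↔ le p q) : URep P le := by
  classical
  refine ⟨A, inferInstance, inferInstance, ι ⊕ (A × A × A), inferInstance, opSnow f a b,
    fun p => ⟨(c p).1, ?_⟩, ?_, hle⟩
  · intro i x y hxy
    match i with
    | Sum.inl i => exact (c p).2 i x y hxy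
    | Sum.inr (s, t, v) =>
      show (c p).1 (if a.1 s t ∧ b.1 v x then t else s) (if a.1 s t ∧ b.1 v y then t else s)
      rcases (hc (c p)).2 ⟨p, rfl⟩ with h | h
      · by_cases hst : a.1 s t
        · have h1 : (c p).1 s t := h hst
          by_cases h2 : b.1 v x <;> by_cases h3 : b.1 v y
          · simp only [hst, h2, h3, and_self, if_true]; exact (c p).1.refl _
          · simp only [hst, h2, h3, and_self, and_false, if_true, if_false]
            exact (c p).1.symm h1
          · simp only [hst, h2, h3, and_self, and_false, if_true, if_false]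
            exact h1
          · simp only [h2, h3, and_false, if_false]; exact (c p).1.refl _
        · simp only [hst, false_and, if_false]; exact (c p).1.refl _
      · have h1 : b.1 x y := h hxy
        have h2 : b.1 v x ↔ b.1 v y :=
          ⟨fun h3 => b.1.trans h3 h1, fun h3 => b.1.trans h3 (b.1.symm h1)⟩
        simp only [h2]
        exact (c p).1.refl _
  · rintro ⟨r, hr⟩
    have hrf : ∀ (i : ι) (x y : A), r x y → r (f i x) (f i y) := fun i => hr (Sum.inl i)
    have key : a ≤ ⟨r, hrf⟩ ∨ ⟨r, hrf⟩ ≤ b := by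
      by_contra hcon
      rw [not_or] at hcon
      obtain ⟨h1, h2⟩ := hcon
      have h1' : ∃ x y, a.1 x y ∧ ¬ r x y := by
        by_contra hh
        push Not at hh
        exact h1 fun x y hxy => hh x y hxy
      have h2' : ∃ u v, r u v ∧ ¬ b.1 u v := by
        by_contra hh
        push Not at hh
        exact h2 fun x y hxy => hh x y hxy
      obtain ⟨x, y, hxy, hrxy⟩ := h1'
      obtain ⟨u, v, huv, hbuv⟩ := h2'
      apply hrxy
      have h3 := hr (Sum.inr (x, y, v)) u v huv
      have e1 : opSnow f a b (Sum.inr (x, y, v)) u = x := by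
        show (if a.1 x y ∧ b.1 v u then y else x) = x
        rw [if_neg]
        exact fun hh => hbuv (b.1.symm hh.2)
      have e2 : opSnow f a b (Sum.inr (x, y, v)) v = y := by
        show (if a.1 x y ∧ b.1 v v then y else x) = y
        rw [if_pos ⟨hxy, b.1.refl v⟩]
      rwa [e1, e2] at h3
    obtain ⟨p, hp⟩ := (hc _).1 key
    refine ⟨p, ?_⟩
    apply Subtype.ext
    show (c p).1 = r
    rw [hp]

end snow

section econ

variable {G J : Type} [Group G]

/-- the congruence attached to a closed subgroup -/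
def econ (H : Subgroup G) (φ : J → G →* G) (hφ : ∀ j, ∀ g ∈ H, φ j g ∈ H) (K : Subgroup G)
    (hK : H ≤ K) (hcl : ∀ j, ∀ g ∈ K, φ j g ∈ K) : UCon (opEnd H φ hφ) :=
  ⟨(icon H K hK).1, by
    intro i x y hxy
    match i with
    | Sum.inl g => exact (icon H K hK).2 g x y hxy
    | Sum.inr j =>
      induction x using QuotientGroup.induction_on with
      | H a =>
      induction y using QuotientGroup.induction_on with
      | H b =>
      rw [icon_iff] at hxy
      rw [opEnd_inr, opEnd_inr, icon_iff, ← map_inv, ← map_mul]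
      exact hcl j _ hxy⟩

theorem econ_le_iff (H : Subgroup G) (φ : J → G →* G) (hφ : ∀ j, ∀ g ∈ H, φ j g ∈ H)
    {K K' : Subgroup G} (hK : H ≤ K) (hcl : ∀ j, ∀ g ∈ K, φ j g ∈ K)
    (hK' : H ≤ K') (hcl' : ∀ j, ∀ g ∈ K', φ j g ∈ K') :
    econ H φ hφ K hK hcl ≤ econ H φ hφ K' hK' hcl' ↔ K ≤ K' := by
  constructor
  · intro h g hg
    have h1 : (icon H K hK).1 ((1 : G) : G ⧸ H) (g : G ⧸ H) := by
      rw [icon_iff]; simpa using hg
    have h2 : (icon H K' hK').1 ((1 : G) : G ⧸ H) (g : G ⧸ H) := h h1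
    rw [icon_iff] at h2
    simpa using h2
  · intro h
    show (icon H K hK).1 ≤ (icon H K' hK').1
    intro x y
    induction x using QuotientGroup.induction_on with
    | H a =>
    induction y using QuotientGroup.induction_on with
    | H b =>
    rw [icon_iff, icon_iff]
    exact fun hab => h hab

theorem exists_econ (H : Subgroup G) (φ : J → G →* G) (hφ : ∀ j, ∀ g ∈ H, φ j g ∈ H)
    (r : UCon (opEnd H φ hφ)) : ∃ (K : Subgroup G) (hK : H ≤ K)
      (hcl : ∀ j, ∀ g ∈ K, φ j g ∈ K), econ H φ hφ K hK hcl = r := by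
  obtain ⟨r, hr⟩ := r
  let r' : UCon (fun (g : G) (x : G ⧸ H) => g • x) := ⟨r, fun g x y h => hr (Sum.inl g) x y h⟩
  have hK : ∀ j, ∀ g ∈ isub H r', φ j g ∈ isub H r' := by
    intro j g hg
    have h1 : r ((1 : G) : G ⧸ H) (g : G ⧸ H) := hg
    have h2 := hr (Sum.inr j) _ _ h1
    rw [opEnd_inr, opEnd_inr, map_one] at h2
    exact h2
  refine ⟨isub H r', le_isub H r', hK, ?_⟩
  apply Subtype.ext
  show (icon H (isub H r') _).1 = r
  rw [icon_isub H r']

/-- Subgroups `S ≥ H` closed under endomorphisms with `K ≤ S` or `S ≤ E` form a congruence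
lattice. -/
theorem URep.intervalSnow {P : Type} {le : P → P → Prop} [Finite G] [Finite J]
    (H : Subgroup G) (φ : J → G →* G) (hφ : ∀ j, ∀ g ∈ H, φ j g ∈ H)
    (K E : Subgroup G) (hK : H ≤ K) (hE : H ≤ E) (hcK : ∀ j, ∀ g ∈ K, φ j g ∈ K)
    (hcE : ∀ j, ∀ g ∈ E, φ j g ∈ E) (c : P → Subgroup G)
    (hc : ∀ S, (H ≤ S ∧ (∀ j, ∀ g ∈ S, φ j g ∈ S) ∧ (K ≤ S ∨ S ≤ E)) ↔ ∃ p, c p = S)
    (hle : ∀ p q, c p ≤ c q ↔ le p q) : URep P le := by
  have hH : ∀ p, H ≤ c p := fun p => ((hc _).2 ⟨p, rfl⟩).1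
  have hcl : ∀ p, ∀ j, ∀ g ∈ c p, φ j g ∈ c p := fun p => ((hc _).2 ⟨p, rfl⟩).2.1
  have : Nonempty (G ⧸ H) := ⟨((1 : G) : G ⧸ H)⟩
  refine URep.snow (opEnd H φ hφ) (econ H φ hφ K hK hcK) (econ H φ hφ E hE hcE)
    (fun p => econ H φ hφ (c p) (hH p) (hcl p)) ?_ ?_
  · intro r
    constructor
    · intro h
      obtain ⟨S, hS, hclS, rfl⟩ := exists_econ H φ hφ r
      rw [econ_le_iff, econ_le_iff] at h
      obtain ⟨p, hp⟩ := (hc S).1 ⟨hS, hclS, h⟩
      refine ⟨p, ?_⟩
      subst hp
      rfl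
    · rintro ⟨p, rfl⟩
      rw [econ_le_iff, econ_le_iff]
      exact ((hc _).2 ⟨p, rfl⟩).2.2
  · intro p q
    rw [econ_le_iff]
    exact hle p q

end econ

end P183
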