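import Mathlib

/-!
# P183: doubly transitive groups containing an element of small support

Elementary (Bochert style): a 2-transitive subgroup `M` of `Sym(α)` which contains a nontrivial
element of support `m` with `m` small compared to `|α|` contains the alternating group.
-/

namespace Vale.Agent.P183

open Equiv Equiv.Perm Finset

variable {α : Type*} [Fintype α] [DecidableEq α]

/-- 2-transitivity of a permutation group. -/
def TwoTrans (M : Subgroup (Perm α)) : Prop :=
  ∀ a b c d : α, a ≠ b → c ≠ d → ∃ m ∈ M, m a = c ∧ m b = d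

open Classical in
/-- the elements of `M` as a finset -/
noncomputable def els (M : Subgroup (Perm α)) : Finset (Perm α) := univ.filter (· ∈ M)

lemma mem_els {M : Subgroup (Perm α)} {z : Perm α} : z ∈ els M ↔ z ∈ M := by
  simp [els]

/-- number of elements of `M` sending `a,b` to `c,d` -/
noncomputable def cnt (M : Subgroup (Perm α)) (a b c d : α) : ℕ :=
  ((els M).filter (fun z => z a = c ∧ z b = d)).card

lemma cnt_left {M : Subgroup (Perm α)} (hM : TwoTrans M) {a b c d c' d' : α}
    (h : c ≠ d) (h' : c' ≠ d') : cnt M a b c d = cnt M a b c' d' := by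
  obtain ⟨w, hw, h1, h2⟩ := hM c d c' d' h h'
  unfold cnt
  refine Finset.card_bij' (fun z _ => w * z) (fun z _ => w⁻¹ * z) ?_ ?_ ?_ ?_
  · intro z hz
    simp only [Finset.mem_filter, mem_els] at hz ⊢
    refine ⟨M.mul_mem hw hz.1, ?_, ?_⟩
    · simp [hz.2.1, h1]
    · simp [hz.2.2, h2]
  · intro z hz
    simp only [Finset.mem_filter, mem_els] at hz ⊢
    refine ⟨M.mul_mem (M.inv_mem hw) hz.1, ?_, ?_⟩
    · simp [hz.2.1, ← h1]
    · simp [hz.2.2, ← h2]
  · intro z _; simp
  · intro z _; simp

lemma cnt_right {M : Subgroup (Perm α)} (hM : TwoTrans M) {a b c d a' b' : α}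
    (h : a ≠ b) (h' : a' ≠ b') : cnt M a b c d = cnt M a' b' c d := by
  obtain ⟨w, hw, h1, h2⟩ := hM a' b' a b h' h
  unfold cnt
  refine Finset.card_bij' (fun z _ => z * w) (fun z _ => z * w⁻¹) ?_ ?_ ?_ ?_
  · intro z hz
    simp only [Finset.mem_filter, mem_els] at hz ⊢
    refine ⟨M.mul_mem hz.1 hw, ?_, ?_⟩
    · simp [hz.2.1, h1]
    · simp [hz.2.2, h2]
  · intro z hz
    simp only [Finset.mem_filter, mem_els] at hz ⊢
    refine ⟨M.mul_mem hz.1 (M.inv_mem hw), ?_, ?_⟩
    · simp [hz.2.1, ← h1]
    · simp [hz.2.2, ← h2]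
  · intro z _; simp
  · intro z _; simp

lemma cnt_const {M : Subgroup (Perm α)} (hM : TwoTrans M) {a b c d a' b' c' d' : α}
    (h1 : a ≠ b) (h2 : c ≠ d) (h3 : a' ≠ b') (h4 : c' ≠ d') :
    cnt M a b c d = cnt M a' b' c' d' :=
  (cnt_left hM h2 h4).trans (cnt_right hM h1 h3)

lemma cnt_pos {M : Subgroup (Perm α)} (hM : TwoTrans M) {a b c d : α}
    (h1 : a ≠ b) (h2 : c ≠ d) : 0 < cnt M a b c d := by
  obtain ⟨w, hw, h3, h4⟩ := hM a b c d h1 h2
  unfold cnt
  refine Finset.card_pos.mpr ⟨w, ?_⟩
  simp [mem_els, hw, h3, h4]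

/-- counting elements with `(z a, z b) ∈ P` -/
lemma card_pairs {M : Subgroup (Perm α)} (hM : TwoTrans M) {a b x y : α} (hab : a ≠ b)
    (hxy : x ≠ y) (P : Finset (α × α)) (hP : ∀ p ∈ P, p.1 ≠ p.2) :
    ((els M).filter (fun z => (z a, z b) ∈ P)).card = P.card * cnt M x y x y := by
  rw [Finset.card_eq_sum_card_fiberwise (f := fun z : Perm α => (z a, z b)) (t := P)]
  · rw [Finset.sum_const_nat (m := cnt M x y x y)]
    intro p hp
    rw [← cnt_const hM hab (hP p hp) hxy hxy]
    unfold cnt
    congr 1
    ext z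
    simp only [Finset.mem_filter, mem_els]
    constructor
    · rintro ⟨⟨h1, _⟩, h3⟩
      refine ⟨h1, ?_, ?_⟩
      · rw [← h3]
      · rw [← h3]
    · rintro ⟨h1, h2, h3⟩
      have : (z a, z b) = p := Prod.ext h2 h3
      exact ⟨⟨h1, this ▸ hp⟩, this⟩
  · intro z hz
    simp only [Finset.coe_filter, Set.mem_ofPred_eq] at hz
    exact hz.2

lemma exists_good {M : Subgroup (Perm α)} (hM : TwoTrans M) {g : Perm α} (hg1 : g ≠ 1)
    (hn : g.support.card < Fintype.card α) :
    ∃ z ∈ M, (∃ b ∈ g.support, z b ∈ g.support ∧ z (g b) ∉ g.support) ∧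
      (g.support.filter (fun b => z b ∈ g.support)).card * (Fintype.card α - g.support.card) ≤
        (Fintype.card α - 1) + (g.support.card - 1) ^ 2 := by
  set S := g.support with hS
  set n := Fintype.card α with hnn
  set m := S.card with hm
  obtain ⟨x, hx⟩ : ∃ x, x ∈ S := by
    by_contra hcon
    push Not at hcon
    apply hg1
    rw [← support_eq_empty_iff]
    exact Finset.eq_empty_of_forall_notMem hcon
  have hxg : x ≠ g x := by
    have := (mem_support.mp (hS ▸ hx))
    exact fun h => this h.symm
  have hmpos : 0 < m := Finset.card_pos.mpr ⟨x, hx⟩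
  set N := cnt M x (g x) x (g x) with hN
  have hNpos : 0 < N := cnt_pos hM hxg hxg
  let I : Perm α → ℕ := fun z => (S.filter (fun b => z b ∈ S)).card
  let W : Perm α → ℕ := fun z => (S.filter (fun b => z b ∈ S ∧ z (g b) ∉ S)).card
  have hWI : ∀ z, W z ≤ I z := by
    intro z
    apply Finset.card_le_card
    intro b hb
    simp only [Finset.mem_filter] at hb ⊢
    exact ⟨hb.1, hb.2.1⟩
  have hsumW : ∑ z ∈ els M, W z = m * (m * (n - m) * N) := by
    have h1 : ∀ z, W z = ∑ b ∈ S, if z b ∈ S ∧ z (g b) ∉ S then 1 else 0 := by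
      intro z
      simp only [W, Finset.card_filter]
    simp_rw [h1]
    rw [Finset.sum_comm]
    rw [Finset.sum_const_nat (m := m * (n - m) * N)]
    intro b hb
    rw [← Finset.card_filter]
    have hbg : b ≠ g b := by
      have := (mem_support.mp (hS ▸ hb))
      exact fun h => this h.symm
    have := card_pairs hM hbg hxg (S ×ˢ Sᶜ) (by
      intro p hp h
      simp only [Finset.mem_product, Finset.mem_compl] at hp
      exact hp.2 (h ▸ hp.1))
    rw [Finset.card_product, Finset.card_compl] at this
    rw [← this]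
    congr 1
    ext z
    simp
  have hone : ∀ b ∈ S, ((els M).filter (fun z => z b ∈ S)).card = m * (n - 1) * N := by
    intro b hb
    have hbg : b ≠ g b := by
      have := (mem_support.mp (hS ▸ hb))
      exact fun h => this h.symm
    have := card_pairs hM hbg hxg ((S ×ˢ (univ : Finset α)).filter (fun p => p.1 ≠ p.2)) (by
      intro p hp
      exact (Finset.mem_filter.mp hp).2)
    have hc : ((S ×ˢ (univ : Finset α)).filter (fun p => p.1 ≠ p.2)).card = m * (n - 1) := by
      rw [Finset.card_filter, Finset.sum_product]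
      rw [Finset.sum_const_nat (m := n - 1)]
      intro c _
      rw [← Finset.card_filter]
      have : (univ.filter (fun d : α => c ≠ d)) = univ.erase c := by
        ext d; simp [eq_comm]
      rw [this, Finset.card_erase_of_mem (Finset.mem_univ c), Finset.card_univ]
    rw [hc] at this
    rw [← this]
    congr 1
    ext z
    simp only [Finset.mem_filter, Finset.mem_product, Finset.mem_univ, and_true]
    constructor
    · rintro ⟨h1, h2⟩
      exact ⟨h1, h2, fun h => hbg (z.injective h)⟩
    · rintro ⟨h1, h2, _⟩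
      exact ⟨h1, h2⟩
  have htwo : ∀ b ∈ S, ∀ b' ∈ S, b ≠ b' →
      ((els M).filter (fun z => z b ∈ S ∧ z b' ∈ S)).card = m * (m - 1) * N := by
    intro b hb b' hb' hbb
    have := card_pairs hM hbb hxg S.offDiag (by
      intro p hp
      exact (Finset.mem_offDiag.mp hp).2.2)
    rw [Finset.offDiag_card] at this
    have hmm : m * (m - 1) = S.card * S.card - S.card := by
      rw [Nat.mul_sub, mul_one]
    rw [hmm, ← this]
    congr 1
    ext z
    simp only [Finset.mem_filter, Finset.mem_offDiag]
    constructor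
    · rintro ⟨h1, h2, h3⟩
      exact ⟨h1, h2, h3, fun h => hbb (z.injective h)⟩
    · rintro ⟨h1, h2, h3, _⟩
      exact ⟨h1, h2, h3⟩
  have hsumI : ∑ z ∈ els M, I z * I z = m * (m * (n - 1) * N + (m - 1) * (m * (m - 1) * N)) := by
    have h1 : ∀ z, I z * I z =
        ∑ b ∈ S, ∑ b' ∈ S, if z b ∈ S ∧ z b' ∈ S then 1 else 0 := by
      intro z
      simp only [I, Finset.card_filter]
      rw [Finset.sum_mul_sum]
      refine Finset.sum_congr rfl fun b _ => Finset.sum_congr rfl fun b' _ => ?_
      by_cases h1 : z b ∈ S <;> by_cases h2 : z b' ∈ S <;> simp [h1, h2]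
    simp_rw [h1]
    rw [Finset.sum_comm]
    rw [Finset.sum_const_nat (m := m * (n - 1) * N + (m - 1) * (m * (m - 1) * N))]
    intro b hb
    rw [Finset.sum_comm]
    rw [← Finset.add_sum_erase S _ hb]
    congr 1
    · rw [← hone b hb, Finset.card_filter]
      refine Finset.sum_congr rfl fun z _ => ?_
      simp
    · rw [Finset.sum_const_nat (m := m * (m - 1) * N)]
      · rw [Finset.card_erase_of_mem hb]
      · intro b' hb'
        rw [← Finset.card_filter]
        exact htwo b hb b' (Finset.mem_of_mem_erase hb') (Finset.ne_of_mem_erase hb').symm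
  by_contra hcon
  push Not at hcon
  have hall : ∀ z ∈ els M, W z * ((n - 1) + (m - 1) ^ 2 + 1) ≤ W z * (I z * (n - m)) := by
    intro z hz
    rcases Nat.eq_zero_or_pos (W z) with h0 | hpos
    · simp [h0]
    · apply Nat.mul_le_mul_left
      obtain ⟨b, hb⟩ := Finset.card_pos.mp hpos
      simp only [Finset.mem_filter] at hb
      exact hcon z (mem_els.mp hz) ⟨b, hb.1, hb.2.1, hb.2.2⟩
  have h1 := Finset.sum_le_sum hall
  rw [← Finset.sum_mul, hsumW] at h1
  have h2 : ∑ z ∈ els M, W z * (I z * (n - m)) ≤ (∑ z ∈ els M, I z * I z) * (n - m) := by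
    rw [Finset.sum_mul]
    apply Finset.sum_le_sum
    intro z _
    rw [← mul_assoc]
    exact Nat.mul_le_mul_right _ (Nat.mul_le_mul_right _ (hWI z))
  rw [hsumI] at h2
  have h3 := h1.trans h2
  have hnm : 0 < n - m := Nat.sub_pos_of_lt hn
  have e1 : m * (m * (n - m) * N) * ((n - 1) + (m - 1) ^ 2 + 1)
      = (m * m * (n - m) * N) * ((n - 1) + (m - 1) ^ 2) + m * m * (n - m) * N := by ring
  have e2 : m * (m * (n - 1) * N + (m - 1) * (m * (m - 1) * N)) * (n - m)
      = (m * m * (n - m) * N) * ((n - 1) + (m - 1) ^ 2) := by ring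
  rw [e1, e2] at h3
  have : 0 < m * m * (n - m) * N := by positivity
  omega

/-- support of a commutator -/
lemma support_comm (g h : Perm α) :
    (g * h * g⁻¹ * h⁻¹).support ⊆ (g.support ∩ h.support) ∪
      ((g.support ∩ h.support).map g.toEmbedding) ∪
      ((g.support ∩ h.support).map h.toEmbedding) := by
  intro x hx
  by_contra hcon
  simp only [Finset.mem_union, not_or, Finset.mem_map, Equiv.coe_toEmbedding, not_exists,
    not_and] at hcon
  obtain ⟨⟨c1, c2⟩, c3⟩ := hcon
  rw [mem_support] at hx
  apply hx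
  simp only [Perm.coe_mul, Function.comp_apply]
  have key1 : ∀ w, g w = w ∨ w ∈ g.support := by
    intro w
    by_cases hw : g w = w
    · exact Or.inl hw
    · exact Or.inr (mem_support.mpr hw)
  have key2 : ∀ w, h w = w ∨ w ∈ h.support := by
    intro w
    by_cases hw : h w = w
    · exact Or.inl hw
    · exact Or.inr (mem_support.mpr hw)
  rcases key2 (h⁻¹ x) with h1 | h1
  · -- h fixes x
    have hx1 : h⁻¹ x = x := by
      have : h (h⁻¹ x) = x := by simp
      rw [h1] at this
      exact this
    rw [hx1]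
    rcases key2 (g⁻¹ x) with h2 | h2
    · rw [h2]; simp
    · rcases key1 (g⁻¹ x) with h3 | h3
      · have : g⁻¹ x = x := by
          have h4 : g (g⁻¹ x) = x := by simp
          rw [h3] at h4
          exact h4
        rw [this]
        have hhx : h x = x := by
          rw [hx1] at h1; exact h1
        rw [hhx]
        rw [this] at h3
        exact h3
      · exfalso
        exact c2 (g⁻¹ x) (Finset.mem_inter.mpr ⟨h3, h2⟩) (by simp)
  · rcases key1 (h⁻¹ x) with h3 | h3
    · have h5 : g⁻¹ (h⁻¹ x) = h⁻¹ x := by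
        rw [Perm.inv_eq_iff_eq]; exact h3.symm
      rw [h5]
      have h6 : h (h⁻¹ x) = x := by simp
      rw [h6]
      rcases key1 x with h7 | h7
      · exact h7
      · exfalso
        have h8 : x ∈ h.support := by
          have := (Perm.apply_mem_support (f := h) (x := h⁻¹ x)).mpr h1
          simpa using this
        exact c1 (Finset.mem_inter.mpr ⟨h7, h8⟩)
    · exfalso
      exact c3 (h⁻¹ x) (Finset.mem_inter.mpr ⟨h3, h1⟩) (by simp)

/-- One step of the reduction. -/
lemma step {M : Subgroup (Perm α)} (hM : TwoTrans M) {g : Perm α} (hgM : g ∈ M) (hg1 : g ≠ 1)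
    (hn : g.support.card < Fintype.card α) :
    ∃ c ∈ M, c ≠ 1 ∧ sign c = 1 ∧ ∃ k : ℕ, c.support.card ≤ 3 * k ∧
      k * (Fintype.card α - g.support.card) ≤
        (Fintype.card α - 1) + (g.support.card - 1) ^ 2 := by
  obtain ⟨z, hz, ⟨b, hb, hb1, hb2⟩, hk⟩ := exists_good hM hg1 hn
  set h : Perm α := z * g * z⁻¹ with hh
  have hhM : h ∈ M := M.mul_mem (M.mul_mem hz hgM) (M.inv_mem hz)
  have hsupp : h.support = g.support.map z.toEmbedding := by
    rw [hh, Perm.support_conj]
  refine ⟨g * h * g⁻¹ * h⁻¹, ?_, ?_, ?_,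
    (g.support.filter (fun b => z b ∈ g.support)).card, ?_, hk⟩
  · exact M.mul_mem (M.mul_mem (M.mul_mem hgM hhM) (M.inv_mem hgM)) (M.inv_mem hhM)
  · intro hcon
    have hcomm : g * h = h * g := by
      have := congrArg (fun t => t * h * g) hcon
      simpa [mul_assoc] using this
    have e1 : h (z b) = z (g b) := by simp [hh]
    have e2 : g (h (z b)) = h (g (z b)) := by
      have := congrArg (fun t : Perm α => t (z b)) hcomm
      simpa using this
    have e3 : g (h (z b)) = h (z b) := by
      rw [e1]
      exact notMem_support.mp hb2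
    rw [e3] at e2
    have e4 := h.injective e2
    exact (mem_support.mp hb1) e4.symm
  · simp [Perm.sign_mul, Perm.sign_inv, mul_comm, mul_left_comm]
  · have hI : (g.support ∩ h.support).card =
        (g.support.filter (fun b => z b ∈ g.support)).card := by
      rw [hsupp]
      rw [← Finset.card_map z.toEmbedding (s := g.support.filter (fun b => z b ∈ g.support))]
      congr 1
      ext x
      simp only [Finset.mem_inter, Finset.mem_map, Equiv.coe_toEmbedding, Finset.mem_filter]
      constructor
      · rintro ⟨h1, y, h2, rfl⟩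
        exact ⟨y, ⟨h2, h1⟩, rfl⟩
      · rintro ⟨y, ⟨h1, h2⟩, rfl⟩
        exact ⟨h2, y, h1, rfl⟩
    refine (Finset.card_le_card (support_comm g h)).trans ?_
    refine (Finset.card_union_le _ _).trans ?_
    refine (Nat.add_le_add_right (Finset.card_union_le _ _) _).trans ?_
    rw [Finset.card_map, Finset.card_map, hI]
    omega

omit [Fintype α] [DecidableEq α] in
lemma isPreprimitive_of_twoTrans {M : Subgroup (Perm α)} (hM : TwoTrans M) :
    MulAction.IsPreprimitive M α := by
  apply MulAction.isPreprimitive_of_is_two_pretransitive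
  rw [MulAction.is_two_pretransitive_iff]
  intro a b c d hab hcd
  obtain ⟨w, hw, h1, h2⟩ := hM a b c d hab hcd
  exact ⟨⟨w, hw⟩, h1, h2⟩

/-- A doubly transitive group on `n > 225` points containing an element `g ≠ 1` with support
`m`, `n - 1 + (m-1)^2 < 6 (n - m)`, contains the alternating group. -/
theorem alternating_le {M : Subgroup (Perm α)} (hM : TwoTrans M) {g : Perm α} (hgM : g ∈ M)
    (hg1 : g ≠ 1) (hn : 225 < Fintype.card α) (hlt : g.support.card < Fintype.card α)
    (hm : (Fintype.card α - 1) + (g.support.card - 1) ^ 2 <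
      6 * (Fintype.card α - g.support.card)) :
    alternatingGroup α ≤ M := by
  obtain ⟨c, hc, hc1, -, k, hk1, hk2⟩ := step hM hgM hg1 hlt
  have hk : k < 6 := by
    by_contra hcon
    push Not at hcon
    have := Nat.mul_le_mul_right (Fintype.card α - g.support.card) hcon
    omega
  have hcs : c.support.card ≤ 15 := by omega
  obtain ⟨e, he, he1, hes, j, hj1, hj2⟩ := step hM hc hc1 (by omega)
  have hsq : (c.support.card - 1) ^ 2 ≤ 14 ^ 2 := Nat.pow_le_pow_left (by omega) 2
  have hj : j < 2 := by
    by_contra hcon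
    push Not at hcon
    have := Nat.mul_le_mul_right (Fintype.card α - c.support.card) hcon
    omega
  have hes3 : e.support.card ≤ 3 := by omega
  have h0 : e.support.card ≠ 0 := by
    intro h
    exact he1 (by simpa using h)
  have h1 : e.support.card ≠ 1 := Perm.card_support_ne_one e
  have h2 : e.support.card ≠ 2 := by
    intro h
    have := Perm.IsSwap.sign_eq (Perm.card_support_eq_two.mp h)
    rw [hes] at this
    exact absurd this (by decide)
  have h3 : e.support.card = 3 := by omega
  exact Perm.alternatingGroup_le_of_isPreprimitive_of_isThreeCycle_mem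
    (isPreprimitive_of_twoTrans hM) (card_support_eq_three_iff.mp h3) he

end Vale.Agent.P183
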