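import Vale.Agent.P183.SL64

/-!
# P183: the winged 2 x 3 lattice as an interval of a subgroup lattice
-/

namespace P183

open Vale.Agent.P183.SL

/-- The seven-element lattice with proper part `1 < 2`, `1 < 3`, `4 < 2` and an isolated point
is an interval of the subgroup lattice of a finite group. -/
theorem winged_interval : ∃ (G : Type) (_ : Group G) (_ : Finite G) (H : Subgroup G)
    (e : Fin 7 ≃ {K : Subgroup G // H ≤ K}), ∀ i j : Fin 7, e i ≤ e j ↔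
      (i = j ∨ i = 0 ∨ j = 6 ∨ (i = 1 ∧ j = 2) ∨ (i = 1 ∧ j = 3) ∨ (i = 4 ∧ j = 2)) := by
  obtain ⟨G, hG, hfin, ⟨S⟩⟩ := exists_setup
  have hge : ∀ K : Subgroup G, S.sub 0 ≤ K ↔ ∃ p : Fin 7, S.sub p = K := by
    intro K
    rw [S.ge_iff]
    constructor
    · rintro ⟨j, hj, h⟩; exact ⟨⟨j, hj⟩, h⟩
    · rintro ⟨p, h⟩; exact ⟨p, p.2, h⟩
  have hle : ∀ p q : Fin 7, S.sub p ≤ S.sub q ↔
      (p = q ∨ p = 0 ∨ q = 6 ∨ (p = 1 ∧ q = 2) ∨ (p = 1 ∧ q = 3) ∨ (p = 4 ∧ q = 2)) := by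
    intro p q
    rw [S.sub_le_iff p.2 q.2]
    revert p q
    decide
  have key : ∀ p q : Fin 7,
      (p = q ∨ p = 0 ∨ q = 6 ∨ (p = 1 ∧ q = 2) ∨ (p = 1 ∧ q = 3) ∨ (p = 4 ∧ q = 2)) →
      (q = p ∨ q = 0 ∨ p = 6 ∨ (q = 1 ∧ p = 2) ∨ (q = 1 ∧ p = 3) ∨ (q = 4 ∧ p = 2)) →
      p = q := by
    decide
  let f : Fin 7 → {K : Subgroup G // S.sub 0 ≤ K} := fun p => ⟨S.sub p, (hge _).2 ⟨p, rfl⟩⟩
  have hf : Function.Bijective f := by
    constructor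
    · intro p q hpq
      have h1 : S.sub p = S.sub q := congrArg Subtype.val hpq
      exact key p q ((hle p q).1 h1.le) ((hle q p).1 h1.ge)
    · rintro ⟨K, hK⟩
      obtain ⟨p, hp⟩ := (hge K).1 hK
      exact ⟨p, Subtype.ext hp⟩
  refine ⟨G, hG, hfin, S.sub 0, Equiv.ofBijective f hf, ?_⟩
  intro i j
  exact hle i j

end P183
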